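import Mathlib
import Crest.Prelude.Def_ModularData

/-! Statements for the Kadison–Kastler linear lifting (see `Plan.lean`). -/

set_option autoImplicit false

namespace Crest.Agent.H1KK

open scoped InnerProductSpace
open Crest.OpAlg

universe u
variable {H : Type u} [NormedAddCommGroup H] [InnerProductSpace ℂ H] [CompleteSpace H]

/-- the unit ball of `M` is `δ`-contained in the unit ball of `N` -/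
def Near (M N : VonNeumannAlgebra H) (δ : ℝ) : Prop :=
  ∀ x ∈ M, ‖x‖ ≤ 1 → ∃ y ∈ N, ‖y‖ ≤ 1 ∧ ‖x - y‖ ≤ δ

/-- isometries with orthogonal ranges -/
def Iso (t : ℕ → H →L[ℂ] H) : Prop := ∀ a b, star (t a) * t b = if a = b then 1 else 0

/-- The standing setting. -/
structure Setting (M N : VonNeumannAlgebra H) (δ : ℝ) (t t' : ℕ → H →L[ℂ] H) : Prop where
  mn : Near M N δ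
  nm : Near N M δ
  mn' : Near M.commutant N.commutant δ
  iso : Iso t
  iso' : Iso t'
  tM : ∀ a, t a ∈ M
  tN : ∀ a, t a ∈ N
  tM' : ∀ a, t' a ∈ M.commutant
  tN' : ∀ a, t' a ∈ N.commutant

/-- relation `∑ pₖ xₖ ⊗ ω_{ξₖ,ηₖ}|_N = 0` -/
def Rel (N : VonNeumannAlgebra H) {κ : Type} [Fintype κ] (p : κ → ℝ) (x : κ → H →L[ℂ] H)
    (ξ η : κ → H) : Prop :=
  ∀ y ∈ N, ∑ k, ((p k : ℂ) * ⟪η k, y (ξ k)⟫_ℂ) • x k = 0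

/-- vector relation `∑ pₖ xₖ ⊗ conj βₖ = 0` -/
def VRel {κ : Type} [Fintype κ] (p : κ → ℝ) (x : κ → H →L[ℂ] H) (β : κ → H) : Prop :=
  ∀ ζ : H, ∑ k, ((p k : ℂ) * ⟪β k, ζ⟫_ℂ) • x k = 0

/-- the norm `𝒩` (for `S = N`) and `𝒩'` (for `S = N'`) -/
def NB (S : VonNeumannAlgebra H) {κ : Type} [Fintype κ] (p : κ → ℝ) (β : κ → H) (c : ℝ) : Prop :=
  ∀ (ζ : H) (a : κ → H →L[ℂ] H), (∀ k, a k ∈ S ∧ ‖a k‖ ≤ 1) →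
    ‖∑ k, (p k : ℂ) * ⟪β k, a k ζ⟫_ℂ‖ ≤ c * ‖ζ‖

/-- symmetric letter system almost fixing `ξ` -/
structure LS (M : VonNeumannAlgebra H) {I : Type} [Fintype I] (p : I → ℝ) (s : I → I)
    (g g' : I → H →L[ℂ] H) (ξ : H) (ε : ℝ) : Prop where
  p_nonneg : ∀ i, 0 ≤ p i
  p_sum : ∑ i, p i = 1
  s_s : ∀ i, s (s i) = i
  p_s : ∀ i, p (s i) = p i
  g_mem : ∀ i, g i ∈ M
  g_unit : ∀ i, g i ∈ unitary (H →L[ℂ] H)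
  g_s : ∀ i, g (s i) = star (g i)
  g'_mem : ∀ i, g' i ∈ M.commutant
  g'_unit : ∀ i, g' i ∈ unitary (H →L[ℂ] H)
  g'_s : ∀ i, g' (s i) = star (g' i)
  inv : ∑ i, p i * ‖g i (g' i ξ) - ξ‖ ^ 2 ≤ ε ^ 2

/-- T5: the one-round coin lemma. -/
def CoinB (H : Type u) [NormedAddCommGroup H] [InnerProductSpace ℂ H] [CompleteSpace H] : Prop :=
  ∀ (M N : VonNeumannAlgebra H) (δ : ℝ), 0 ≤ δ → Near M N δ → Near M.commutant N.commutant δ →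
  ∀ (I : Type) [Fintype I] (p : I → ℝ) (s : I → I) (g g' : I → H →L[ℂ] H) (ξ : H) (ε : ℝ),
    0 ≤ ε → LS M p s g g' ξ ε →
  ∀ (β : I → H) (c c' b : ℝ), 0 ≤ c → 0 ≤ c' → VRel p g β → NB N p β c → NB N.commutant p β c' →
    ∑ i, p i * ‖β i‖ ^ 2 ≤ b →
  ∀ v : I → H →L[ℂ] H, (∀ i, v i ∈ N ∧ ‖v i‖ ≤ 1 ∧ ‖g i - v i‖ ≤ δ) →
  ∀ K : ℕ, 1 ≤ K →
    ‖∑ i, (p i : ℂ) * ⟪β i, v i ξ⟫_ℂ‖ ≤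
      (6 * δ * ‖ξ‖ + √K * ε) * c + δ * ‖ξ‖ * √(b / K + c * c')

/-- T2a: a finite sum of vector functionals with small norm on `N` is one vector functional with
small vectors. -/
def LemQ (H : Type u) [NormedAddCommGroup H] [InnerProductSpace ℂ H] [CompleteSpace H] : Prop :=
  ∀ (N : VonNeumannAlgebra H) (t' : ℕ → H →L[ℂ] H), Iso t' → (∀ a, t' a ∈ N.commutant) →
  ∀ (κ : Type) [Fintype κ] (a b : κ → H) (c τ : ℝ), 0 < τ →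
    (∀ y ∈ N, ‖y‖ ≤ 1 → ‖∑ k, ⟪b k, y (a k)⟫_ℂ‖ ≤ c) →
    ∃ α β : H, ‖α‖ = ‖β‖ ∧ ‖α‖ ^ 2 ≤ c + τ ∧ ∀ y ∈ N, ∑ k, ⟪b k, y (a k)⟫_ℂ = ⟪β, y α⟫_ℂ

/-- T2b: norm-close vector states have Bures-close vectors. -/
def Bures (H : Type u) [NormedAddCommGroup H] [InnerProductSpace ℂ H] [CompleteSpace H] : Prop :=
  ∀ (M : VonNeumannAlgebra H) (t' : ℕ → H →L[ℂ] H), Iso t' → (∀ a, t' a ∈ M.commutant) →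
  ∀ (ζ₁ ζ₂ : H) (c τ : ℝ), 0 < τ →
    (∀ y ∈ M, ‖y‖ ≤ 1 → ‖⟪ζ₁, y ζ₁⟫_ℂ - ⟪ζ₂, y ζ₂⟫_ℂ‖ ≤ c) →
    ∃ w ∈ M.commutant, ‖w‖ ≤ 1 ∧ ‖w ζ₁ - ζ₂‖ ^ 2 ≤ c + τ

/-- T6: round A makes the marks global. -/
def RoundA (H : Type u) [NormedAddCommGroup H] [InnerProductSpace ℂ H] [CompleteSpace H] : Prop :=
  ∀ κ₀ θ : ℝ, 1 ≤ κ₀ → 0 < θ → ∃ Jb : ℝ, 0 < Jb ∧
  ∀ (M N : VonNeumannAlgebra H) (δ : ℝ) (t t' : ℕ → H →L[ℂ] H), 0 ≤ δ → δ ≤ 1 →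
    Setting M N δ t t' →
  ∀ (I : Type) [Fintype I] (p : I → ℝ) (s : I → I) (g g' : I → H →L[ℂ] H) (ξ : H) (ε : ℝ),
    ‖ξ‖ = 1 → LS M p s g g' ξ ε →
  ∀ (Y : I → H →L[ℂ] H) (η : I → H) (b : ℝ), (∀ i, Y i ∈ M.commutant) → (∀ i, ‖Y i ξ‖ ≤ 1) →
    (∀ i, ‖η i‖ ≤ 1) → (∀ ζ, ∑ i, p i * ‖Y i ζ‖ ^ 2 ≤ κ₀ * ‖ζ‖ ^ 2) → (∀ i, ‖Y i‖ ^ 2 ≤ b) →
    Rel N p g (fun i => Y i ξ) η → Jb * (b + 1) * ε ^ 2 ≤ 1 →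
  ∃ (Ω : Type) (_ : Fintype Ω) (P : Ω → ℝ) (W w w' : Ω → H →L[ℂ] H) (α α' : H) (a a' : Ω → H),
    (∀ o, 0 ≤ P o) ∧ ∑ o, P o = 1 ∧ (∀ o, W o ∈ M ∧ W o ∈ unitary (H →L[ℂ] H)) ∧
    (∀ o, w o ∈ M.commutant ∧ ‖w o‖ ≤ 1 ∧ w' o ∈ M.commutant ∧ ‖w' o‖ ≤ 1) ∧
    ‖α‖ ≤ 2 ∧ ‖α'‖ ≤ 2 ∧ (∀ o, ‖a o‖ = ‖a' o‖) ∧
    ∑ o, P o * ‖a o‖ ^ 2 ≤ 20 * δ + θ ∧
    ∑ o, P o * ‖W o α - w o α‖ ^ 2 ≤ θ ∧ ∑ o, P o * ‖W o α' - w' o α'‖ ^ 2 ≤ θ ∧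
    (∀ y ∈ N, ∑ o, ((P o : ℂ) * (⟪W o α', y α⟫_ℂ + ⟪a' o, y (a o)⟫_ℂ)) • W o = 0) ∧
    ‖⟪α', α⟫_ℂ - (1 / 2 : ℂ) * ∑ i, (p i : ℂ) * ⟪η i, g i (Y i ξ)⟫_ℂ‖ ≤ θ

/-- the function `tanh (u/2)` -/
noncomputable def th : BoundedContinuousFunction ℝ ℂ :=
  BoundedContinuousFunction.ofNormedAddCommGroup
    (fun u : ℝ => ((Real.tanh (u / 2) : ℝ) : ℂ))
    (by
      have : Continuous fun u : ℝ => Real.tanh (u / 2) := by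
        simp only [Real.tanh_eq_sinh_div_cosh]
        exact Continuous.div (by fun_prop) (by fun_prop) fun u => (Real.cosh_pos _).ne'
      exact Complex.continuous_ofReal.comp this) 1
    (fun u => by
      rw [Complex.norm_real, Real.norm_eq_abs]; exact (Real.abs_tanh_lt_one _).le)

/-- modular data of an arbitrary vector (`q` = projection on the closure of `M' ξ`) -/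
structure MD (M : VonNeumannAlgebra H) (ξ : H) where
  D : LineCalculus H
  q : H →L[ℂ] H
  σ : ℝ → (H →L[ℂ] H) →ₗ[ℂ] (H →L[ℂ] H)
  ρ : ℝ → (H →L[ℂ] H) → (H →L[ℂ] H)
  q_mem : q ∈ M
  q_proj : IsStarProjection q
  q_fix : ∀ z ∈ M.commutant, q (z ξ) = z ξ
  σ_mem : ∀ t, ∀ x ∈ M, σ t x ∈ M
  σ_norm : ∀ t, ∀ x ∈ M, ‖σ t x‖ ≤ ‖x‖
  σ_star : ∀ t, ∀ x ∈ M, σ t (star x) = star (σ t x)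
  σ_cont : ∀ x ∈ M, ∀ v, Continuous fun t => σ t x v
  σ_vac : ∀ t, ∀ x ∈ M, σ t x ξ = D.wave t (q (x ξ))
  ρ_mem : ∀ t, ∀ x ∈ M, ρ t x ∈ M.commutant
  ρ_norm : ∀ t, ∀ x ∈ M, ‖ρ t x‖ ≤ ‖x‖
  ρ_star : ∀ t, ∀ x ∈ M, ρ t (star x) = star (ρ t x)
  ρ_cont : ∀ x ∈ M, ∀ v, Continuous fun t => ρ t x v
  ρ_vac : ∀ t, ∀ x ∈ M, ρ t x ξ = D.wave t (ρ 0 x ξ)
  half : ∀ x ∈ M, star x = x → D.HalfExp (q (x ξ)) (ρ 0 x ξ)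
  band : ∀ x ∈ M, ∀ w ∈ M.commutant, ‖x‖ ≤ 1 → ‖w‖ ≤ 1 → ∀ d : ℝ, ‖x ξ - w ξ‖ ≤ d →
    ‖ξ‖ - d ≤ ‖x ξ‖ → ‖D.apply th (q (x ξ))‖ ^ 2 ≤ 2 * ‖ξ‖ * (7 * d + 4 * √(‖ξ‖ * d))

/-- T1: Tomita–Takesaki. -/
def HasMD (H : Type u) [NormedAddCommGroup H] [InnerProductSpace ℂ H] [CompleteSpace H] : Prop :=
  ∀ (M : VonNeumannAlgebra H) (ξ : H), Nonempty (MD M ξ)

/-- T4: Gaussian band limit of marks. -/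
def Band (H : Type u) [NormedAddCommGroup H] [InnerProductSpace ℂ H] [CompleteSpace H] : Prop :=
  ∀ (N : VonNeumannAlgebra H) (ξ : H), ∃ G : H →L[ℂ] H, star G = G ∧ ‖G‖ ≤ 1 ∧
    (∀ ζ, G ζ ∈ closure {v | ∃ y ∈ N, v = y ξ}) ∧
    (∀ (κ : Type) [Fintype κ] (p : κ → ℝ) (y z : κ → H →L[ℂ] H) (c₁ c₂ : ℝ), (∀ k, 0 ≤ p k) →
      0 ≤ c₁ → 0 ≤ c₂ → (∀ k, y k ∈ N.commutant) → (∀ k, z k ∈ N.commutant) →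
      ((∀ ζ, ∑ k, p k * ‖y k ζ‖ ^ 2 ≤ c₁ ^ 2 * ‖ζ‖ ^ 2) → ∑ k, p k * ‖z k ξ‖ ^ 2 ≤ c₂ ^ 2 →
        NB N p (fun k => G (star (y k) (z k ξ))) (c₁ * c₂)) ∧
      ((∀ ζ, ∑ k, p k * ‖z k ζ‖ ^ 2 ≤ c₁ ^ 2 * ‖ζ‖ ^ 2) → ∑ k, p k * ‖y k ξ‖ ^ 2 ≤ c₂ ^ 2 →
        NB N.commutant p (fun k => G (star (y k) (z k ξ))) (2 * c₁ * c₂))) ∧
    (∀ x ∈ N, ∀ w ∈ N.commutant, ‖x‖ ≤ 1 → ‖w‖ ≤ 1 → ∀ d : ℝ, ‖x ξ - w ξ‖ ≤ d →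
      ‖ξ‖ - d ≤ ‖x ξ‖ → ‖G (x ξ) - x ξ‖ ^ 2 ≤ 100 * (d ^ 2 + ‖ξ‖ * (7 * d + 4 * √(‖ξ‖ * d))))

/-- the battery embedding with `n` levels -/
def EmbOut (M N : VonNeumannAlgebra H) (ξ : H) (n : ℕ) (κ₀ E₀ : ℝ)
    (Φ : (H →L[ℂ] H) →ₗ[ℂ] (H →L[ℂ] H)) : Prop :=
  ∃ (E : Type) (_ : Fintype E) (_ : Nonempty E) (ξ₁ : H) (A Y : E → H →L[ℂ] H)
    (Θ : E → (H →L[ℂ] H) →ₗ[ℂ] (H →L[ℂ] H)),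
    ‖ξ₁‖ = ‖ξ‖ ∧
    (∀ e, A e ∈ M ∧ A e ∈ N ∧ star (A e) * A e = 1 ∧ Y e ∈ M.commutant ∧ Y e ∈ N.commutant ∧
      Y e ξ₁ = A e ξ ∧ ‖Y e‖ ^ 2 ≤ n * κ₀) ∧
    (∀ ζ, ∑ e, ‖Y e ζ‖ ^ 2 ≤ Fintype.card E * κ₀ * ‖ζ‖ ^ 2) ∧
    (∀ ζ, n * ∑ e, ‖star (A e) ζ‖ ^ 2 ≤ Fintype.card E * ‖ζ‖ ^ 2) ∧
    (∀ e, ∀ x ∈ M, star (A e) * Θ e x * A e = Φ x) ∧
    ∀ e, ∀ x ∈ M, ‖x‖ ≤ 1 → ∃ g g' : Bool × Bool → H →L[ℂ] H,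
      (∀ j, g j ∈ M ∧ g j ∈ unitary (H →L[ℂ] H) ∧ g' j ∈ M.commutant ∧
        g' j ∈ unitary (H →L[ℂ] H) ∧ g (j.1, !j.2) = star (g j) ∧ g' (j.1, !j.2) = star (g' j) ∧
        ‖g j (g' j ξ₁) - ξ₁‖ ≤ E₀ / n * ‖ξ‖) ∧
      ∑ j : Bool × Bool, ((1 / 4 : ℂ) * (if j.1 then Complex.I else 1)) • g j = Θ e x

/-- T3: the embedding lemma. -/
def Emb (H : Type u) [NormedAddCommGroup H] [InnerProductSpace ℂ H] [CompleteSpace H]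
    (m₀ C₀ : ℝ) : Prop :=
  ∀ (M N : VonNeumannAlgebra H) (δ : ℝ) (t t' : ℕ → H →L[ℂ] H), Setting M N δ t t' →
  ∀ (ξ : H) (S : MD M ξ),
    (∀ τ : ℝ, 0 < τ → ∃ E₀ : ℝ, ∃ n₀ : ℕ, ∀ n ≥ n₀, ∃ (Φ : (H →L[ℂ] H) →ₗ[ℂ] (H →L[ℂ] H)) (m : ℝ),
      m₀ ≤ m ∧ m ≤ 1 ∧ EmbOut M N ξ n 3 E₀ Φ ∧ ∀ x ∈ M, ‖x‖ ≤ 1 →
        ‖Φ x ξ - (m : ℂ) • S.q (x ξ)‖ ≤ τ * ‖ξ‖ + C₀ * ‖S.D.apply th (S.q (x ξ))‖) ∧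
    (∀ (F : Finset (H →L[ℂ] H)) (τ : ℝ), (∀ x ∈ F, x ∈ M) → 0 < τ →
      ∃ κ₀ E₀ : ℝ, ∃ n₀ : ℕ, 1 ≤ κ₀ ∧ ∀ n ≥ n₀,
        ∃ (Φ : (H →L[ℂ] H) →ₗ[ℂ] (H →L[ℂ] H)) (m : ℝ),
        m₀ ≤ m ∧ m ≤ 1 ∧ EmbOut M N ξ n κ₀ E₀ Φ ∧
          ∀ x ∈ F, ‖Φ x ξ - (m : ℂ) • S.q (x ξ)‖ ≤ τ)

/-- T7: the dual inequality. -/
def Dual (H : Type u) [NormedAddCommGroup H] [InnerProductSpace ℂ H] [CompleteSpace H]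
    (c δ : ℝ) : Prop :=
  ∀ (M N : VonNeumannAlgebra H) (t t' : ℕ → H →L[ℂ] H), Setting M N δ t t' →
  ∀ (κ : Type) [Fintype κ] (x : κ → H →L[ℂ] H) (ξ η : κ → H),
    (∀ k, x k ∈ M ∧ x k ∈ unitary (H →L[ℂ] H)) → Rel N (fun _ => 1) x ξ η →
    ‖∑ k, ⟪η k, x k (ξ k)⟫_ℂ‖ ≤ c * ∑ k, ‖ξ k‖ * ‖η k‖

/-- T8: the linear lift. -/
def Lift (M N : VonNeumannAlgebra H) (c : ℝ) : Prop :=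
  ∃ φ : (H →L[ℂ] H) →ₗ[ℂ] (H →L[ℂ] H), ∀ x ∈ M, φ x ∈ N ∧ ‖φ x - x‖ ≤ c * ‖x‖

end Crest.Agent.H1KK
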