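import Mathlib
import Crest.Agent.H1KK.Defs

/-! Expectation over random words (used by the coin lemma and by round A). -/

set_option autoImplicit false

namespace Crest.Agent.H1KK

open scoped InnerProductSpace

section Ex
variable {I : Type} [Fintype I] (p : I → ℝ)
variable {V : Type*} [AddCommGroup V] [Module ℝ V]

/-- expectation over i.i.d. words of length `n` -/
noncomputable def Ex (n : ℕ) (f : List I → V) : V :=
  ∑ w : Fin n → I, (∏ j, p (w j)) • f (List.ofFn w)

lemma Ex_zero (f : List I → V) : Ex p 0 f = f [] := by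
  simp [Ex]

lemma Ex_succ (n : ℕ) (f : List I → V) :
    Ex p (n + 1) f = ∑ i, p i • Ex p n (fun l => f (i :: l)) := by
  unfold Ex
  rw [← (Fin.consEquiv (fun _ : Fin (n + 1) => I)).sum_comp, Fintype.sum_prod_type]
  refine Finset.sum_congr rfl fun i _ => ?_
  rw [Finset.smul_sum]
  refine Finset.sum_congr rfl fun w _ => ?_
  simp [Fin.consEquiv, Fin.prod_univ_succ, List.ofFn_succ, mul_smul]

lemma Ex_congr {n : ℕ} {f g : List I → V} (h : ∀ l, l.length = n → f l = g l) :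
    Ex p n f = Ex p n g := by
  unfold Ex
  exact Finset.sum_congr rfl fun w _ => by rw [h _ (by simp)]

lemma Ex_add (n : ℕ) (f g : List I → V) :
    Ex p n (fun l => f l + g l) = Ex p n f + Ex p n g := by
  simp [Ex, Finset.sum_add_distrib]

lemma Ex_sub (n : ℕ) (f g : List I → V) :
    Ex p n (fun l => f l - g l) = Ex p n f - Ex p n g := by
  simp [Ex, smul_sub, Finset.sum_sub_distrib]

lemma Ex_smul (n : ℕ) (c : ℝ) (f : List I → V) :
    Ex p n (fun l => c • f l) = c • Ex p n f := by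
  simp only [Ex, Finset.smul_sum]
  exact Finset.sum_congr rfl fun w _ => smul_comm _ _ _

lemma Ex_sum {κ : Type*} (s : Finset κ) (n : ℕ) (f : κ → List I → V) :
    Ex p n (fun l => ∑ k ∈ s, f k l) = ∑ k ∈ s, Ex p n (f k) := by
  simp only [Ex, Finset.smul_sum]
  exact Finset.sum_comm

lemma Ex_map {W : Type*} [AddCommGroup W] [Module ℝ W] (T : V →ₗ[ℝ] W) (n : ℕ)
    (f : List I → V) : Ex p n (fun l => T (f l)) = T (Ex p n f) := by
  simp [Ex, map_sum]

lemma Ex_comm (m n : ℕ) (f : List I → List I → V) :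
    Ex p m (fun l => Ex p n (fun r => f l r)) = Ex p n (fun r => Ex p m (fun l => f l r)) := by
  simp only [Ex, Finset.smul_sum]
  rw [Finset.sum_comm]
  exact Finset.sum_congr rfl fun _ _ => Finset.sum_congr rfl fun _ _ => smul_comm _ _ _

lemma Ex_append (m n : ℕ) (f : List I → V) :
    Ex p (m + n) f = Ex p m (fun l => Ex p n (fun r => f (l ++ r))) := by
  induction m generalizing f with
  | zero => simp [Ex_zero]
  | succ m ih =>
    rw [show m + 1 + n = (m + n) + 1 by ring, Ex_succ, Ex_succ]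
    refine Finset.sum_congr rfl fun i _ => ?_
    rw [ih]; rfl

variable {p}

lemma Ex_const (hp : ∑ i, p i = 1) (n : ℕ) (c : V) : Ex p n (fun _ => c) = c := by
  induction n with
  | zero => simp [Ex_zero]
  | succ n ih => rw [Ex_succ]; simp only [ih]; rw [← Finset.sum_smul, hp, one_smul]

lemma Ex_mono (hp : ∀ i, 0 ≤ p i) {n : ℕ} {f g : List I → ℝ}
    (h : ∀ l, l.length = n → f l ≤ g l) : Ex p n f ≤ Ex p n g := by
  unfold Ex
  refine Finset.sum_le_sum fun w _ => ?_
  simp only [smul_eq_mul]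
  exact mul_le_mul_of_nonneg_left (h _ (by simp)) (Finset.prod_nonneg fun j _ => hp _)

lemma Ex_nonneg (hp : ∀ i, 0 ≤ p i) {n : ℕ} {f : List I → ℝ}
    (h : ∀ l, l.length = n → 0 ≤ f l) : 0 ≤ Ex p n f := by
  have := Ex_mono hp (n := n) (f := fun _ => 0) (g := f) h
  simpa [Ex] using this

lemma Ex_le_const (hp : ∀ i, 0 ≤ p i) (hp1 : ∑ i, p i = 1) {n : ℕ} {f : List I → ℝ} {c : ℝ}
    (h : ∀ l, l.length = n → f l ≤ c) : Ex p n f ≤ c := by
  have := Ex_mono hp (n := n) (f := f) (g := fun _ => c) h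
  rwa [Ex_const hp1] at this

lemma norm_Ex_le {U : Type*} [NormedAddCommGroup U] [NormedSpace ℝ U] (hp : ∀ i, 0 ≤ p i)
    {n : ℕ} {f : List I → U} {g : List I → ℝ} (h : ∀ l, l.length = n → ‖f l‖ ≤ g l) :
    ‖Ex p n f‖ ≤ Ex p n g := by
  unfold Ex
  refine (norm_sum_le _ _).trans (Finset.sum_le_sum fun w _ => ?_)
  have h0 : 0 ≤ ∏ j, p (w j) := Finset.prod_nonneg fun j _ => hp _
  rw [norm_smul, Real.norm_of_nonneg h0, smul_eq_mul]
  exact mul_le_mul_of_nonneg_left (h _ (by simp)) h0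

lemma Ex_mul_left (n : ℕ) (c : ℝ) (f : List I → ℝ) :
    Ex p n (fun l => c * f l) = c * Ex p n f := Ex_smul p n c f

/-- Jensen -/
lemma Ex_le_sqrt (hp : ∀ i, 0 ≤ p i) (hp1 : ∑ i, p i = 1) {n : ℕ} {f : List I → ℝ} {B : ℝ}
    (h : Ex p n (fun l => f l ^ 2) ≤ B) : Ex p n f ≤ √B := by
  set m := Ex p n f with hm
  have h1 : 0 ≤ Ex p n (fun l => (f l - m) ^ 2) := Ex_nonneg hp fun _ _ => sq_nonneg _
  have h2 : Ex p n (fun l => (f l - m) ^ 2) = Ex p n (fun l => f l ^ 2) - m ^ 2 := by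
    have : (fun l => (f l - m) ^ 2) = fun l => (f l ^ 2 - (2 * m) * f l) + m ^ 2 := by
      funext l; ring
    rw [this, Ex_add, Ex_sub, Ex_mul_left, Ex_const hp1, ← hm]; ring
  exact Real.le_sqrt_of_sq_le (by linarith)

variable (p)

lemma Ex_pos {K i : ℕ} (hi : i < K) (Φ : List I → V) :
    Ex p K Φ = Ex p i (fun L => Ex p (K - 1 - i) (fun R => ∑ k, p k • Φ (L ++ k :: R))) := by
  obtain ⟨m, rfl⟩ : ∃ m, K = i + (m + 1) := ⟨K - 1 - i, by omega⟩
  rw [show i + (m + 1) - 1 - i = m by omega, Ex_append]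
  refine Ex_congr p fun L _ => ?_
  rw [Ex_succ, Ex_sum]
  exact Finset.sum_congr rfl fun k _ => (Ex_smul p _ _ _).symm

lemma Ex_pos2 {K i j : ℕ} (hij : i < j) (hj : j < K) (Φ : List I → V) :
    Ex p K Φ = Ex p i (fun L => Ex p (j - 1 - i) (fun Y => Ex p (K - 1 - j)
      (fun R => ∑ k, p k • ∑ l, p l • Φ (L ++ k :: (Y ++ l :: R))))) := by
  rw [Ex_pos p hj, Ex_pos p hij]
  refine Ex_congr p fun L _ => Ex_congr p fun Y _ => ?_
  rw [Ex_sum]
  refine Finset.sum_congr rfl fun k _ => ?_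
  rw [Ex_smul]
  simp

variable {p}

lemma norm_Ex_pos_le {U : Type*} [NormedAddCommGroup U] [NormedSpace ℝ U] (hp : ∀ i, 0 ≤ p i)
    (hp1 : ∑ i, p i = 1) {K i : ℕ} (hi : i < K) {Φ : List I → U} {B : List I → ℝ}
    (h : ∀ L R : List I, L.length = i → R.length = K - 1 - i →
      ‖∑ k, p k • Φ (L ++ k :: R)‖ ≤ B R) : ‖Ex p K Φ‖ ≤ Ex p (K - 1 - i) B := by
  rw [Ex_pos p hi]
  refine (norm_Ex_le hp (g := fun _ => Ex p (K - 1 - i) B) fun L hL => ?_).trans
    (Ex_const hp1 _ _).le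
  exact norm_Ex_le hp fun R hR => h L R hL hR

lemma norm_Ex_pos2_le {U : Type*} [NormedAddCommGroup U] [NormedSpace ℝ U] (hp : ∀ i, 0 ≤ p i)
    (hp1 : ∑ i, p i = 1) {K i j : ℕ} (hij : i < j) (hj : j < K) {Φ : List I → U} {B : ℝ}
    (h : ∀ L Y R : List I, L.length = i → Y.length = j - 1 - i → R.length = K - 1 - j →
      ‖∑ k, p k • ∑ l, p l • Φ (L ++ k :: (Y ++ l :: R))‖ ≤ B) : ‖Ex p K Φ‖ ≤ B := by
  rw [Ex_pos2 p hij hj]
  refine (norm_Ex_le hp (g := fun _ => B) fun L hL => ?_).trans (Ex_const hp1 _ _).le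
  refine (norm_Ex_le hp (g := fun _ => B) fun Y hY => ?_).trans (Ex_const hp1 _ _).le
  exact (norm_Ex_le hp (g := fun _ => B) fun R hR => h L Y R hL hY hR).trans
    (Ex_const hp1 _ _).le

end Ex

/-- evaluate `F (prefix) (letter) (suffix)` at position `i` -/
def atPos {I : Type} {V : Type*} [Zero V] (F : List I → I → List I → V) (i : ℕ) (w : List I) : V :=
  match w.drop i with
  | [] => 0
  | k :: R => F (w.take i) k R

lemma atPos_append {I : Type} {V : Type*} [Zero V] (F : List I → I → List I → V) {i : ℕ}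
    (L : List I) (k : I) (R : List I) (hL : L.length = i) :
    atPos F i (L ++ k :: R) = F L k R := by
  subst hL
  simp [atPos]

lemma atPos_append2 {I : Type} {V : Type*} [Zero V] (F : List I → I → List I → V) {j : ℕ}
    (L : List I) (k : I) (Y : List I) (l : I) (R : List I) (h : L.length + 1 + Y.length = j) :
    atPos F j (L ++ k :: (Y ++ l :: R)) = F (L ++ k :: Y) l R := by
  have : L ++ k :: (Y ++ l :: R) = (L ++ k :: Y) ++ l :: R := by simp
  rw [this, atPos_append F _ _ _ (by simp; omega)]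

lemma exists_split {I : Type} {i : ℕ} (w : List I) (hi : i < w.length) :
    ∃ L k R, w = L ++ k :: R ∧ L.length = i ∧ R.length = w.length - 1 - i :=
  ⟨w.take i, w[i], w.drop (i + 1), by simp, by simp; omega, by simp; omega⟩

end Crest.Agent.H1KK
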