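import Mathlib
import Crest.Agent.H1KK.CoinEx

/-! Word products and the drift estimate. -/

set_option autoImplicit false
set_option linter.unusedSectionVars false
set_option linter.deprecated false

namespace Crest.Agent.H1KK

open scoped InnerProductSpace

universe u
variable {H : Type u} [NormedAddCommGroup H] [InnerProductSpace ℂ H] [CompleteSpace H]
variable {I : Type}

/-- product of letters along a word -/
noncomputable def wp (g : I → H →L[ℂ] H) (l : List I) : H →L[ℂ] H := (l.map g).prod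

@[simp] lemma wp_nil (g : I → H →L[ℂ] H) : wp g [] = 1 := by simp [wp]
@[simp] lemma wp_cons (g : I → H →L[ℂ] H) (k : I) (l : List I) :
    wp g (k :: l) = g k * wp g l := by simp [wp]
@[simp] lemma wp_append (g : I → H →L[ℂ] H) (l r : List I) :
    wp g (l ++ r) = wp g l * wp g r := by simp [wp]

lemma wp_mem {S : VonNeumannAlgebra H} {g : I → H →L[ℂ] H} (h : ∀ i, g i ∈ S) (l : List I) :
    wp g l ∈ S := by
  induction l with
  | nil => simp
  | cons k l ih => simpa using mul_mem (h k) ih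

lemma wp_unit {g : I → H →L[ℂ] H} (h : ∀ i, g i ∈ unitary (H →L[ℂ] H)) (l : List I) :
    wp g l ∈ unitary (H →L[ℂ] H) := by
  induction l with
  | nil => simp
  | cons k l ih => simpa using mul_mem (h k) ih

lemma comm_of_mem {M : VonNeumannAlgebra H} {x y : H →L[ℂ] H} (hx : x ∈ M)
    (hy : y ∈ M.commutant) : x * y = y * x :=
  VonNeumannAlgebra.mem_commutant_iff.1 hy x hx

lemma wp_mul_wp {M : VonNeumannAlgebra H} {g g' : I → H →L[ℂ] H} (h : ∀ i, g i ∈ M)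
    (h' : ∀ i, g' i ∈ M.commutant) (l : List I) :
    wp g l * wp g' l = wp (fun i => g i * g' i) l := by
  induction l with
  | nil => simp
  | cons k l ih =>
    simp only [wp_cons, ← ih]
    have := comm_of_mem (wp_mem h l) (h' k)
    calc g k * wp g l * (g' k * wp g' l) = g k * (wp g l * g' k) * wp g' l := by
          simp only [mul_assoc]
      _ = _ := by rw [this]; simp only [mul_assoc]

lemma unit_norm_le {x : H →L[ℂ] H} (h : x ∈ unitary (H →L[ℂ] H)) : ‖x‖ ≤ 1 :=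
  ContinuousLinearMap.opNorm_le_bound _ zero_le_one fun v => by
    rw [one_mul, ContinuousLinearMap.norm_map_of_mem_unitary h]

lemma unit_apply {x : H →L[ℂ] H} (h : x ∈ unitary (H →L[ℂ] H)) (v : H) : ‖x v‖ = ‖v‖ :=
  ContinuousLinearMap.norm_map_of_mem_unitary h v

lemma contr_apply {x : H →L[ℂ] H} (h : ‖x‖ ≤ 1) (v : H) : ‖x v‖ ≤ ‖v‖ :=
  (x.le_opNorm v).trans (by nlinarith [norm_nonneg v])

lemma inner_star_left (x : H →L[ℂ] H) (a b : H) : ⟪star x a, b⟫_ℂ = ⟪a, x b⟫_ℂ := by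
  rw [ContinuousLinearMap.star_eq_adjoint, ContinuousLinearMap.adjoint_inner_left]

lemma inner_star_right (x : H →L[ℂ] H) (a b : H) : ⟪a, star x b⟫_ℂ = ⟪x a, b⟫_ℂ := by
  rw [ContinuousLinearMap.star_eq_adjoint, ContinuousLinearMap.adjoint_inner_right]

variable [Fintype I]

/-- the averaging operator -/
noncomputable def avg (p : I → ℝ) (u : I → H →L[ℂ] H) : H →L[ℂ] H := ∑ i, p i • u i

lemma Ex_wp (p : I → ℝ) (u : I → H →L[ℂ] H) (n : ℕ) : Ex p n (wp u) = avg p u ^ n := by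
  induction n with
  | zero => simp [Ex_zero]
  | succ n ih =>
    rw [Ex_succ, pow_succ', avg, Finset.sum_mul]
    refine Finset.sum_congr rfl fun i _ => ?_
    rw [smul_mul_assoc]
    congr 1
    have := Ex_map p (LinearMap.mulLeft ℝ (u i)) n (wp u)
    simp only [LinearMap.mulLeft_apply] at this
    simp only [wp_cons]
    rw [this, ih]; rfl

lemma avg_norm_le {p : I → ℝ} (hp : ∀ i, 0 ≤ p i) (hp1 : ∑ i, p i = 1) {u : I → H →L[ℂ] H}
    (hu : ∀ i, ‖u i‖ ≤ 1) : ‖avg p u‖ ≤ 1 := by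
  unfold avg
  refine (norm_sum_le _ _).trans ?_
  rw [← hp1]
  refine Finset.sum_le_sum fun i _ => ?_
  rw [norm_smul, Real.norm_of_nonneg (hp i)]
  nlinarith [hu i, hp i]

lemma avg_star {p : I → ℝ} {s : I → I} (hs : ∀ i, s (s i) = i) (hps : ∀ i, p (s i) = p i)
    {u : I → H →L[ℂ] H} (hu : ∀ i, u (s i) = star (u i)) : star (avg p u) = avg p u := by
  unfold avg
  rw [star_sum]
  let e : I ≃ I := ⟨s, s, hs, hs⟩
  rw [← e.sum_comp (fun i => p i • u i)]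
  refine Finset.sum_congr rfl fun i _ => ?_
  simp [e, hps, hu]

/-- `Re ⟪x, T y⟫` as a real-linear map of `T` -/
noncomputable def reIn (x y : H) : (H →L[ℂ] H) →ₗ[ℝ] ℝ where
  toFun T := (⟪x, T y⟫_ℂ).re
  map_add' a b := by simp
  map_smul' c a := by
    simp only [ContinuousLinearMap.smul_apply, RingHom.id_apply, smul_eq_mul]
    rw [← Complex.coe_smul, inner_smul_right]; simp

lemma reIn_apply (x y : H) (T : H →L[ℂ] H) : reIn x y T = (⟪x, T y⟫_ℂ).re := rfl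

lemma re_inner_symm (x y : H) : (⟪x, y⟫_ℂ).re = (⟪y, x⟫_ℂ).re := by
  rw [← inner_conj_symm x y, Complex.conj_re]

lemma re_inner_self (x : H) : (⟪x, x⟫_ℂ).re = ‖x‖ ^ 2 := by
  rw [← @inner_self_eq_norm_sq ℂ]; rfl

lemma norm_sub_sq_unit {U : H →L[ℂ] H} (hU : U ∈ unitary (H →L[ℂ] H)) (ξ : H) :
    ‖U ξ - ξ‖ ^ 2 = 2 * ‖ξ‖ ^ 2 - 2 * reIn ξ ξ U := by
  rw [@norm_sub_sq ℂ, unit_apply hU, reIn_apply, re_inner_symm ξ]
  simp only [RCLike.re_to_complex]; ring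

omit [Fintype I] in
lemma sa_drift {T : H →L[ℂ] H} (hT : star T = T) (h1 : ‖T‖ ≤ 1) (ξ : H) (m : ℕ) :
    ‖ξ‖ ^ 2 - reIn ξ ξ (T ^ m) ≤ m * (‖ξ‖ ^ 2 - reIn ξ ξ T) := by
  -- `B x = Re ⟪x, (1 - T) x⟫`
  have sa : ∀ x y : H, ⟪T x, y⟫_ℂ = ⟪x, T y⟫_ℂ := fun x y => by
    rw [← inner_star_right, hT]
  have re_le : ∀ x : H, |(⟪x, T x⟫_ℂ).re| ≤ ‖x‖ ^ 2 := fun x => by
    refine (Complex.abs_re_le_norm _).trans ((norm_inner_le_norm _ _).trans ?_)
    nlinarith [contr_apply h1 x, norm_nonneg x]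
  have resym : ∀ x y : H, (⟪x, y⟫_ℂ).re = (⟪y, x⟫_ℂ).re := re_inner_symm
  have nsq : ∀ x : H, (⟪x, x⟫_ℂ).re = ‖x‖ ^ 2 := fun x => by
    rw [← @inner_self_eq_norm_sq ℂ]; rfl
  let B : H → ℝ := fun x => ‖x‖ ^ 2 - (⟪x, T x⟫_ℂ).re
  have Bmono : ∀ x, B (T x) ≤ B x := fun x => by
    have h := (abs_le.1 (re_le (x - T x))).1
    simp only [map_sub, inner_sub_left, inner_sub_right, Complex.sub_re] at h
    rw [@norm_sub_sq ℂ] at h
    have e1 : (⟪x, T (T x)⟫_ℂ).re = ‖T x‖ ^ 2 := by rw [← sa, nsq]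
    have e2 : (⟪T x, T x⟫_ℂ).re = ‖T x‖ ^ 2 := nsq _
    simp only [B]
    simp only [RCLike.re_to_complex] at h
    linarith
  have Bpow : ∀ j : ℕ, B ((T ^ j) ξ) ≤ B ξ := fun j => by
    induction j with
    | zero => simp
    | succ j ih => rw [pow_succ']; exact (Bmono _).trans ih
  have step : ∀ j : ℕ, reIn ξ ξ (T ^ j) - reIn ξ ξ (T ^ (j + 1)) ≤ B ξ := fun j => by
    have h := (abs_le.1 (re_le (ξ - (T ^ j) ξ))).2
    simp only [map_sub, inner_sub_left, inner_sub_right, Complex.sub_re] at h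
    rw [@norm_sub_sq ℂ] at h
    simp only [RCLike.re_to_complex] at h
    have e1 : (⟪(T ^ j) ξ, T ξ⟫_ℂ).re = (⟪ξ, T ((T ^ j) ξ)⟫_ℂ).re := by
      rw [← sa, resym]
    have e2 : reIn ξ ξ (T ^ (j + 1)) = (⟪ξ, T ((T ^ j) ξ)⟫_ℂ).re := by
      rw [reIn_apply, pow_succ']; rfl
    have := Bpow j
    simp only [B] at this ⊢
    rw [e2, reIn_apply]
    linarith
  have hB : B ξ = ‖ξ‖ ^ 2 - reIn ξ ξ T := rfl
  rw [← hB]
  induction m with
  | zero => simp only [pow_zero, reIn_apply, ContinuousLinearMap.one_apply, nsq]; simp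
  | succ m ih => have := step m; push_cast; linarith

lemma Ex_drift {p : I → ℝ} (hp : ∀ i, 0 ≤ p i) (hp1 : ∑ i, p i = 1) {s : I → I}
    (hs : ∀ i, s (s i) = i) (hps : ∀ i, p (s i) = p i) {u : I → H →L[ℂ] H}
    (hu : ∀ i, u i ∈ unitary (H →L[ℂ] H)) (hus : ∀ i, u (s i) = star (u i)) (ξ : H) (m : ℕ) :
    Ex p m (fun R => ‖wp u R ξ - ξ‖ ^ 2) ≤ m * ∑ i, p i * ‖u i ξ - ξ‖ ^ 2 := by
  have h1 : Ex p m (fun R => ‖wp u R ξ - ξ‖ ^ 2) =
      2 * ‖ξ‖ ^ 2 - 2 * reIn ξ ξ (avg p u ^ m) := by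
    simp only [norm_sub_sq_unit (wp_unit hu _)]
    rw [Ex_sub, Ex_const hp1, Ex_mul_left, Ex_map, Ex_wp]
  have h2 : ∑ i, p i * ‖u i ξ - ξ‖ ^ 2 = 2 * ‖ξ‖ ^ 2 - 2 * reIn ξ ξ (avg p u) := by
    simp only [norm_sub_sq_unit (hu _), mul_sub, Finset.sum_sub_distrib, avg, map_sum, map_smul,
      smul_eq_mul, ← Finset.sum_mul, hp1, Finset.mul_sum]
    simp only [one_mul]
    congr 1
    exact Finset.sum_congr rfl fun i _ => by ring
  have := sa_drift (avg_star hs hps hus) (avg_norm_le hp hp1 fun i => unit_norm_le (hu i)) ξ m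
  rw [h1, h2]; linarith

lemma LS.u_unit {M : VonNeumannAlgebra H} {p : I → ℝ} {s : I → I} {g g' : I → H →L[ℂ] H}
    {ξ : H} {ε : ℝ} (h : LS M p s g g' ξ ε) (i : I) : g i * g' i ∈ unitary (H →L[ℂ] H) :=
  mul_mem (h.g_unit i) (h.g'_unit i)

lemma LS.u_s {M : VonNeumannAlgebra H} {p : I → ℝ} {s : I → I} {g g' : I → H →L[ℂ] H}
    {ξ : H} {ε : ℝ} (h : LS M p s g g' ξ ε) (i : I) :
    g (s i) * g' (s i) = star (g i * g' i) := by
  rw [h.g_s, h.g'_s, star_mul]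
  exact comm_of_mem (star_mem (h.g_mem i)) (star_mem (h.g'_mem i))

lemma LS.drift {M : VonNeumannAlgebra H} {p : I → ℝ} {s : I → I} {g g' : I → H →L[ℂ] H}
    {ξ : H} {ε : ℝ} (h : LS M p s g g' ξ ε) (m : ℕ) :
    Ex p m (fun R => ‖wp g R (wp g' R ξ) - ξ‖ ^ 2) ≤ m * ε ^ 2 := by
  have := Ex_drift h.p_nonneg h.p_sum h.s_s h.p_s h.u_unit h.u_s ξ m
  simp only [← wp_mul_wp h.g_mem h.g'_mem, ContinuousLinearMap.mul_apply] at this
  exact this.trans (mul_le_mul_of_nonneg_left h.inv (Nat.cast_nonneg m))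

end Crest.Agent.H1KK
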