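import Mathlib
import Crest.Agent.H1KK.CoinW

/-! T5: the coin lemma. -/

set_option autoImplicit false
set_option linter.unusedSectionVars false
set_option linter.deprecated false

namespace Crest.Agent.H1KK

open scoped InnerProductSpace

universe u
variable {H : Type u} [NormedAddCommGroup H] [InnerProductSpace ℂ H] [CompleteSpace H]

lemma VRel.inner_zero {κ : Type} [Fintype κ] {p : κ → ℝ} {x : κ → H →L[ℂ] H} {β : κ → H}
    (h : VRel p x β) (A : H →L[ℂ] H) (ζ : H) :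
    ∑ k, (p k : ℂ) * ⟪β k, A (x k ζ)⟫_ℂ = 0 := by
  obtain ⟨w, e, -⟩ := exists_hilbertBasis ℂ H
  have h1 : HasSum (fun j => ∑ k, (p k : ℂ) * (⟪β k, e j⟫_ℂ * ⟪e j, A (x k ζ)⟫_ℂ))
      (∑ k, (p k : ℂ) * ⟪β k, A (x k ζ)⟫_ℂ) :=
    hasSum_sum fun k _ => (e.hasSum_inner_mul_inner _ _).mul_left _
  have h2 : (fun j => ∑ k, (p k : ℂ) * (⟪β k, e j⟫_ℂ * ⟪e j, A (x k ζ)⟫_ℂ)) = fun _ => 0 := by
    funext j
    have := congrArg (fun T : H →L[ℂ] H => ⟪e j, A (T ζ)⟫_ℂ) (h (e j))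
    simp only [ContinuousLinearMap.sum_apply, ContinuousLinearMap.smul_apply, map_sum, map_smul,
      inner_sum, inner_smul_right, ContinuousLinearMap.zero_apply, map_zero, inner_zero_right]
      at this
    rw [← this]
    exact Finset.sum_congr rfl fun k _ => by ring
  rw [h2] at h1
  exact h1.unique hasSum_zero

lemma vn_smul_mem {S : VonNeumannAlgebra H} (c : ℂ) {x : H →L[ℂ] H} (hx : x ∈ S) : c • x ∈ S :=
  S.toStarSubalgebra.smul_mem hx c

lemma vn_sub_mem {S : VonNeumannAlgebra H} {x y : H →L[ℂ] H} (hx : x ∈ S) (hy : y ∈ S) :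
    x - y ∈ S :=
  S.toStarSubalgebra.sub_mem hx hy

lemma NB.scale {S : VonNeumannAlgebra H} {κ : Type} [Fintype κ] {p : κ → ℝ} {β : κ → H} {c : ℝ}
    (h : NB S p β c) (ζ : H) (a : κ → H →L[ℂ] H) {r : ℝ} (hr : 0 ≤ r)
    (ha : ∀ k, a k ∈ S ∧ ‖a k‖ ≤ r) :
    ‖∑ k, (p k : ℂ) * ⟪β k, a k ζ⟫_ℂ‖ ≤ r * c * ‖ζ‖ := by
  rcases hr.eq_or_lt with rfl | hr
  · have : ∀ k, a k = 0 := fun k => norm_le_zero_iff.1 (ha k).2
    simp [this]
  · have h1 := h ζ (fun k => ((r⁻¹ : ℝ) : ℂ) • a k) fun k => ⟨vn_smul_mem _ (ha k).1, by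
      rw [norm_smul, Complex.norm_real, Real.norm_of_nonneg (inv_nonneg.2 hr.le),
        inv_mul_le_iff₀ hr, mul_one]; exact (ha k).2⟩
    have h2 : ∑ k, (p k : ℂ) * ⟪β k, a k ζ⟫_ℂ =
        (r : ℂ) * ∑ k, (p k : ℂ) * ⟪β k, (((r⁻¹ : ℝ) : ℂ) • a k) ζ⟫_ℂ := by
      rw [Finset.mul_sum]
      refine Finset.sum_congr rfl fun k _ => ?_
      have : (r : ℂ) ≠ 0 := by exact_mod_cast hr.ne'
      simp only [ContinuousLinearMap.smul_apply, inner_smul_right]
      push_cast; field_simp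
    rw [h2, norm_mul, Complex.norm_real, Real.norm_of_nonneg hr.le, mul_assoc]
    exact mul_le_mul_of_nonneg_left h1 hr.le

/-- chosen lift -/
lemma Near.exists_lift {M N : VonNeumannAlgebra H} {δ : ℝ} (h : Near M N δ) :
    ∃ V : (H →L[ℂ] H) → (H →L[ℂ] H), (∀ x, V x ∈ N ∧ ‖V x‖ ≤ 1) ∧
      ∀ x ∈ M, ‖x‖ ≤ 1 → ‖x - V x‖ ≤ δ := by
  classical
  have : ∀ x : H →L[ℂ] H, ∃ y, (y ∈ N ∧ ‖y‖ ≤ 1) ∧ (x ∈ M → ‖x‖ ≤ 1 → ‖x - y‖ ≤ δ) := by
    intro x
    by_cases hx : x ∈ M ∧ ‖x‖ ≤ 1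
    · obtain ⟨y, h1, h2, h3⟩ := h x hx.1 hx.2
      exact ⟨y, ⟨h1, h2⟩, fun _ _ => h3⟩
    · exact ⟨0, ⟨zero_mem _, by simp⟩, fun h1 h2 => absurd ⟨h1, h2⟩ hx⟩
  choose V h1 h2 using this
  exact ⟨V, h1, h2⟩

lemma norm_mul_le_one' {a b : H →L[ℂ] H} (ha : ‖a‖ ≤ 1) (hb : ‖b‖ ≤ 1) : ‖a * b‖ ≤ 1 :=
  (norm_mul_le _ _).trans (mul_le_one₀ ha (norm_nonneg _) hb)

lemma norm_mul_sub_mul_le {a b a' b' : H →L[ℂ] H} {d e : ℝ} (ha : ‖a‖ ≤ 1) (hb' : ‖b'‖ ≤ 1)
    (h1 : ‖a - a'‖ ≤ d) (h2 : ‖b - b'‖ ≤ e) : ‖a * b - a' * b'‖ ≤ d + e := by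
  have : a * b - a' * b' = a * (b - b') + (a - a') * b' := by noncomm_ring
  rw [this]
  refine (norm_add_le _ _).trans ?_
  have k1 := norm_mul_le a (b - b')
  have k2 := norm_mul_le (a - a') b'
  nlinarith [norm_nonneg (b - b'), norm_nonneg (a - a'), norm_nonneg a, norm_nonneg b']

lemma real_smul_inner_sum {κ : Type} [Fintype κ] (p : κ → ℝ) (f : κ → ℂ) :
    ∑ k, p k • f k = ∑ k, (p k : ℂ) * f k := by
  simp [Complex.real_smul]

/-- second moment of an average of `K` marks with small cross terms -/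
lemma Ex_avg_sq_le {I : Type} [Fintype I] {p : I → ℝ} (hp : ∀ i, 0 ≤ p i) {K : ℕ} (hK : 1 ≤ K)
    (T : ℕ → List I → H) {b e : ℝ} (he : 0 ≤ e)
    (hd : ∀ i < K, Ex p K (fun w => ‖T i w‖ ^ 2) ≤ b)
    (hc : ∀ i j, i < j → j < K → (Ex p K (fun w => ⟪T i w, T j w⟫_ℂ)).re ≤ e) :
    Ex p K (fun w => ‖((K : ℝ)⁻¹) • ∑ i ∈ Finset.range K, T i w‖ ^ 2) ≤ b / K + e := by
  have hK0 : (0 : ℝ) < K := by exact_mod_cast hK
  have h1 : ∀ w, ‖((K : ℝ)⁻¹) • ∑ i ∈ Finset.range K, T i w‖ ^ 2 =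
      ((K : ℝ)⁻¹) ^ 2 * ∑ i ∈ Finset.range K, ∑ j ∈ Finset.range K, (⟪T i w, T j w⟫_ℂ).re := by
    intro w
    rw [norm_smul, mul_pow, Real.norm_of_nonneg (by positivity), ← re_inner_self, sum_inner]
    simp only [inner_sum, Complex.re_sum]
  simp only [h1]
  rw [Ex_mul_left, Ex_sum]
  simp only [Ex_sum]
  have hre : ∀ i j, Ex p K (fun w => (⟪T i w, T j w⟫_ℂ).re) =
      (Ex p K (fun w => ⟪T i w, T j w⟫_ℂ)).re := fun i j =>
    Ex_map p Complex.reLm K _
  have h2 : ∀ i ∈ Finset.range K, ∀ j ∈ Finset.range K,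
      Ex p K (fun w => (⟪T i w, T j w⟫_ℂ).re) ≤ (if i = j then b else 0) + e := by
    intro i hi j hj
    rw [Finset.mem_range] at hi hj
    rcases lt_trichotomy i j with h | rfl | h
    · rw [if_neg h.ne, hre]; linarith [hc i j h hj]
    · simp only [re_inner_self, if_true]; linarith [hd i hi]
    · simp only [re_inner_symm (T i _)]
      rw [if_neg h.ne', hre]; linarith [hc j i h hi]
  have h3 : ∑ i ∈ Finset.range K, ∑ j ∈ Finset.range K,
      Ex p K (fun w => (⟪T i w, T j w⟫_ℂ).re) ≤ K * b + K ^ 2 * e := by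
    refine (Finset.sum_le_sum fun i hi => Finset.sum_le_sum fun j hj => h2 i hi j hj).trans ?_
    have : ∀ i ∈ Finset.range K, ∑ j ∈ Finset.range K, ((if i = j then b else 0) + e) =
        b + K * e := by
      intro i hi
      rw [Finset.sum_add_distrib, Finset.sum_ite_eq, if_pos hi]; simp
    rw [Finset.sum_congr rfl this]; simp; nlinarith
  calc _ ≤ ((K : ℝ)⁻¹) ^ 2 * (K * b + K ^ 2 * e) := mul_le_mul_of_nonneg_left h3 (by positivity)
    _ = _ := by field_simp

theorem coinB : CoinB H := by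
  intro M N δ hδ hMN hMN' I _ p s g g' ξ ε hε hL β c c' b hc hc' hV hN hN' hb v hv K hK
  obtain ⟨V, hV1, hV2⟩ := hMN.exists_lift
  obtain ⟨V', hV1', hV2'⟩ := hMN'.exists_lift
  have hp := hL.p_nonneg
  have hp1 := hL.p_sum
  have hK0 : (0 : ℝ) < K := by exact_mod_cast hK
  have gW : ∀ l, wp g l ∈ M := wp_mem hL.g_mem
  have gU : ∀ l, wp g l ∈ unitary (H →L[ℂ] H) := wp_unit hL.g_unit
  have gW' : ∀ l, wp g' l ∈ M.commutant := wp_mem hL.g'_mem
  have gU' : ∀ l, wp g' l ∈ unitary (H →L[ℂ] H) := wp_unit hL.g'_unit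
  have vd : ∀ l, ‖wp g l - V (wp g l)‖ ≤ δ := fun l => hV2 _ (gW l) (unit_norm_le (gU l))
  have vd' : ∀ l, ‖wp g' l - V' (wp g' l)‖ ≤ δ := fun l => hV2' _ (gW' l) (unit_norm_le (gU' l))
  have cm : ∀ x y, V x * V' y = V' y * V x := fun x y => comm_of_mem (hV1 x).1 (hV1' y).1
  set F : List I → I → List I → H := fun L k R => star (V' (wp g' R)) (V (wp g L) (β k)) with hF
  set η : List I → H := fun w => ((K : ℝ)⁻¹) • ∑ i ∈ Finset.range K, atPos F i w with hη
  set Λ := ∑ i, (p i : ℂ) * ⟪β i, v i ξ⟫_ℂ with hΛ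
  have hFi : ∀ L k R ζ, ⟪F L k R, ζ⟫_ℂ = ⟪β k, (star (V (wp g L)) * V' (wp g' R)) ζ⟫_ℂ := by
    intro L k R ζ
    simp only [hF, inner_star_left, ContinuousLinearMap.mul_apply, inner_star_right]
  -- expectation of pairings with `η`
  have hηE : ∀ z : List I → H, Ex p K (fun w => ⟪η w, z w⟫_ℂ) =
      ((K : ℝ)⁻¹) • ∑ i ∈ Finset.range K, Ex p K (fun w => ⟪atPos F i w, z w⟫_ℂ) := by
    intro z
    rw [← Ex_sum, ← Ex_smul]
    refine Ex_congr p fun w _ => ?_
    simp only [hη]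
    rw [← Complex.coe_smul, inner_smul_left, sum_inner, Complex.conj_ofReal, Complex.real_smul]
  -- (0)
  have h0 : Ex p K (fun w => ⟪η w, wp g w ξ⟫_ℂ) = 0 := by
    rw [hηE, Finset.sum_eq_zero, smul_zero]
    intro i hi
    rw [Finset.mem_range] at hi
    apply norm_le_zero_iff.1
    refine (norm_Ex_pos_le hp hp1 hi (B := fun _ => 0) fun L R hL' _ => ?_).trans
      (Ex_const hp1 _ _).le
    simp only [atPos_append F L _ R hL', hFi, real_smul_inner_sum, wp_append, wp_cons]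
    have := hV.inner_zero (star (V (wp g L)) * V' (wp g' R) * wp g L) (wp g R ξ)
    simp only [ContinuousLinearMap.mul_apply] at this ⊢
    rw [this]; simp
  -- (2)
  have h2 : Ex p K (fun w => ‖η w‖ ^ 2) ≤ b / K + c * c' := by
    refine Ex_avg_sq_le hp hK _ (mul_nonneg hc hc') (fun i hi => ?_) (fun i j hij hj => ?_)
    · refine (le_abs_self _).trans ((Real.norm_eq_abs _).symm.le.trans ?_)
      refine (norm_Ex_pos_le hp hp1 hi (B := fun _ => b) fun L R hL' _ => ?_).trans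
        (Ex_const hp1 _ _).le
      simp only [atPos_append F L _ R hL', smul_eq_mul]
      rw [Real.norm_of_nonneg (Finset.sum_nonneg fun k _ => mul_nonneg (hp k) (sq_nonneg _))]
      refine le_trans (Finset.sum_le_sum fun k _ => mul_le_mul_of_nonneg_left ?_ (hp k)) hb
      refine pow_le_pow_left₀ (norm_nonneg _) ?_ 2
      exact (contr_apply (by rw [norm_star]; exact (hV1' _).2) _).trans (contr_apply (hV1 _).2 _)
    · refine (Complex.re_le_norm _).trans (norm_Ex_pos2_le hp hp1 hij hj fun L Y R hL' hY _ => ?_)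
      simp only [atPos_append F L _ _ hL', atPos_append2 F L _ Y _ R (by omega : L.length + 1 +
        Y.length = j)]
      set γ : H := ∑ k, (p k : ℂ) • star (V (wp g (L ++ k :: Y))) (V (wp g L) (β k)) with hγ
      have hγi : ∀ ζ, ⟪γ, ζ⟫_ℂ = ∑ k, (p k : ℂ) *
          ⟪β k, (star (V (wp g L)) * V (wp g (L ++ k :: Y))) ζ⟫_ℂ := by
        intro ζ
        simp only [hγ, sum_inner, inner_smul_left, Complex.conj_ofReal, inner_star_left,
          ContinuousLinearMap.mul_apply, inner_star_right]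
      have hγn : ‖γ‖ ≤ c := by
        have := hN γ (fun k => star (V (wp g L)) * V (wp g (L ++ k :: Y))) fun k =>
          ⟨mul_mem (star_mem (hV1 _).1) (hV1 _).1,
            norm_mul_le_one' (by rw [norm_star]; exact (hV1 _).2) (hV1 _).2⟩
        rw [← hγi, inner_self_eq_norm_sq_to_K] at this
        simp only [norm_pow, RCLike.norm_ofReal, abs_norm] at this
        rcases (norm_nonneg γ).eq_or_lt with h | h
        · rw [← h]; exact hc
        · nlinarith
      have key : ∑ k, p k • ∑ l, p l • ⟪F L k (Y ++ l :: R), F (L ++ k :: Y) l R⟫_ℂ =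
          starRingEnd ℂ (∑ l, (p l : ℂ) *
            ⟪β l, (V' (wp g' R) * star (V' (wp g' (Y ++ l :: R)))) γ⟫_ℂ) := by
        simp only [map_sum, map_mul, Complex.conj_ofReal, inner_conj_symm,
          ContinuousLinearMap.mul_apply, real_smul_inner_sum, Finset.mul_sum]
        rw [Finset.sum_comm]
        refine Finset.sum_congr rfl fun l _ => ?_
        rw [← inner_star_right, inner_star_left, hγi, Finset.mul_sum]
        refine Finset.sum_congr rfl fun k _ => ?_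
        rw [hFi]
        simp only [hF, ContinuousLinearMap.mul_apply]
        have c1 := congrArg (fun T : H →L[ℂ] H => T (β l)) (comm_of_mem (hV1 (wp g (L ++ k :: Y))).1
          (mul_mem (hV1' (wp g' (Y ++ l :: R))).1 (star_mem (hV1' (wp g' R)).1)))
        simp only [ContinuousLinearMap.mul_apply] at c1
        rw [c1]; ring
      rw [key, Complex.norm_conj]
      refine (hN' γ _ fun l => ⟨mul_mem (hV1' _).1 (star_mem (hV1' _).1),
        norm_mul_le_one' (hV1' _).2 (by rw [norm_star]; exact (hV1' _).2)⟩).trans ?_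
      rw [mul_comm c]
      exact mul_le_mul_of_nonneg_left hγn hc'
  -- (0')
  have h3 : ‖Ex p K (fun w => ⟪η w, V (wp g w) ξ⟫_ℂ)‖ ≤ δ * ‖ξ‖ * √(b / K + c * c') := by
    have : Ex p K (fun w => ⟪η w, V (wp g w) ξ⟫_ℂ) =
        - Ex p K (fun w => ⟪η w, (wp g w - V (wp g w)) ξ⟫_ℂ) := by
      simp only [ContinuousLinearMap.sub_apply, inner_sub_right]
      rw [Ex_sub, h0]; ring
    rw [this, norm_neg]
    refine (norm_Ex_le hp (g := fun w => δ * ‖ξ‖ * ‖η w‖) fun w _ => ?_).trans ?_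
    · refine (norm_inner_le_norm _ _).trans ?_
      have := ((wp g w - V (wp g w)).le_opNorm ξ).trans
        (mul_le_mul_of_nonneg_right (vd w) (norm_nonneg _))
      nlinarith [norm_nonneg (η w)]
    · rw [Ex_mul_left]
      exact mul_le_mul_of_nonneg_left (Ex_le_sqrt hp hp1 h2) (by positivity)
  -- (1)
  have h1 : ∀ i < K, ‖Ex p K (fun w => ⟪atPos F i w, V (wp g w) ξ⟫_ℂ) - Λ‖ ≤
      (6 * δ * ‖ξ‖ + √K * ε) * c := by
    intro i hi
    rw [← Ex_const hp1 K Λ, ← Ex_sub]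
    refine (norm_Ex_pos_le hp hp1 hi
      (B := fun R => c * (6 * δ * ‖ξ‖ + ‖wp g R (wp g' R ξ) - ξ‖)) fun L R hL' _ => ?_).trans ?_
    · simp only [atPos_append F L _ R hL', smul_sub, Finset.sum_sub_distrib, ← Finset.sum_smul,
        hp1, one_smul, hFi, real_smul_inner_sum]
      set a : I → H →L[ℂ] H := fun k => star (V (wp g L)) * V (wp g (L ++ k :: R)) with ha
      set ζ : H := star (V (wp g R)) ξ - V' (wp g' R) ξ with hζ
      have ha1 : ∀ k, a k ∈ N ∧ ‖a k‖ ≤ 1 := fun k => ⟨mul_mem (star_mem (hV1 _).1) (hV1 _).1,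
        norm_mul_le_one' (by rw [norm_star]; exact (hV1 _).2) (hV1 _).2⟩
      have ha2 : ∀ k, a k * star (V (wp g R)) - v k ∈ N ∧
          ‖a k * star (V (wp g R)) - v k‖ ≤ 4 * δ := by
        intro k
        refine ⟨vn_sub_mem (mul_mem (ha1 k).1 (star_mem (hV1 _).1)) (hv k).1, ?_⟩
        have e : g k = star (wp g L) * wp g (L ++ k :: R) * star (wp g R) := by
          simp only [wp_append, wp_cons]
          have u1 := Unitary.star_mul_self_of_mem (gU L)
          have u2 := Unitary.mul_star_self_of_mem (gU R)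
          calc g k = (star (wp g L) * wp g L) * g k * (wp g R * star (wp g R)) := by
                rw [u1, u2]; simp
            _ = _ := by simp only [mul_assoc]
        have s1 : ∀ l, ‖star (V (wp g l)) - star (wp g l)‖ ≤ δ := fun l => by
          rw [← star_sub, norm_star, norm_sub_rev]; exact vd l
        have k1 : ‖a k - star (wp g L) * wp g (L ++ k :: R)‖ ≤ δ + δ :=
          norm_mul_sub_mul_le (by rw [norm_star]; exact (hV1 _).2) (unit_norm_le (gU _)) (s1 L)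
            (by rw [norm_sub_rev]; exact vd _)
        have k2 : ‖a k * star (V (wp g R)) - g k‖ ≤ δ + δ + δ := by
          conv_lhs => rw [e]
          exact norm_mul_sub_mul_le (ha1 k).2 (by rw [norm_star]; exact unit_norm_le (gU _)) k1
            (s1 R)
        have := norm_sub_le_norm_sub_add_norm_sub (a k * star (V (wp g R))) (g k) (v k)
        linarith [(hv k).2.2]
      have hζn : ‖ζ‖ ≤ 2 * δ * ‖ξ‖ + ‖wp g R (wp g' R ξ) - ξ‖ := by
        have e : ζ = (star (V (wp g R)) - star (wp g R)) ξ -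
            star (wp g R) (wp g R (wp g' R ξ) - ξ) + (wp g' R - V' (wp g' R)) ξ := by
          have u1 := congrArg (fun T : H →L[ℂ] H => T (wp g' R ξ))
            (Unitary.star_mul_self_of_mem (gU R))
          simp only [ContinuousLinearMap.mul_apply, ContinuousLinearMap.one_apply] at u1
          simp only [hζ, ContinuousLinearMap.sub_apply, map_sub, u1]; abel
        rw [e]
        refine (norm_add_le _ _).trans ((add_le_add_left (norm_sub_le _ _) _).trans ?_)
        have k1 := ((star (V (wp g R)) - star (wp g R)).le_opNorm ξ).trans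
          (mul_le_mul_of_nonneg_right (show _ ≤ δ by
            rw [← star_sub, norm_star, norm_sub_rev]; exact vd R) (norm_nonneg _))
        have k2 := unit_apply (Unitary.star_mem (gU R)) (wp g R (wp g' R ξ) - ξ)
        have k3 := ((wp g' R - V' (wp g' R)).le_opNorm ξ).trans
          (mul_le_mul_of_nonneg_right (vd' R) (norm_nonneg _))
        linarith
      have e : ∑ k, (p k : ℂ) * ⟪β k, (star (V (wp g L)) * V' (wp g' R))
          (V (wp g (L ++ k :: R)) ξ)⟫_ℂ - Λ =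
          ∑ k, (p k : ℂ) * ⟪β k, (a k * star (V (wp g R)) - v k) ξ⟫_ℂ -
            ∑ k, (p k : ℂ) * ⟪β k, a k ζ⟫_ℂ := by
        simp only [hΛ, ← Finset.sum_sub_distrib]
        refine Finset.sum_congr rfl fun k _ => ?_
        have c1 := congrArg (fun T : H →L[ℂ] H => T ξ) (cm (wp g (L ++ k :: R)) (wp g' R))
        simp only [ContinuousLinearMap.mul_apply] at c1
        simp only [ha, hζ, ContinuousLinearMap.mul_apply, ContinuousLinearMap.sub_apply, map_sub,
          inner_sub_right, c1]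
        ring
      rw [e]
      refine (norm_sub_le _ _).trans ?_
      have k1 := hN.scale ξ _ (by positivity) ha2
      have k2 := (hN ζ a ha1).trans (mul_le_mul_of_nonneg_left hζn hc)
      nlinarith
    · rw [Ex_mul_left, Ex_add, Ex_const hp1, mul_comm]
      refine mul_le_mul_of_nonneg_right (add_le_add_right ?_ _) hc
      refine (Ex_le_sqrt hp hp1 (hL.drift _)).trans ?_
      rw [Real.sqrt_mul (Nat.cast_nonneg _), Real.sqrt_sq hε]
      refine mul_le_mul_of_nonneg_right (Real.sqrt_le_sqrt ?_) hε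
      exact_mod_cast (by omega : K - 1 - i ≤ K)
  have h4 : ‖Ex p K (fun w => ⟪η w, V (wp g w) ξ⟫_ℂ) - Λ‖ ≤ (6 * δ * ‖ξ‖ + √K * ε) * c := by
    have e : Ex p K (fun w => ⟪η w, V (wp g w) ξ⟫_ℂ) - Λ = ((K : ℝ)⁻¹) •
        ∑ i ∈ Finset.range K, (Ex p K (fun w => ⟪atPos F i w, V (wp g w) ξ⟫_ℂ) - Λ) := by
      rw [hηE, Finset.sum_sub_distrib, smul_sub]
      congr 1
      rw [Finset.sum_const, Finset.card_range, ← Nat.cast_smul_eq_nsmul ℝ, smul_smul,
        inv_mul_cancel₀ hK0.ne', one_smul]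
    rw [e, norm_smul, Real.norm_of_nonneg (by positivity), inv_mul_le_iff₀ hK0]
    refine (norm_sum_le _ _).trans ((Finset.sum_le_sum fun i hi =>
      h1 i (Finset.mem_range.1 hi)).trans ?_)
    simp
  have := norm_sub_norm_le Λ (Ex p K (fun w => ⟪η w, V (wp g w) ξ⟫_ℂ))
  rw [norm_sub_rev] at h4
  linarith

end Crest.Agent.H1KK
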