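import Crest.Agent.H1KK.Defs2
import Crest.Agent.H1KK.Coin

/-! Isometry families and cyclic projections. -/

set_option autoImplicit false
set_option linter.unusedSectionVars false

namespace Crest.Agent.H1KK

open scoped InnerProductSpace

universe u
variable {H : Type u} [NormedAddCommGroup H] [InnerProductSpace ℂ H] [CompleteSpace H]

/-- a finite family of isometries with orthogonal ranges -/
def IsoF {ι : Type} [DecidableEq ι] (u : ι → H →L[ℂ] H) : Prop :=
  ∀ a b, star (u a) * u b = if a = b then 1 else 0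

lemma Iso.isoF {t : ℕ → H →L[ℂ] H} (h : Iso t) {ι : Type} [DecidableEq ι] {f : ι → ℕ}
    (hf : Function.Injective f) : IsoF fun a => t (f a) := by
  intro a b
  rw [h]
  simp [hf.eq_iff]

section
variable {ι : Type} [DecidableEq ι] {u : ι → H →L[ℂ] H}

lemma IsoF.star_apply (h : IsoF u) (a b : ι) (v : H) :
    star (u a) (u b v) = if a = b then v else 0 := by
  have := congrArg (fun T : H →L[ℂ] H => T v) (h a b)
  simp only [mul_apply_eq_comp] at this
  rw [this]
  split_ifs <;> simp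

lemma IsoF.inner (h : IsoF u) (a b : ι) (v w : H) :
    ⟪u a v, u b w⟫_ℂ = if a = b then ⟪v, w⟫_ℂ else 0 := by
  rw [← inner_star_right, h.star_apply]
  split_ifs <;> simp

lemma IsoF.norm_apply (h : IsoF u) (a : ι) (v : H) : ‖u a v‖ = ‖v‖ := by
  have := h.inner a a v v
  rw [if_pos rfl, inner_self_eq_norm_sq_to_K, inner_self_eq_norm_sq_to_K] at this
  have h2 : ‖u a v‖ ^ 2 = ‖v‖ ^ 2 := by exact_mod_cast this
  exact (pow_left_inj₀ (norm_nonneg _) (norm_nonneg _) two_ne_zero).1 h2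

lemma IsoF.norm_le (h : IsoF u) (a : ι) : ‖u a‖ ≤ 1 :=
  ContinuousLinearMap.opNorm_le_bound _ zero_le_one fun v => by rw [h.norm_apply, one_mul]

variable [Fintype ι]

lemma IsoF.star_sum (h : IsoF u) (a : ι) (v : ι → H) : star (u a) (∑ b, u b (v b)) = v a := by
  simp [map_sum, h.star_apply]

lemma IsoF.norm_sum_sq (h : IsoF u) (v : ι → H) : ‖∑ b, u b (v b)‖ ^ 2 = ∑ b, ‖v b‖ ^ 2 := by
  have : ⟪∑ b, u b (v b), ∑ b, u b (v b)⟫_ℂ = ∑ b, ⟪v b, v b⟫_ℂ := by
    rw [sum_inner]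
    refine Finset.sum_congr rfl fun b _ => ?_
    rw [← inner_star_right, h.star_sum]
  simp only [inner_self_eq_norm_sq_to_K] at this
  exact_mod_cast this

lemma IsoF.bessel (h : IsoF u) (θ : H) : ∑ a, ‖star (u a) θ‖ ^ 2 ≤ ‖θ‖ ^ 2 := by
  set w := ∑ a, u a (star (u a) θ)
  have h1 : ‖w‖ ^ 2 = ∑ a, ‖star (u a) θ‖ ^ 2 := h.norm_sum_sq _
  have h2 : ⟪θ, w⟫_ℂ = ∑ a, ⟪star (u a) θ, star (u a) θ⟫_ℂ := by
    rw [inner_sum]
    exact Finset.sum_congr rfl fun a _ => (inner_star_left _ _ _).symm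
  have h3 : (⟪θ, w⟫_ℂ).re = ‖w‖ ^ 2 := by
    rw [h2, h1, Complex.re_sum]
    exact Finset.sum_congr rfl fun a _ => re_inner_self _
  have h4 : (⟪θ, w⟫_ℂ).re ≤ ‖θ‖ * ‖w‖ := (Complex.re_le_norm _).trans (norm_inner_le_norm _ _)
  rw [← h1]
  nlinarith [sq_nonneg (‖θ‖ - ‖w‖), norm_nonneg w, norm_nonneg θ]

end

/-- the projection onto the closure of `N ξ` -/
theorem exists_cyc_proj (N : VonNeumannAlgebra H) (ξ : H) :
    ∃ P : H →L[ℂ] H, P ∈ N.commutant ∧ IsStarProjection P ∧ ‖P‖ ≤ 1 ∧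
      (∀ y ∈ N, P (y ξ) = y ξ) ∧ ∀ ζ, P ζ ∈ closure {v | ∃ y ∈ N, v = y ξ} := by
  let W : Submodule ℂ H :=
    { carrier := {v | ∃ y ∈ N, v = y ξ}
      zero_mem' := ⟨0, zero_mem _, by simp⟩
      add_mem' := by
        rintro _ _ ⟨y, hy, rfl⟩ ⟨z, hz, rfl⟩
        exact ⟨y + z, add_mem hy hz, by simp⟩
      smul_mem' := by
        rintro c _ ⟨y, hy, rfl⟩
        exact ⟨c • y, vn_smul_mem c hy, by simp⟩ }
  let V := W.topologicalClosure
  have hV : ∀ y ∈ N, ∀ v ∈ V, y v ∈ V := by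
    intro y hy v hv
    refine map_mem_closure (f := y) y.continuous hv ?_
    rintro _ ⟨z, hz, rfl⟩
    exact ⟨y * z, mul_mem hy hz, rfl⟩
  refine ⟨V.starProjection, ?_, isStarProjection_starProjection, V.starProjection_norm_le,
    fun y hy => ?_, fun ζ => V.starProjection_apply_mem ζ⟩
  · rw [VonNeumannAlgebra.mem_commutant_iff]
    intro y hy
    ext x
    symm
    refine Submodule.eq_starProjection_of_mem_of_inner_eq_zero
      (hV y hy _ (V.starProjection_apply_mem x)) fun w hw => ?_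
    show ⟪y x - y (V.starProjection x), w⟫_ℂ = 0
    rw [← map_sub, ← inner_star_right]
    exact V.starProjection_inner_eq_zero x _ (hV _ (star_mem hy) w hw)
  · exact Submodule.starProjection_eq_self_iff.2 (subset_closure ⟨y, hy, rfl⟩)

end Crest.Agent.H1KK
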