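import Crest.Agent.H1KK.AsmA

/-! T7': the dual inequality from the one-round coin lemma and the embedding lemma. -/

set_option autoImplicit false
set_option linter.unusedSectionVars false

namespace Crest.Agent.H1KK

open scoped InnerProductSpace

universe u
variable {H : Type u} [NormedAddCommGroup H] [InnerProductSpace ℂ H] [CompleteSpace H]

noncomputable def cj (j : Bool × Bool) : ℂ := if j.1 then Complex.I else 1

lemma norm_cj (j : Bool × Bool) : ‖cj j‖ = 1 := by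
  unfold cj; split_ifs <;> simp

lemma iso_norm_apply {A : H →L[ℂ] H} (h : star A * A = 1) (v : H) : ‖A v‖ = ‖v‖ := by
  have h1 : ⟪A v, A v⟫_ℂ = ⟪v, v⟫_ℂ := by
    rw [← inner_star_right, ← mul_apply_eq_comp, h]; rfl
  rw [inner_self_eq_norm_sq_to_K, inner_self_eq_norm_sq_to_K] at h1
  have h2 : ‖A v‖ ^ 2 = ‖v‖ ^ 2 := by exact_mod_cast h1
  exact (pow_left_inj₀ (norm_nonneg _) (norm_nonneg _) two_ne_zero).1 h2

theorem emb_coin {M N : VonNeumannAlgebra H} {δ : ℝ} (hδ : 0 ≤ δ) (hC : CoinA H)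
    (hMN : Near M N δ) (hMN' : Near M.commutant N.commutant δ) {κ : Type} [Fintype κ] [Nonempty κ]
    (x : κ → H →L[ℂ] H) (hx : ∀ k, x k ∈ M ∧ ‖x k‖ ≤ 1) (ξ : H) (y : κ → H →L[ℂ] H) (η : κ → H)
    (hy : ∀ k, y k ∈ M.commutant ∧ y k ∈ N.commutant ∧ ‖y k‖ ≤ 1)
    (hyb : ∀ θ, ∑ k, ‖y k θ‖ ^ 2 ≤ ‖θ‖ ^ 2) (hη : ∑ k, ‖η k‖ ^ 2 ≤ 1)
    (hηξ : ∑ k, ‖η k‖ * ‖y k ξ‖ ≤ 1)
    (hR : ∀ w ∈ N, ∑ k, ⟪η k, w (y k ξ)⟫_ℂ • x k = 0)
    {κ₀ b ε : ℝ} (hκ : 0 ≤ κ₀) (hε : 0 ≤ ε) {Φ : (H →L[ℂ] H) →ₗ[ℂ] (H →L[ℂ] H)}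
    (hE : EmbOut2 M N ξ κ₀ b ε Φ) {T : ℝ} (hT : 0 < T) {K : ℕ} (hK : 1 ≤ K)
    (hb : Fintype.card κ * b ≤ K * T) :
    ‖∑ k, ⟪η k, Φ (x k) (y k ξ)⟫_ℂ‖ ≤
      δ + (δ * √T + √κ₀ * (6 * δ + √(κ₀ / T) + √K * ε)) := by
  obtain ⟨E, _, _, ξ₁, A, Y, Θ, h1, hA, hY, hΘ, hg⟩ := hE
  choose g g' hg hgs using fun (e : E) (k : κ) => hg e (x k) (hx k).1 (hx k).2
  obtain ⟨P, hPN, -, hP1, hPfix, hPcl⟩ := exists_cyc_proj N ξ₁
  obtain ⟨V, hV1, hV2⟩ := hMN.exists_lift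
  set n : ℝ := (Fintype.card κ : ℝ) with hn
  set m : ℝ := (Fintype.card E : ℝ) with hm
  have hn0 : 0 < n := by rw [hn]; exact_mod_cast Fintype.card_pos
  have hm0 : 0 < m := by rw [hm]; exact_mod_cast Fintype.card_pos
  let I := E × κ × (Bool × Bool)
  let π : ℝ := 1 / (m * n * 4)
  have hπ : 0 ≤ π := by positivity
  let G : I → H →L[ℂ] H := fun i => g i.1 i.2.1 i.2.2
  let G' : I → H →L[ℂ] H := fun i => g' i.1 i.2.1 i.2.2
  let B : I → H →L[ℂ] H := fun i => ((√n : ℝ) * cj i.2.2 : ℂ) • (y i.2.1 * Y i.1)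
  let z : I → H := fun i => ((√n : ℝ) : ℂ) • A i.1 (η i.2.1)
  have hsq : ((√n : ℝ) : ℂ) * ((√n : ℝ) : ℂ) = n := by
    rw [← Complex.ofReal_mul, Real.mul_self_sqrt hn0.le]
  have hsum : ∀ f : κ → ℝ, ∑ i : I, π * (n * f i.2.1) = ∑ k, f k := by
    intro f
    simp only [I, Fintype.sum_prod_type, Finset.sum_const, Finset.card_univ,
      nsmul_eq_mul, ← Finset.mul_sum, ← hm, π]
    field_simp
    norm_num
  have key : ∀ (i : I) (w : H →L[ℂ] H), w * y i.2.1 = y i.2.1 * w → w * Y i.1 = Y i.1 * w →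
      ⟪z i, B i (w ξ₁)⟫_ℂ =
        n * cj i.2.2 * ⟪η i.2.1, (star (A i.1) * w * A i.1) (y i.2.1 ξ)⟫_ℂ := by
    intro i w h1 h2
    have e1 : Y i.1 (w ξ₁) = w (A i.1 ξ) := by
      rw [← mul_apply_eq_comp, ← h2, mul_apply_eq_comp, (hA i.1).2.2.2.2.2.1]
    have e2 : y i.2.1 (w (A i.1 ξ)) = w (A i.1 (y i.2.1 ξ)) := by
      rw [← mul_apply_eq_comp, ← h1, mul_apply_eq_comp, ← mul_apply_eq_comp (y _),
        ← comm_of_mem (hA i.1).1 (hy _).1, mul_apply_eq_comp]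
    simp only [z, B, smul_apply, mul_apply_eq_comp, inner_smul_left, inner_smul_right, e1, e2,
      inner_star_right, Complex.conj_ofReal]
    linear_combination (cj i.2.2 * ⟪A i.1 (η i.2.1), w (A i.1 (y i.2.1 ξ))⟫_ℂ) * hsq
  have hπc : (π : ℂ) * n = (1 / m) * (1 / 4) := by
    have h1 : (n : ℂ) ≠ 0 := by exact_mod_cast hn0.ne'
    simp only [π]; push_cast; field_simp
  have hLS : LS M (fun _ : I => π) (fun i => (i.1, i.2.1, (i.2.2.1, !i.2.2.2))) G G' ξ₁ ε :=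
    { p_nonneg := fun _ => hπ
      p_sum := by
        have := hsum fun _ => n⁻¹
        simp only [mul_inv_cancel₀ hn0.ne', mul_one] at this
        rw [this]; simp [← hn, hn0.ne']
      s_s := by rintro ⟨e, k, j1, j2⟩; simp
      p_s := fun _ => rfl
      g_mem := fun i => (hg _ _ _).1
      g_unit := fun i => (hg _ _ _).2.1
      g_s := fun i => (hg _ _ _).2.2.2.2.1
      g'_mem := fun i => (hg _ _ _).2.2.1
      g'_unit := fun i => (hg _ _ _).2.2.2.1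
      g'_s := fun i => (hg _ _ _).2.2.2.2.2.1
      inv := by
        have := hsum fun _ => n⁻¹ * ε ^ 2
        simp only [mul_inv_cancel_left₀ hn0.ne'] at this
        calc _ ≤ ∑ _i : I, π * ε ^ 2 := by
              refine Finset.sum_le_sum fun i _ => ?_
              gcongr
              exact (hg _ _ _).2.2.2.2.2.2
          _ = _ := by rw [this]; simp [← hn, hn0.ne'] }
  have hBn : ∀ i θ, ‖B i θ‖ ^ 2 = n * ‖y i.2.1 (Y i.1 θ)‖ ^ 2 := by
    intro i θ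
    simp [B, norm_smul, norm_cj, mul_pow, Real.sq_sqrt hn0.le]
  have hcoin := hC M N δ hδ hMN hMN' I (fun _ => π) _ G G' ξ₁ ε hε hLS (fun i => B i * P) z κ₀
    (n * b) 1 T hκ zero_le_one hT
    (fun i => mul_mem (vn_smul_mem _ (mul_mem (hy _).2.1 (hA _).2.2.2.2.1)) hPN)
    (by
      intro θ
      simp only [mul_apply_eq_comp, hBn]
      have h2 := hY (P θ)
      have h3 : ‖P θ‖ ^ 2 ≤ ‖θ‖ ^ 2 := by gcongr; exact contr_apply hP1 θ
      calc _ = ∑ e, (1 / m) * ∑ k, ‖y k (Y e (P θ))‖ ^ 2 := by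
            simp only [I, Fintype.sum_prod_type, Finset.sum_const, Finset.card_univ,
              nsmul_eq_mul, ← Finset.mul_sum, π]
            field_simp
            norm_num
        _ ≤ ∑ e, (1 / m) * ‖Y e (P θ)‖ ^ 2 := by
            refine Finset.sum_le_sum fun e _ => ?_
            gcongr
            exact hyb _
        _ ≤ (1 / m) * (m * κ₀ * ‖P θ‖ ^ 2) := by
            rw [← Finset.mul_sum]; gcongr
        _ = κ₀ * ‖P θ‖ ^ 2 := by field_simp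
        _ ≤ _ := by gcongr)
    (by
      intro i
      have h2 : ‖B i * P‖ ≤ √n * ‖Y i.1‖ := by
        refine (norm_mul_le _ _).trans ((mul_le_of_le_one_right (norm_nonneg _) hP1).trans ?_)
        simp only [B, norm_smul, norm_mul, norm_cj, Complex.norm_real, Real.norm_eq_abs,
          abs_of_nonneg (Real.sqrt_nonneg n), mul_one]
        gcongr
        exact (norm_mul_le _ _).trans (mul_le_of_le_one_left (norm_nonneg _) (hy _).2.2)
      calc _ ≤ (√n * ‖Y i.1‖) ^ 2 := by gcongr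
        _ = n * ‖Y i.1‖ ^ 2 := by rw [mul_pow, Real.sq_sqrt hn0.le]
        _ ≤ _ := by gcongr; exact (hA _).2.2.2.2.2.2)
    (by
      rw [one_pow]
      refine le_trans (le_of_eq ?_) hη
      rw [← hsum]
      refine Finset.sum_congr rfl fun i _ => ?_
      simp [z, norm_smul, mul_pow, Real.sq_sqrt hn0.le, iso_norm_apply (hA _).2.2.1])
    (by
      intro ζ
      simp only [inner_star_left, mul_apply_eq_comp]
      have hcl : IsClosed {v : H | ∑ i, ((π : ℂ) * ⟪z i, B i v⟫_ℂ) • G i = 0} :=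
        isClosed_eq (by fun_prop) continuous_const
      refine closure_minimal (t := {v : H | ∑ i, ((π : ℂ) * ⟪z i, B i v⟫_ℂ) • G i = 0}) ?_ hcl
        (hPcl ζ)
      rintro _ ⟨w, hw, rfl⟩
      show ∑ i, ((π : ℂ) * ⟪z i, B i (w ξ₁)⟫_ℂ) • G i = 0
      have e : ∀ i : I, ((π : ℂ) * ⟪z i, B i (w ξ₁)⟫_ℂ) • G i =
          (1 / m : ℂ) • ⟪η i.2.1, (star (A i.1) * w * A i.1) (y i.2.1 ξ)⟫_ℂ •
            ((1 / 4 : ℂ) * cj i.2.2) • G i := by
        intro i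
        rw [key i w (comm_of_mem hw (hy _).2.1) (comm_of_mem hw (hA _).2.2.2.2.1), smul_smul,
          smul_smul]
        congr 1
        linear_combination
          (cj i.2.2 * ⟪η i.2.1, (star (A i.1) * w * A i.1) (y i.2.1 ξ)⟫_ℂ) * hπc
      simp only [e]
      rw [Fintype.sum_prod_type]
      refine Finset.sum_eq_zero fun e _ => ?_
      rw [← Finset.smul_sum, Fintype.sum_prod_type]
      have := congrArg (Θ e) (hR _ (mul_mem (mul_mem (star_mem (hA e).2.1) hw) (hA e).2.1))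
      rw [map_sum, map_zero] at this
      rw [← smul_zero (1 / m : ℂ), ← this]
      congr 1
      refine Finset.sum_congr rfl fun k _ => ?_
      rw [map_smul, ← hgs e k]
      rw [Finset.smul_sum]
      rfl)
    (fun i => V (G i)) (fun i => ⟨(hV1 _).1, (hV1 _).2,
      hV2 _ (hg _ _ _).1 (unit_norm_le (hg _ _ _).2.1)⟩) K hK hb
  have e1 : ∑ i : I, (π : ℂ) * ⟪z i, B i (G i ξ₁)⟫_ℂ = ∑ k, ⟪η k, Φ (x k) (y k ξ)⟫_ℂ := by
    have e : ∀ i : I, (π : ℂ) * ⟪z i, B i (G i ξ₁)⟫_ℂ = (1 / m : ℂ) *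
        ⟪η i.2.1, (star (A i.1) * (((1 / 4 : ℂ) * cj i.2.2) • G i) * A i.1) (y i.2.1 ξ)⟫_ℂ := by
      intro i
      rw [key i (G i) (comm_of_mem (hg _ _ _).1 (hy _).1)
        (comm_of_mem (hg _ _ _).1 (hA _).2.2.2.1), mul_smul_comm, smul_mul_assoc, smul_apply,
        inner_smul_right]
      linear_combination
        (cj i.2.2 * ⟪η i.2.1, (star (A i.1) * G i * A i.1) (y i.2.1 ξ)⟫_ℂ) * hπc
    simp only [e]
    rw [← Finset.mul_sum, Fintype.sum_prod_type]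
    have : ∀ e : E, ∑ q : κ × Bool × Bool, ⟪η q.1,
        (star (A e) * (((1 / 4 : ℂ) * cj q.2) • G (e, q)) * A e) (y q.1 ξ)⟫_ℂ =
        ∑ k, ⟪η k, Φ (x k) (y k ξ)⟫_ℂ := by
      intro e
      rw [Fintype.sum_prod_type]
      refine Finset.sum_congr rfl fun k _ => ?_
      rw [← hΘ e _ (hx k).1, ← hgs e k, Finset.mul_sum, Finset.sum_mul,
        sum_apply, inner_sum]
      rfl
    simp only [this]
    have h1 : (m : ℂ) ≠ 0 := by exact_mod_cast hm0.ne'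
    rw [Finset.sum_const, Finset.card_univ, nsmul_eq_mul]
    have h2 : (Fintype.card E : ℂ) = m := by rw [hm]; norm_cast
    rw [h2]; field_simp
  have e2 : ‖∑ i : I, (π : ℂ) * ⟪z i, B i (G i ξ₁)⟫_ℂ -
      ∑ i : I, (π : ℂ) * ⟪z i, (B i * P) (V (G i) ξ₁)⟫_ℂ‖ ≤ δ := by
    rw [← Finset.sum_sub_distrib]
    refine (norm_sum_le _ _).trans ?_
    calc _ ≤ ∑ i : I, π * (n * (δ * (‖η i.2.1‖ * ‖y i.2.1 ξ‖))) := by
          refine Finset.sum_le_sum fun i _ => ?_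
          rw [mul_apply_eq_comp, hPfix _ (hV1 _).1, key i (G i) (comm_of_mem (hg _ _ _).1 (hy _).1)
            (comm_of_mem (hg _ _ _).1 (hA _).2.2.2.1), key i (V (G i))
            (comm_of_mem (hV1 _).1 (hy _).2.1) (comm_of_mem (hV1 _).1 (hA _).2.2.2.2.1),
            ← mul_sub, ← mul_sub, ← inner_sub_right, norm_mul, norm_mul, norm_mul, norm_cj,
            Complex.norm_real, Complex.norm_real, Real.norm_of_nonneg hπ,
            Real.norm_of_nonneg hn0.le, mul_one]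
          gcongr
          simp only [mul_apply_eq_comp, ← map_sub, inner_star_right, ← sub_apply]
          refine (norm_inner_le_norm _ _).trans ?_
          have h3 := (G i - V (G i)).le_opNorm (A i.1 (y i.2.1 ξ))
          have h4 := hV2 _ (hg i.1 i.2.1 i.2.2).1 (unit_norm_le (hg _ _ _).2.1)
          rw [iso_norm_apply (hA _).2.2.1] at h3 ⊢
          calc _ ≤ ‖η i.2.1‖ * (δ * ‖y i.2.1 ξ‖) := by
                gcongr
                exact h3.trans (by gcongr)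
            _ = _ := by ring
      _ = δ * ∑ k, ‖η k‖ * ‖y k ξ‖ := by
          rw [hsum fun k => δ * (‖η k‖ * ‖y k ξ‖), Finset.mul_sum]
      _ ≤ δ := mul_le_of_le_one_right hδ hηξ
  rw [← e1]
  refine (norm_le_norm_sub_add _ _).trans (add_le_add e2 (hcoin.trans ?_))
  rw [one_mul]
  have a1 : δ * √T * ‖ξ₁‖ ≤ δ * √T := mul_le_of_le_one_right (by positivity) h1
  have a2 : 6 * δ * ‖ξ₁‖ ≤ 6 * δ := mul_le_of_le_one_right (by positivity) h1
  have a3 : √(κ₀ / T) * ‖ξ₁‖ ≤ √(κ₀ / T) := mul_le_of_le_one_right (by positivity) h1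
  exact add_le_add a1 (mul_le_mul_of_nonneg_left (by linarith) (Real.sqrt_nonneg _))

theorem dual_norm {M N : VonNeumannAlgebra H} {δ : ℝ} {t t' : ℕ → H →L[ℂ] H} (hδ : 0 ≤ δ)
    (hC : CoinA H) {m₀ κ₀ : ℝ} (hκ : 0 ≤ κ₀) (hE : Emb2 H m₀ κ₀) (hS : Setting M N δ t t')
    {κ : Type} [Fintype κ] (x : κ → H →L[ℂ] H) (hx : ∀ k, x k ∈ M ∧ ‖x k‖ ≤ 1) (ξ η : κ → H)
    (hn : ∑ k, (‖ξ k‖ ^ 2 + ‖η k‖ ^ 2) = 1) (hR : ∀ w ∈ N, ∑ k, ⟪η k, w (ξ k)⟫_ℂ • x k = 0)
    {T : ℝ} (hT : 0 < T) :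
    m₀ * ‖∑ k, ⟪η k, x k (ξ k)⟫_ℂ‖ ≤ δ + (δ * √T + √κ₀ * (6 * δ + √(κ₀ / T))) := by
  classical
  rcases isEmpty_or_nonempty κ with hκe | hκn
  · simp at hn
  obtain ⟨f, hf⟩ := exists_injective_nat (κ × Bool)
  have hu := hS.iso'.isoF hf
  have hu2 := hS.iso'.isoF (f := fun k => f (k, false)) fun a b h => congrArg Prod.fst (hf h)
  let v : κ × Bool → H := fun q => if q.2 then η q.1 else ξ q.1
  let ξ₀ : H := ∑ q, t' (f q) (v q)
  have hξ₀ : ‖ξ₀‖ = 1 := by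
    have : ‖ξ₀‖ ^ 2 = 1 := by
      rw [hu.norm_sum_sq, ← hn, Fintype.sum_prod_type]
      simp [v, add_comm]
    exact (pow_eq_one_iff_of_nonneg (norm_nonneg _) two_ne_zero).1 this
  have hv : ∀ q, star (t' (f q)) ξ₀ = v q := fun q => hu.star_sum q v
  have hy : ∀ k, star (t' (f (k, false))) ξ₀ = ξ k := fun k => hv (k, false)
  have hz : ∀ k, star (t' (f (k, true))) ξ₀ = η k := fun k => hv (k, true)
  have hη : ∑ k, ‖η k‖ ^ 2 ≤ 1 :=
    hn ▸ Finset.sum_le_sum fun k _ => le_add_of_nonneg_left (sq_nonneg _)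
  have hη1 : ∀ k, ‖η k‖ ≤ 1 := fun k => by
    have := (Finset.single_le_sum (f := fun k => ‖η k‖ ^ 2) (fun k _ => sq_nonneg _)
      (Finset.mem_univ k)).trans hη
    exact (pow_le_one_iff_of_nonneg (norm_nonneg _) two_ne_zero).1 this
  set n : ℝ := (Fintype.card κ : ℝ) with hnd
  have hn0 : 0 ≤ n := by rw [hnd]; positivity
  set Λ := ∑ k, ⟪η k, x k (ξ k)⟫_ℂ
  have main : ∀ τ : ℝ, 0 < τ → m₀ * ‖Λ‖ ≤
      n * τ + (δ + (δ * √T + √κ₀ * (6 * δ + √(κ₀ / T) + √((n / T + 2) * τ)))) := by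
    intro τ hτ
    obtain ⟨b, ε, m, Φ, hb, hε, hbε, hm, hO, hΦ⟩ := hE M N δ t t' hS ξ₀ hξ₀
      (Finset.univ.image x) τ (by
        intro w hw
        obtain ⟨k, -, rfl⟩ := Finset.mem_image.1 hw
        exact hx k) hτ
    have hΦM : ∀ k, Φ (x k) ∈ M := by
      obtain ⟨E, _, ⟨e⟩, ξ₁, A, Y, Θ, -, hA, -, hΘ, hg⟩ := hO
      intro k
      obtain ⟨g, g', hg, hgs⟩ := hg e (x k) (hx k).1 (hx k).2
      rw [← hΘ e _ (hx k).1, ← hgs]
      exact mul_mem (mul_mem (star_mem (hA e).1)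
        (sum_mem fun j _ => vn_smul_mem _ (hg j).1)) (hA e).1
    have h1 := emb_coin hδ hC hS.mn hS.mn' x hx ξ₀ (fun k => star (t' (f (k, false)))) η
      (fun k => ⟨star_mem (hS.tM' _), star_mem (hS.tN' _), by
        rw [norm_star]; exact hu.norm_le (k, false)⟩) hu2.bessel hη
      (by
        simp only [hy]
        exact hn ▸ Finset.sum_le_sum fun k _ => by
          nlinarith [sq_nonneg (‖ξ k‖ - ‖η k‖), norm_nonneg (ξ k), norm_nonneg (η k)])
      (by simpa only [hy] using hR) hκ hε hO hT (K := ⌈n * b / T⌉₊ + 1) (by omega)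
      (by
        have := Nat.le_ceil (n * b / T)
        rw [div_le_iff₀ hT] at this
        push_cast
        nlinarith)
    have h2 : √((⌈n * b / T⌉₊ + 1 : ℕ) : ℝ) * ε ≤ √((n / T + 2) * τ) := by
      refine Real.le_sqrt_of_sq_le ?_
      rw [mul_pow, Real.sq_sqrt (by positivity)]
      have h3 : (⌈n * b / T⌉₊ : ℝ) < n * b / T + 1 := Nat.ceil_lt_add_one (by positivity)
      have h4 : 0 ≤ n / T := by positivity
      have h5 : n * b / T = n / T * b := by ring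
      calc _ ≤ ((n / T + 2) * (b + 1)) * ε ^ 2 := by
            gcongr
            push_cast
            nlinarith
        _ = (n / T + 2) * ((b + 1) * ε ^ 2) := by ring
        _ ≤ _ := by gcongr
    have h3 : ‖∑ k, ⟪η k, Φ (x k) (star (t' (f (k, false))) ξ₀)⟫_ℂ - (m : ℂ) * Λ‖ ≤ n * τ := by
      rw [Finset.mul_sum, ← Finset.sum_sub_distrib]
      refine (norm_sum_le _ _).trans ?_
      rw [hnd, ← Finset.card_univ, ← nsmul_eq_mul, ← Finset.sum_const]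
      refine Finset.sum_le_sum fun k _ => ?_
      have h4 := hΦ (x k) (Finset.mem_image_of_mem _ (Finset.mem_univ k))
        (t' (f (k, false)) * star (t' (f (k, true)))) (mul_mem (hS.tM' _) (star_mem (hS.tM' _)))
      rw [mul_apply_eq_comp, hz, ← inner_star_right, ← inner_star_right,
        ← mul_apply_eq_comp (star _), ← mul_apply_eq_comp (star _),
        ← comm_of_mem (hΦM k) (star_mem (hS.tM' _)),
        ← comm_of_mem (hx k).1 (star_mem (hS.tM' _)), mul_apply_eq_comp, mul_apply_eq_comp,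
        hu.norm_apply (k, false)] at h4
      rw [← hy k]
      exact h4.trans (mul_le_of_le_one_right hτ.le (hη1 k))
    have h4 : m₀ * ‖Λ‖ ≤ ‖(m : ℂ) * Λ‖ := by
      rw [norm_mul, Complex.norm_real]
      gcongr
      exact hm.trans (le_abs_self m)
    have h5 := norm_le_norm_sub_add ((m : ℂ) * Λ)
      (∑ k, ⟪η k, Φ (x k) (star (t' (f (k, false))) ξ₀)⟫_ℂ)
    rw [norm_sub_rev] at h5
    have h6 := mul_le_mul_of_nonneg_left h2 (Real.sqrt_nonneg κ₀)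
    nlinarith
  have hc : Continuous fun τ : ℝ =>
      n * τ + (δ + (δ * √T + √κ₀ * (6 * δ + √(κ₀ / T) + √((n / T + 2) * τ)))) := by fun_prop
  have := ge_of_tendsto ((hc.tendsto 0).mono_left (nhdsWithin_le_nhds (s := Set.Ioi 0)))
    (eventually_nhdsWithin_of_forall main)
  simpa using this

theorem dual_of_norm {M N : VonNeumannAlgebra H} {c : ℝ}
    (h : ∀ (κ : Type) [Fintype κ] (x : κ → H →L[ℂ] H), (∀ k, x k ∈ M ∧ ‖x k‖ ≤ 1) →
      ∀ ξ η : κ → H, ∑ k, (‖ξ k‖ ^ 2 + ‖η k‖ ^ 2) = 1 →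
      (∀ w ∈ N, ∑ k, ⟪η k, w (ξ k)⟫_ℂ • x k = 0) → ‖∑ k, ⟪η k, x k (ξ k)⟫_ℂ‖ ≤ c)
    {κ : Type} [Fintype κ] (x : κ → H →L[ℂ] H) (hx : ∀ k, x k ∈ M ∧ ‖x k‖ ≤ 1) (ξ η : κ → H)
    (hR : ∀ w ∈ N, ∑ k, ⟪η k, w (ξ k)⟫_ℂ • x k = 0) :
    ‖∑ k, ⟪η k, x k (ξ k)⟫_ℂ‖ ≤ 2 * c * ∑ k, ‖ξ k‖ * ‖η k‖ := by
  set S := ∑ k, ‖ξ k‖ * ‖η k‖ with hS
  have hS0 : 0 ≤ S := Finset.sum_nonneg fun k _ => by positivity
  rcases hS0.eq_or_lt with h0 | h0
  · have h1 := (Finset.sum_eq_zero_iff_of_nonneg fun k _ => by positivity).1 h0.symm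
    rw [← h0, mul_zero, norm_le_zero_iff]
    refine Finset.sum_eq_zero fun k hk => ?_
    rcases mul_eq_zero.1 (h1 k hk) with h2 | h2 <;> simp [norm_eq_zero.1 h2]
  let α : κ → ℝ := fun k => √(‖η k‖ / (‖ξ k‖ * (2 * S)))
  let β : κ → ℝ := fun k => √(‖ξ k‖ / (‖η k‖ * (2 * S)))
  have hαβ : ∀ k (w : H →L[ℂ] H), ⟪(β k : ℂ) • η k, w ((α k : ℂ) • ξ k)⟫_ℂ =
      ((2 * S : ℝ) : ℂ)⁻¹ * ⟪η k, w (ξ k)⟫_ℂ := by
    intro k w
    by_cases h1 : ξ k = 0
    · simp [h1]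
    by_cases h2 : η k = 0
    · simp [h2]
    have h3 : 0 < ‖ξ k‖ := norm_pos_iff.2 h1
    have h4 : 0 < ‖η k‖ := norm_pos_iff.2 h2
    have : α k * β k = (2 * S)⁻¹ := by
      simp only [α, β]
      rw [← Real.sqrt_mul (by positivity), Real.sqrt_eq_iff_mul_self_eq (by positivity)
        (by positivity)]
      field_simp
    rw [map_smul, inner_smul_left, inner_smul_right, Complex.conj_ofReal, ← mul_assoc,
      ← Complex.ofReal_mul, mul_comm (β k), this, Complex.ofReal_inv]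
  have h1 := h κ x hx (fun k => (α k : ℂ) • ξ k) (fun k => (β k : ℂ) • η k) (by
      have : ∀ k, ‖(α k : ℂ) • ξ k‖ ^ 2 + ‖(β k : ℂ) • η k‖ ^ 2 = S⁻¹ * (‖ξ k‖ * ‖η k‖) := by
        intro k
        simp only [norm_smul, mul_pow, Complex.norm_real, Real.norm_eq_abs, sq_abs, α, β]
        rw [Real.sq_sqrt (by positivity), Real.sq_sqrt (by positivity)]
        by_cases h1 : ξ k = 0
        · simp [h1]
        by_cases h2 : η k = 0
        · simp [h2]
        have h3 : 0 < ‖ξ k‖ := norm_pos_iff.2 h1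
        have h4 : 0 < ‖η k‖ := norm_pos_iff.2 h2
        field_simp
        ring
      simp only [this]
      rw [← Finset.mul_sum, inv_mul_cancel₀ h0.ne']) (by
      intro w hw
      simp only [hαβ, mul_smul]
      rw [← Finset.smul_sum, hR w hw, smul_zero])
  simp only [hαβ] at h1
  rw [← Finset.mul_sum, norm_mul, norm_inv, Complex.norm_real, Real.norm_of_nonneg (by positivity),
    inv_mul_le_iff₀ (by positivity)] at h1
  linarith

theorem dual2 {m₀ κ₀ : ℝ} (hm : 0 < m₀) (hκ : 0 ≤ κ₀) (c : ℝ) (hc : 0 < c) :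
    ∃ δ₀ : ℝ, 0 < δ₀ ∧ ∀ δ : ℝ, 0 ≤ δ → δ ≤ δ₀ → ∀ (H : Type u) [NormedAddCommGroup H]
      [InnerProductSpace ℂ H] [CompleteSpace H], CoinA H → Emb2 H m₀ κ₀ → Dual H c δ := by
  set r := c * m₀ / 4 with hr
  have hr0 : 0 < r := by positivity
  set s := κ₀ / r + 1 with hs
  have hs0 : 0 < s := by positivity
  refine ⟨r / (1 + s + 6 * √κ₀), by positivity, fun δ hδ hδ' H _ _ _ hC hE M N t t' hS κ _ x ξ η
    hx hR => ?_⟩
  have := dual_of_norm (M := M) (N := N) (c := c / 2) (fun κ _ x hx ξ η hn hR => by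
    have h1 := dual_norm hδ hC hκ hE hS x hx ξ η hn hR (T := s ^ 2) (by positivity)
    rw [Real.sqrt_div hκ, Real.sqrt_sq hs0.le] at h1
    rw [le_div_iff₀ (by positivity)] at hδ'
    have h2 : √κ₀ * (√κ₀ / s) ≤ r := by
      rw [← mul_div_assoc, Real.mul_self_sqrt hκ, div_le_iff₀ hs0, hs, mul_add,
        mul_div_cancel₀ _ hr0.ne']
      linarith
    have h3 : m₀ * ‖∑ k, ⟪η k, x k (ξ k)⟫_ℂ‖ ≤ m₀ * (c / 2) := by nlinarith
    exact le_of_mul_le_mul_left h3 hm) x (fun k => ⟨(hx k).1, unit_norm_le (hx k).2⟩) ξ η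
    (fun w hw => by simpa using hR w hw)
  linarith

end Crest.Agent.H1KK
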