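import Crest.Agent.H1KK.Defs2
import Crest.Agent.H9.KD1

/-! T8: the linear lift from the dual inequality (Hahn–Banach). -/

set_option autoImplicit false

namespace Crest.Agent.H1KK

open scoped InnerProductSpace

universe u
variable {H : Type u} [NormedAddCommGroup H] [InnerProductSpace ℂ H] [CompleteSpace H]

/-- a bounded sesquilinear form is given by an operator -/
theorem exists_op_of_form (B : H → H → ℂ) (C : ℝ) (hC : 0 ≤ C)
    (h1 : ∀ η η' ξ, B (η + η') ξ = B η ξ + B η' ξ)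
    (h2 : ∀ (c : ℂ) η ξ, B (c • η) ξ = (starRingEnd ℂ) c * B η ξ)
    (h3 : ∀ η ξ ξ', B η (ξ + ξ') = B η ξ + B η ξ')
    (h4 : ∀ (c : ℂ) η ξ, B η (c • ξ) = c * B η ξ)
    (hb : ∀ η ξ, ‖B η ξ‖ ≤ C * ‖η‖ * ‖ξ‖) :
    ∃ T : H →L[ℂ] H, ‖T‖ ≤ C ∧ ∀ η ξ, ⟪η, T ξ⟫_ℂ = B η ξ := by
  let B₀ : H →ₗ⋆[ℂ] H →ₗ[ℂ] ℂ := LinearMap.mk₂'ₛₗ (starRingEnd ℂ) (RingHom.id ℂ) B h1
    (fun c η ξ => by rw [h2]; rfl) h3 (fun c η ξ => by rw [h4]; rfl)
  let B₁ : H →L⋆[ℂ] H →L[ℂ] ℂ := B₀.mkContinuous₂ C hb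
  let S := InnerProductSpace.continuousLinearMapOfBilin B₁
  have hT : ∀ η ξ, ⟪η, ContinuousLinearMap.adjoint S ξ⟫_ℂ = B η ξ := by
    intro η ξ
    rw [ContinuousLinearMap.adjoint_inner_right,
      InnerProductSpace.continuousLinearMapOfBilin_apply]
    rfl
  refine ⟨ContinuousLinearMap.adjoint S, ?_, hT⟩
  refine ContinuousLinearMap.opNorm_le_bound _ hC fun ξ => ?_
  set v := ContinuousLinearMap.adjoint S ξ
  have h := hb v ξ
  rw [← hT, inner_self_eq_norm_sq_to_K] at h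
  simp only [norm_pow, RCLike.norm_ofReal, abs_norm] at h
  rcases eq_or_lt_of_le (norm_nonneg v) with h0 | h0
  · rw [← h0]; positivity
  · nlinarith

instance isClosed_vn (M : VonNeumannAlgebra H) :
    IsClosed (M.toStarSubalgebra : Set (H →L[ℂ] H)) := by
  rw [VonNeumannAlgebra.coe_toStarSubalgebra, ← M.centralizer_centralizer]
  exact Set.isClosed_centralizer _

theorem exists_four_unitary (M : VonNeumannAlgebra H) (x : H →L[ℂ] H) (hx : x ∈ M) :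
    ∃ (u : Fin 4 → H →L[ℂ] H) (c : Fin 4 → ℂ), (∀ i, u i ∈ M ∧ u i ∈ unitary (H →L[ℂ] H)) ∧
      x = ∑ i, c i • u i ∧ ∀ i, ‖c i‖ ≤ ‖x‖ / 2 := by
  obtain ⟨u, c, h1, h2⟩ := CStarAlgebra.exists_sum_four_unitary (⟨x, hx⟩ : M.toStarSubalgebra)
  refine ⟨fun i => ((u i : M.toStarSubalgebra) : H →L[ℂ] H), c, fun i => ⟨(u i).1.2, ?_⟩, ?_, h2⟩
  · obtain ⟨h3, h4⟩ := (u i).2
    exact ⟨congrArg Subtype.val h3, congrArg Subtype.val h4⟩
  · have := congrArg Subtype.val h1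
    simpa using this

theorem dual_all {M N : VonNeumannAlgebra H} {c δ : ℝ} {t t' : ℕ → H →L[ℂ] H} (hc : 0 ≤ c)
    (hD : Dual H c δ) (hS : Setting M N δ t t') (κ : Type) [Fintype κ] (x : κ → H →L[ℂ] H)
    (ξ η : κ → H) (hx : ∀ k, x k ∈ M) (hR : ∀ y ∈ N, ∑ k, ⟪η k, y (ξ k)⟫_ℂ • x k = 0) :
    ‖∑ k, ⟪η k, x k (ξ k)⟫_ℂ‖ ≤ 2 * c * ∑ k, ‖x k‖ * ‖ξ k‖ * ‖η k‖ := by
  choose u a hu hxu ha using fun k => exists_four_unitary M (x k) (hx k)
  have := hD M N t t' hS (κ × Fin 4) (fun q => u q.1 q.2) (fun q => a q.1 q.2 • ξ q.1)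
    (fun q => η q.1) (fun q => hu q.1 q.2) (by
      intro y hy
      rw [← hR y hy, Fintype.sum_prod_type]
      refine Finset.sum_congr rfl fun k _ => ?_
      conv_rhs => rw [hxu k, Finset.smul_sum]
      refine Finset.sum_congr rfl fun i _ => ?_
      simp [smul_smul, mul_comm])
  have e1 : ∑ q : κ × Fin 4, ⟪η q.1, u q.1 q.2 (a q.1 q.2 • ξ q.1)⟫_ℂ =
      ∑ k, ⟪η k, x k (ξ k)⟫_ℂ := by
    rw [Fintype.sum_prod_type]
    refine Finset.sum_congr rfl fun k _ => ?_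
    conv_rhs => rw [hxu k]
    simp
  rw [e1] at this
  refine this.trans ?_
  rw [Fintype.sum_prod_type, mul_comm 2 c, mul_assoc, Finset.mul_sum (s := Finset.univ)
    (f := fun k => ‖x k‖ * ‖ξ k‖ * ‖η k‖)]
  refine mul_le_mul_of_nonneg_left (Finset.sum_le_sum fun k _ => ?_) hc
  calc ∑ i : Fin 4, ‖a k i • ξ k‖ * ‖η k‖ ≤ ∑ _i : Fin 4, ‖x k‖ / 2 * ‖ξ k‖ * ‖η k‖ := by
        refine Finset.sum_le_sum fun i _ => ?_
        rw [norm_smul]
        gcongr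
        exact ha k i
    _ = _ := by simp; ring

/-- evaluation of a triple as a function on `N` -/
noncomputable def ev (N : VonNeumannAlgebra H) (x : H →L[ℂ] H) (ξ η : H) : N → (H →L[ℂ] H) :=
  fun y => ⟪η, (y : H →L[ℂ] H) ξ⟫_ℂ • x

theorem lift_of_dual' {M N : VonNeumannAlgebra H} {c δ : ℝ} {t t' : ℕ → H →L[ℂ] H} (hc : 0 ≤ c)
    (hD : Dual H c δ) (hS : Setting M N δ t t') : Lift M N (2 * c) := by
  let T : Set ((N → (H →L[ℂ] H)) × ℝ) := {p | ∃ (κ : Type) (_ : Fintype κ) (x : κ → H →L[ℂ] H)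
    (ξ η : κ → H), (∀ k, x k ∈ M) ∧ p.1 = ∑ k, ev N (x k) (ξ k) (η k) ∧
      p.2 ≤ ∑ k, ((⟪η k, x k (ξ k)⟫_ℂ).re - 2 * c * (‖x k‖ * ‖ξ k‖ * ‖η k‖))}
  obtain ⟨g, hg⟩ := H9.KD.hb_cone T
    ⟨Empty, inferInstance, Empty.elim, Empty.elim, Empty.elim, by simp, by simp, by simp⟩ (by
      rintro p ⟨κ, _, x, ξ, η, h0, h1, h2⟩ q ⟨κ', _, x', ξ', η', h0', h1', h2'⟩
      refine ⟨κ ⊕ κ', inferInstance, Sum.elim x x', Sum.elim ξ ξ', Sum.elim η η', ?_, ?_, ?_⟩
      · rintro (k | k)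
        exacts [h0 k, h0' k]
      · simp [h1, h1']
      · simp only [Prod.snd_add, Fintype.sum_sum_type, Sum.elim_inl, Sum.elim_inr]
        linarith) (by
      rintro r hr p ⟨κ, _, x, ξ, η, h0, h1, h2⟩
      refine ⟨κ, inferInstance, x, fun k => (r : ℂ) • ξ k, η, h0, ?_, ?_⟩
      · simp only [Prod.smul_fst, h1, Finset.smul_sum]
        refine Finset.sum_congr rfl fun k _ => ?_
        funext y
        simp [ev, ← smul_assoc]
      · simp only [Prod.smul_snd, smul_eq_mul]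
        refine (mul_le_mul_of_nonneg_left h2 hr.le).trans (le_of_eq ?_)
        rw [Finset.mul_sum]
        refine Finset.sum_congr rfl fun k _ => ?_
        simp [norm_smul, abs_of_pos hr]
        ring) (by
      rintro r ⟨κ, _, x, ξ, η, h0, h1, h2⟩
      have h3 := dual_all hc hD hS κ x ξ η h0 (fun y hy => by
        have := congrFun h1 ⟨y, hy⟩
        simpa [ev, Finset.sum_apply] using this.symm)
      have h4 := (Complex.re_le_norm _).trans h3
      rw [Finset.sum_sub_distrib, ← Finset.mul_sum, ← Complex.re_sum] at h2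
      simp only at h2
      linarith) (by
      rintro e r ⟨κ, _, x, ξ, η, h0, h1, h2⟩
      refine ⟨_, κ, inferInstance, x, fun k => -ξ k, η, h0, ?_, le_rfl⟩
      simp only at h1
      simp only [h1, ← Finset.sum_neg_distrib]
      refine Finset.sum_congr rfl fun k _ => ?_
      funext y
      simp [ev])
  let G : (N → (H →L[ℂ] H)) →ₗ[ℂ] ℂ := Module.Dual.extendRCLike g
  have hre : ∀ e, (G e).re = g e := fun e => Module.Dual.re_extendRCLike_apply (𝕜 := ℂ) g e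
  have ev3 : ∀ x ξ ξ' η, ev N x (ξ + ξ') η = ev N x ξ η + ev N x ξ' η := by
    intro x ξ ξ' η; funext y; simp [ev, add_smul]
  have ev4 : ∀ (a : ℂ) x ξ η, ev N x (a • ξ) η = a • ev N x ξ η := by
    intro a x ξ η; funext y; simp [ev, smul_smul]
  have ev1 : ∀ x ξ η η', ev N x ξ (η + η') = ev N x ξ η + ev N x ξ η' := by
    intro x ξ η η'; funext y; simp [ev, add_smul]
  have ev2 : ∀ (a : ℂ) x ξ η, ev N x ξ (a • η) = (starRingEnd ℂ) a • ev N x ξ η := by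
    intro a x ξ η; funext y; simp [ev, smul_smul, mul_comm]
  have hb : ∀ x ∈ M, ∀ η ξ, ‖⟪η, x ξ⟫_ℂ - G (ev N x ξ η)‖ ≤ 2 * c * ‖x‖ * ‖η‖ * ‖ξ‖ := by
    intro x hx η ξ
    obtain ⟨a, ha, hz⟩ := Complex.exists_norm_eq_mul_self (⟪η, x ξ⟫_ℂ - G (ev N x ξ η))
    have h := hg (ev N x (a • ξ) η)
      ((⟪η, x (a • ξ)⟫_ℂ).re - 2 * c * (‖x‖ * ‖a • ξ‖ * ‖η‖)) ⟨Unit, inferInstance, fun _ => x,
      fun _ => a • ξ, fun _ => η, fun _ => hx, by simp, by simp⟩
    rw [← hre, ev4, map_smul] at h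
    have h2 := congrArg Complex.re hz
    simp only [map_smul, inner_smul_right, norm_smul, ha, smul_eq_mul] at h
    rw [mul_sub, Complex.sub_re, Complex.ofReal_re] at h2
    nlinarith
  have hop : ∀ x : M.toStarSubalgebra.toSubalgebra.toSubmodule, ∃ D : H →L[ℂ] H,
      ‖D‖ ≤ 2 * c * ‖(x : H →L[ℂ] H)‖ ∧
      ∀ η ξ, ⟪η, D ξ⟫_ℂ = ⟪η, (x : H →L[ℂ] H) ξ⟫_ℂ - G (ev N x ξ η) := by
    intro x
    refine exists_op_of_form _ _ (by positivity) ?_ ?_ ?_ ?_ (hb x x.2)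
    · intro η η' ξ; rw [ev1, map_add, inner_add_left]; ring
    · intro a η ξ; rw [ev2, map_smul, inner_smul_left, smul_eq_mul]; ring
    · intro η ξ ξ'; rw [ev3, map_add, map_add, inner_add_right]; ring
    · intro a η ξ; rw [ev4, map_smul, map_smul, inner_smul_right, smul_eq_mul]; ring
  choose D hD1 hD2 using hop
  have hφ : ∀ (x : M.toStarSubalgebra.toSubalgebra.toSubmodule) η ξ,
      ⟪η, ((x : H →L[ℂ] H) - D x) ξ⟫_ℂ = G (ev N x ξ η) := by
    intro x η ξ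
    rw [sub_apply, inner_sub_right, hD2]; ring
  let φ₀ : M.toStarSubalgebra.toSubalgebra.toSubmodule →ₗ[ℂ] (H →L[ℂ] H) :=
    { toFun := fun x => (x : H →L[ℂ] H) - D x
      map_add' := by
        intro x y
        ext ξ
        refine ext_inner_left ℂ fun η => ?_
        rw [hφ, add_apply, inner_add_right, hφ, hφ, ← map_add]
        congr 1
        funext w; simp [ev]
      map_smul' := by
        intro a x
        ext ξ
        refine ext_inner_left ℂ fun η => ?_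
        rw [hφ, smul_apply, inner_smul_right, hφ, RingHom.id_apply,
          ← smul_eq_mul, ← map_smul]
        congr 1
        funext w; simp [ev, smul_comm a] }
  obtain ⟨φ, hφe⟩ := LinearMap.exists_extend φ₀
  refine ⟨φ, fun x hx => ?_⟩
  have e : φ x = x - D ⟨x, hx⟩ := LinearMap.congr_fun hφe ⟨x, hx⟩
  refine ⟨?_, ?_⟩
  · rw [← N.commutant_commutant, VonNeumannAlgebra.mem_commutant_iff]
    intro a ha
    ext ξ
    refine ext_inner_left ℂ fun η => ?_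
    have h1 := hφ ⟨x, hx⟩ η (a ξ)
    have h2 := hφ ⟨x, hx⟩ (star a η) ξ
    rw [mul_apply_eq_comp, mul_apply_eq_comp, e, h1,
      ← ContinuousLinearMap.adjoint_inner_left, ← ContinuousLinearMap.star_eq_adjoint, h2]
    congr 1
    funext w
    have hw := (VonNeumannAlgebra.mem_commutant_iff.mp ha) w w.2
    have : (w : H →L[ℂ] H) (a ξ) = a ((w : H →L[ℂ] H) ξ) := congrArg (fun T => T ξ) hw
    simp only [ev]
    rw [this, ContinuousLinearMap.star_eq_adjoint, ContinuousLinearMap.adjoint_inner_left]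
  · rw [e, sub_sub_cancel_left, norm_neg]
    exact hD1 ⟨x, hx⟩

theorem Lift.mono {M N : VonNeumannAlgebra H} {c c' : ℝ} (h : Lift M N c) (hc : c ≤ c') :
    Lift M N c' := by
  obtain ⟨φ, hφ⟩ := h
  exact ⟨φ, fun x hx => ⟨(hφ x hx).1, (hφ x hx).2.trans (by gcongr)⟩⟩

theorem lift_of_dual {M N : VonNeumannAlgebra H} {c δ : ℝ} {t t' : ℕ → H →L[ℂ] H} (hc : 0 ≤ c)
    (hδ : 0 ≤ δ) (hD : Dual H c δ) (hS : Setting M N δ t t') : Lift M N (4 * (c + 2 * δ)) :=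
  (lift_of_dual' hc hD hS).mono (by linarith)

end Crest.Agent.H1KK
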