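import Crest.Agent.H1KK.AsmB
import Crest.Agent.H1KK.LiftA

/-! The linear lift from `CoinA` and `Emb2`. -/

set_option autoImplicit false

namespace Crest.Agent.H1KK

universe u

theorem lift_of_coin_emb {m₀ κ₀ : ℝ} (hm : 0 < m₀) (hκ : 0 ≤ κ₀) (c : ℝ) (hc : 0 < c) :
    ∃ δ₀ : ℝ, 0 < δ₀ ∧ ∀ δ : ℝ, 0 ≤ δ → δ ≤ δ₀ → ∀ (H : Type u) [NormedAddCommGroup H]
      [InnerProductSpace ℂ H] [CompleteSpace H], CoinA H → Emb2 H m₀ κ₀ →
      ∀ (M N : VonNeumannAlgebra H) (t t' : ℕ → H →L[ℂ] H), Setting M N δ t t' → Lift M N c := by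
  obtain ⟨δ₀, h0, h⟩ := dual2.{u} hm hκ (c / 2) (by positivity)
  refine ⟨δ₀, h0, fun δ h1 h2 H _ _ _ hC hE M N t t' hS => ?_⟩
  exact (lift_of_dual' (by positivity) (h δ h1 h2 H hC hE) hS).mono (by linarith)

end Crest.Agent.H1KK
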