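import Crest.Agent.H1KK.Defs

/-! One-round version of the plan (helper7): `Dual` from `CoinA` and `Emb2` only. -/

set_option autoImplicit false

namespace Crest.Agent.H1KK

open scoped InnerProductSpace

universe u
variable {H : Type u} [NormedAddCommGroup H] [InnerProductSpace ℂ H] [CompleteSpace H]

/-- The one-round coin lemma with predictable truncation. -/
def CoinA (H : Type u) [NormedAddCommGroup H] [InnerProductSpace ℂ H] [CompleteSpace H] : Prop :=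
  ∀ (M N : VonNeumannAlgebra H) (δ : ℝ), 0 ≤ δ → Near M N δ → Near M.commutant N.commutant δ →
  ∀ (I : Type) [Fintype I] (p : I → ℝ) (s : I → I) (g g' : I → H →L[ℂ] H) (ξ : H) (ε : ℝ),
    0 ≤ ε → LS M p s g g' ξ ε →
  ∀ (a : I → H →L[ℂ] H) (z : I → H) (κ b F T : ℝ), 0 ≤ κ → 0 ≤ F → 0 < T →
    (∀ i, a i ∈ N.commutant) → (∀ θ, ∑ i, p i * ‖a i θ‖ ^ 2 ≤ κ * ‖θ‖ ^ 2) →
    (∀ i, ‖a i‖ ^ 2 ≤ b) → ∑ i, p i * ‖z i‖ ^ 2 ≤ F ^ 2 →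
    VRel p g (fun i => star (a i) (z i)) →
  ∀ v : I → H →L[ℂ] H, (∀ i, v i ∈ N ∧ ‖v i‖ ≤ 1 ∧ ‖g i - v i‖ ≤ δ) →
  ∀ K : ℕ, 1 ≤ K → b ≤ K * T →
    ‖∑ i, (p i : ℂ) * ⟪z i, a i (v i ξ)⟫_ℂ‖ ≤
      F * (δ * √T * ‖ξ‖ + √κ * (6 * δ * ‖ξ‖ + √(κ / T) * ‖ξ‖ + √K * ε))

/-- The battery embedding: marks `Y e` with `avg Y* Y ≤ κ₀`, `‖Y e‖² ≤ b`, letters with defect `ε`. -/
def EmbOut2 (M N : VonNeumannAlgebra H) (ξ : H) (κ₀ b ε : ℝ)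
    (Φ : (H →L[ℂ] H) →ₗ[ℂ] (H →L[ℂ] H)) : Prop :=
  ∃ (E : Type) (_ : Fintype E) (_ : Nonempty E) (ξ₁ : H) (A Y : E → H →L[ℂ] H)
    (Θ : E → (H →L[ℂ] H) →ₗ[ℂ] (H →L[ℂ] H)),
    ‖ξ₁‖ ≤ 1 ∧
    (∀ e, A e ∈ M ∧ A e ∈ N ∧ star (A e) * A e = 1 ∧ Y e ∈ M.commutant ∧ Y e ∈ N.commutant ∧
      Y e ξ₁ = A e ξ ∧ ‖Y e‖ ^ 2 ≤ b) ∧
    (∀ ζ, ∑ e, ‖Y e ζ‖ ^ 2 ≤ Fintype.card E * κ₀ * ‖ζ‖ ^ 2) ∧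
    (∀ e, ∀ x ∈ M, star (A e) * Θ e x * A e = Φ x) ∧
    ∀ e, ∀ x ∈ M, ‖x‖ ≤ 1 → ∃ g g' : Bool × Bool → H →L[ℂ] H,
      (∀ j, g j ∈ M ∧ g j ∈ unitary (H →L[ℂ] H) ∧ g' j ∈ M.commutant ∧
        g' j ∈ unitary (H →L[ℂ] H) ∧ g (j.1, !j.2) = star (g j) ∧ g' (j.1, !j.2) = star (g' j) ∧
        ‖g j (g' j ξ₁) - ξ₁‖ ≤ ε) ∧
      ∑ j : Bool × Bool, ((1 / 4 : ℂ) * (if j.1 then Complex.I else 1)) • g j = Θ e x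

/-- The embedding lemma with absolute constants `m₀`, `κ₀` (no modular data in the statement). -/
def Emb2 (H : Type u) [NormedAddCommGroup H] [InnerProductSpace ℂ H] [CompleteSpace H]
    (m₀ κ₀ : ℝ) : Prop :=
  ∀ (M N : VonNeumannAlgebra H) (δ : ℝ) (t t' : ℕ → H →L[ℂ] H), Setting M N δ t t' →
  ∀ ξ : H, ‖ξ‖ = 1 → ∀ (F : Finset (H →L[ℂ] H)) (τ : ℝ), (∀ x ∈ F, x ∈ M ∧ ‖x‖ ≤ 1) → 0 < τ →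
    ∃ (b ε m : ℝ) (Φ : (H →L[ℂ] H) →ₗ[ℂ] (H →L[ℂ] H)), 0 ≤ b ∧ 0 ≤ ε ∧ (b + 1) * ε ^ 2 ≤ τ ∧
      m₀ ≤ m ∧ EmbOut2 M N ξ κ₀ b ε Φ ∧
      ∀ x ∈ F, ∀ z ∈ M.commutant,
        ‖⟪z ξ, Φ x ξ⟫_ℂ - (m : ℂ) * ⟪z ξ, x ξ⟫_ℂ‖ ≤ τ * ‖z ξ‖

/- Targets:
* `coinA : CoinA H`
* `emb2 : ∃ m₀ κ₀ : ℝ, 0 < m₀ ∧ 0 ≤ κ₀ ∧ ∀ (H : Type u) [..], Emb2 H m₀ κ₀`
* `dual2 : 0 < m₀ → 0 ≤ κ₀ → ∀ c > 0, ∃ δ > 0, ∀ H [..], CoinA H → Emb2 H m₀ κ₀ → Dual H c δ` (helper7)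
* `lift_of_dual : 0 ≤ c → 0 ≤ δ → Dual H c δ → Setting M N δ t t' → Lift M N (4 * (c + 2 * δ))` (helper7)
-/

end Crest.Agent.H1KK
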