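import Mathlib
import Crest.Agent.H1KK.Coin
import Crest.Agent.H1KK.Defs2

/-! The one-round coin lemma with predictable truncation. -/

set_option autoImplicit false
set_option linter.unusedSectionVars false
set_option linter.deprecated false

namespace Crest.Agent.H1KK

open scoped InnerProductSpace

universe u
variable {H : Type u} [NormedAddCommGroup H] [InnerProductSpace ℂ H] [CompleteSpace H]

lemma wcs {κ : Type*} (s : Finset κ) {p x y : κ → ℝ} (hp : ∀ k, 0 ≤ p k) {A B : ℝ} (hA : 0 ≤ A)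
    (hB : 0 ≤ B) (hx : ∑ k ∈ s, p k * x k ^ 2 ≤ A ^ 2) (hy : ∑ k ∈ s, p k * y k ^ 2 ≤ B ^ 2) :
    ∑ k ∈ s, p k * (x k * y k) ≤ A * B := by
  have h := Finset.sum_mul_sq_le_sq_mul_sq s (fun k => √(p k) * x k) (fun k => √(p k) * y k)
  have e1 : ∀ k, √(p k) * x k * (√(p k) * y k) = p k * (x k * y k) := fun k => by
    have := Real.mul_self_sqrt (hp k); linear_combination (x k * y k) * this
  have e2 : ∀ (z : κ → ℝ) k, (√(p k) * z k) ^ 2 = p k * z k ^ 2 := fun z k => by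
    rw [mul_pow, Real.sq_sqrt (hp k)]
  simp only [e1, e2] at h
  have h2 : (∑ k ∈ s, p k * (x k * y k)) ^ 2 ≤ (A * B) ^ 2 := by
    rw [mul_pow]
    exact h.trans (mul_le_mul hx hy (Finset.sum_nonneg fun k _ => mul_nonneg (hp k) (sq_nonneg _))
      (sq_nonneg _))
  exact le_of_sq_le_sq h2 (mul_nonneg hA hB) |> fun h => h

/-- for `0 ≤ r ≤ 1`: `r² ≤ r` -/
lemma sq_le_of_pos_contr {r : H →L[ℂ] H} (hr : star r = r) (h0 : ∀ θ, 0 ≤ reIn θ θ r)
    (h1 : ∀ θ, reIn θ θ r ≤ ‖θ‖ ^ 2) (θ : H) : ‖r θ‖ ^ 2 ≤ reIn θ θ r := by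
  have sa : ∀ x y : H, ⟪r x, y⟫_ℂ = ⟪x, r y⟫_ℂ := fun x y => by
    rw [← inner_star_right, hr]
  have a := h0 (θ - r θ)
  have b := h1 (r θ)
  simp only [reIn_apply, map_sub, inner_sub_left, inner_sub_right, Complex.sub_re] at a b ⊢
  have e1 : (⟪θ, r (r θ)⟫_ℂ).re = ‖r θ‖ ^ 2 := by rw [← sa, re_inner_self]
  have e2 : (⟪r θ, r θ⟫_ℂ).re = ‖r θ‖ ^ 2 := re_inner_self _
  linarith

lemma reIn_star_mul_self (c : H →L[ℂ] H) (θ : H) : reIn θ θ (star c * c) = ‖c θ‖ ^ 2 := by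
  rw [reIn_apply, ContinuousLinearMap.mul_apply, inner_star_right, re_inner_self]

lemma reIn_one (θ : H) : reIn θ θ (1 : H →L[ℂ] H) = ‖θ‖ ^ 2 := by
  rw [reIn_apply, ContinuousLinearMap.one_apply, re_inner_self]

lemma vn_rsmul_mem {S : VonNeumannAlgebra H} (c : ℝ) {x : H →L[ℂ] H} (hx : x ∈ S) : c • x ∈ S := by
  rw [← Complex.coe_smul]; exact vn_smul_mem _ hx

section trunc
variable {I : Type} (a : I → H →L[ℂ] H) (q : List I → H →L[ℂ] H) (K T : ℝ)

/-- the predictable quadratic variation -/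
noncomputable def SV : List I → H →L[ℂ] H
  | [] => 0
  | k :: R => SV R + K⁻¹ • (star (a k * q R * (1 - T⁻¹ • SV R)) * (a k * q R * (1 - T⁻¹ • SV R)))

/-- the truncation -/
noncomputable def rV (R : List I) : H →L[ℂ] H := 1 - T⁻¹ • SV a q K T R

/-- the truncated mark -/
noncomputable def cV (k : I) (R : List I) : H →L[ℂ] H := a k * q R * rV a q K T R

lemma SV_cons (k : I) (R : List I) :
    SV a q K T (k :: R) = SV a q K T R + K⁻¹ • (star (cV a q K T k R) * cV a q K T k R) := rfl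

lemma reIn_SV_cons (k : I) (R : List I) (θ : H) :
    reIn θ θ (SV a q K T (k :: R)) = reIn θ θ (SV a q K T R) + K⁻¹ * ‖cV a q K T k R θ‖ ^ 2 := by
  rw [SV_cons, map_add, map_smul, reIn_star_mul_self, smul_eq_mul]

lemma SV_star (R : List I) : star (SV a q K T R) = SV a q K T R := by
  induction R with
  | nil => simp [SV]
  | cons k R ih => rw [SV_cons, star_add, ih, star_smul, star_mul, star_star, star_trivial]

lemma rV_star (R : List I) : star (rV a q K T R) = rV a q K T R := by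
  rw [rV, star_sub, star_one, star_smul, SV_star, star_trivial]

lemma reIn_rV (R : List I) (θ : H) :
    reIn θ θ (rV a q K T R) = ‖θ‖ ^ 2 - T⁻¹ * reIn θ θ (SV a q K T R) := by
  rw [rV, map_sub, map_smul, reIn_one, smul_eq_mul]

variable {a q K T}

lemma SV_mem {S : VonNeumannAlgebra H} (ha : ∀ i, a i ∈ S) (hq : ∀ R, q R ∈ S) (R : List I) :
    SV a q K T R ∈ S := by
  induction R with
  | nil => exact zero_mem _
  | cons k R ih =>
    have : cV a q K T k R ∈ S :=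
      mul_mem (mul_mem (ha k) (hq R)) (vn_sub_mem (one_mem _) (vn_rsmul_mem _ ih))
    rw [SV_cons]
    exact add_mem ih (vn_rsmul_mem _ (mul_mem (star_mem this) this))

lemma rV_mem {S : VonNeumannAlgebra H} (ha : ∀ i, a i ∈ S) (hq : ∀ R, q R ∈ S) (R : List I) :
    rV a q K T R ∈ S := vn_sub_mem (one_mem _) (vn_rsmul_mem _ (SV_mem ha hq R))

lemma cV_mem {S : VonNeumannAlgebra H} (ha : ∀ i, a i ∈ S) (hq : ∀ R, q R ∈ S) (k : I)
    (R : List I) : cV a q K T k R ∈ S := mul_mem (mul_mem (ha k) (hq R)) (rV_mem ha hq R)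

lemma rV_sq_le {R : List I} (hT : 0 < T)
    (h : ∀ θ, 0 ≤ reIn θ θ (SV a q K T R) ∧ reIn θ θ (SV a q K T R) ≤ T * ‖θ‖ ^ 2) (θ : H) :
    ‖rV a q K T R θ‖ ^ 2 ≤ ‖θ‖ ^ 2 - T⁻¹ * reIn θ θ (SV a q K T R) := by
  rw [← reIn_rV]
  refine sq_le_of_pos_contr (rV_star a q K T R) (fun θ => ?_) (fun θ => ?_) θ
  · rw [reIn_rV, sub_nonneg, inv_mul_le_iff₀ hT]; exact (h θ).2
  · rw [reIn_rV]; have := mul_nonneg (inv_nonneg.2 hT.le) (h θ).1; linarith

lemma SV_bounds {b : ℝ} (hK : 0 < K) (hT : 0 < T) (hb : b ≤ K * T) (ha : ∀ i, ‖a i‖ ^ 2 ≤ b)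
    (hq : ∀ R, ‖q R‖ ≤ 1) (R : List I) (θ : H) :
    0 ≤ reIn θ θ (SV a q K T R) ∧ reIn θ θ (SV a q K T R) ≤ T * ‖θ‖ ^ 2 := by
  induction R generalizing θ with
  | nil => simp only [SV, map_zero]; exact ⟨le_rfl, by positivity⟩
  | cons k R ih =>
    rw [reIn_SV_cons]
    refine ⟨add_nonneg (ih θ).1 (by positivity), ?_⟩
    have h1 := rV_sq_le hT ih θ
    have h2 : ‖cV a q K T k R θ‖ ^ 2 ≤ K * T * ‖rV a q K T R θ‖ ^ 2 := by
      have : ‖cV a q K T k R θ‖ ≤ ‖a k‖ * ‖rV a q K T R θ‖ :=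
        ((a k).le_opNorm _).trans (mul_le_mul_of_nonneg_left (contr_apply (hq R) _)
          (norm_nonneg _))
      refine (pow_le_pow_left₀ (norm_nonneg _) this 2).trans ?_
      rw [mul_pow]
      exact mul_le_mul_of_nonneg_right ((ha k).trans hb) (sq_nonneg _)
    have h3 : K⁻¹ * ‖cV a q K T k R θ‖ ^ 2 ≤ T * ‖rV a q K T R θ‖ ^ 2 := by
      rw [inv_mul_le_iff₀ hK, ← mul_assoc]; exact h2
    have h4 := mul_le_mul_of_nonneg_left h1 hT.le
    rw [mul_sub, ← mul_assoc, mul_inv_cancel₀ hT.ne', one_mul] at h4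
    linarith

lemma atPos_zero_cons {V : Type*} [Zero V] (F : List I → I → List I → V) (k : I) (w : List I) :
    atPos F 0 (k :: w) = F [] k w := by simp [atPos]

lemma atPos_succ_cons {V : Type*} [Zero V] (F : I → List I → V) (j : ℕ) (k : I) (w : List I) :
    atPos (fun _ => F) (j + 1) (k :: w) = atPos (fun _ => F) j w := by
  simp only [atPos, List.drop_succ_cons]

lemma sum_cV_sq (w : List I) (θ : H) :
    ∑ j ∈ Finset.range w.length, K⁻¹ * atPos (fun _ k R => ‖cV a q K T k R θ‖ ^ 2) j w =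
      reIn θ θ (SV a q K T w) := by
  induction w with
  | nil => simp [SV]
  | cons k w ih =>
    rw [List.length_cons, Finset.sum_range_succ', reIn_SV_cons, ← ih, atPos_zero_cons]
    simp only [atPos_succ_cons]

end trunc

theorem coinA : CoinA H := by
  intro M N δ hδ hMN hMN' I _ p s g g' ξ ε hε hL a z κ b F T hκ hF hT ha haκ hab hz hV v hv K hK hb
  obtain ⟨V, hV1, hV2⟩ := hMN.exists_lift
  obtain ⟨V', hV1', hV2'⟩ := hMN'.exists_lift
  have hp := hL.p_nonneg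
  have hp1 := hL.p_sum
  have hK0 : (0 : ℝ) < K := by exact_mod_cast hK
  have gW : ∀ l, wp g l ∈ M := wp_mem hL.g_mem
  have gU : ∀ l, wp g l ∈ unitary (H →L[ℂ] H) := wp_unit hL.g_unit
  have gW' : ∀ l, wp g' l ∈ M.commutant := wp_mem hL.g'_mem
  have gU' : ∀ l, wp g' l ∈ unitary (H →L[ℂ] H) := wp_unit hL.g'_unit
  have vd : ∀ l, ‖wp g l - V (wp g l)‖ ≤ δ := fun l => hV2 _ (gW l) (unit_norm_le (gU l))
  have vd' : ∀ l, ‖wp g' l - V' (wp g' l)‖ ≤ δ := fun l => hV2' _ (gW' l) (unit_norm_le (gU' l))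
  set q : List I → H →L[ℂ] H := fun R => V' (wp g' R) with hq
  have hq1 : ∀ R, q R ∈ N.commutant := fun R => (hV1' _).1
  have hq2 : ∀ R, ‖q R‖ ≤ 1 := fun R => (hV1' _).2
  set S := SV a q K T with hS
  set r := rV a q K T with hr
  set c := cV a q K T with hc
  have hSb : ∀ R θ, 0 ≤ reIn θ θ (S R) ∧ reIn θ θ (S R) ≤ T * ‖θ‖ ^ 2 :=
    SV_bounds hK0 hT hb hab hq2
  have hr1 : ∀ R θ, ‖r R θ‖ ≤ ‖θ‖ := fun R θ => by
    have h1 := rV_sq_le hT (hSb R) θ
    have h2 := mul_nonneg (inv_nonneg.2 hT.le) (hSb R θ).1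
    exact le_of_sq_le_sq (by linarith) (norm_nonneg _) |> fun h => h
  have hcN : ∀ k R, c k R ∈ N.commutant := cV_mem ha hq1
  have hcκ : ∀ R θ, ∑ k, p k * ‖c k R θ‖ ^ 2 ≤ κ * ‖θ‖ ^ 2 := fun R θ =>
    (haκ (q R (r R θ))).trans (mul_le_mul_of_nonneg_left (pow_le_pow_left₀ (norm_nonneg _)
      ((contr_apply (hq2 R) _).trans (hr1 R θ)) 2) hκ)
  have hsq : ∀ θ : H, κ * ‖θ‖ ^ 2 = (√κ * ‖θ‖) ^ 2 := fun θ => by
    rw [mul_pow, Real.sq_sqrt hκ]
  -- expected size of `S`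
  have hES : ∀ m : ℕ, Ex p m (fun R => reIn ξ ξ (S R)) ≤ m * ((K : ℝ)⁻¹ * (κ * ‖ξ‖ ^ 2)) := by
    intro m
    induction m with
    | zero => simp [Ex_zero, hS, SV]
    | succ m ih =>
      rw [Ex_succ]
      simp only [← Ex_smul]
      rw [← Ex_sum]
      refine (Ex_mono hp (g := fun R => reIn ξ ξ (S R) + (K : ℝ)⁻¹ * (κ * ‖ξ‖ ^ 2))
        fun R _ => ?_).trans ?_
      · simp only [hS, reIn_SV_cons, smul_eq_mul, mul_add, Finset.sum_add_distrib,
          ← Finset.sum_mul, hp1, one_mul]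
        refine add_le_add_right ?_ _
        have := mul_le_mul_of_nonneg_left (hcκ R ξ) (inv_nonneg.2 hK0.le)
        rw [Finset.mul_sum] at this
        refine le_of_eq_of_le (Finset.sum_congr rfl fun k _ => ?_) this
        ring
      · rw [Ex_add, Ex_const hp1]; push_cast; linarith
  have hEr : ∀ m ≤ K, Ex p m (fun R => ‖r R ξ - ξ‖) ≤ √(κ / T) * ‖ξ‖ := by
    intro m hm
    have h1 : ∀ R, ‖r R ξ - ξ‖ ^ 2 ≤ T⁻¹ * reIn ξ ξ (S R) := by
      intro R
      have e : ‖r R ξ - ξ‖ = ‖(T⁻¹ • S R) ξ‖ := by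
        simp only [hr, rV, ContinuousLinearMap.sub_apply, ContinuousLinearMap.one_apply]
        rw [sub_sub_cancel_left, norm_neg]
      rw [e, ← smul_eq_mul, ← map_smul]
      refine sq_le_of_pos_contr (by rw [star_smul, SV_star, star_trivial]) (fun θ => ?_)
        (fun θ => ?_) ξ
      · rw [map_smul]; exact mul_nonneg (inv_nonneg.2 hT.le) (hSb R θ).1
      · rw [map_smul, smul_eq_mul, inv_mul_le_iff₀ hT]; exact (hSb R θ).2
    refine (Ex_le_sqrt hp hp1 (B := κ / T * ‖ξ‖ ^ 2) ?_).trans ?_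
    · refine (Ex_mono hp fun R _ => h1 R).trans ?_
      rw [Ex_mul_left]
      have h2 : (m : ℝ) * ((K : ℝ)⁻¹ * (κ * ‖ξ‖ ^ 2)) ≤ κ * ‖ξ‖ ^ 2 := by
        rw [← mul_assoc]
        refine mul_le_of_le_one_left (by positivity) ?_
        rw [mul_inv_le_iff₀ hK0, one_mul]; exact_mod_cast hm
      calc _ ≤ T⁻¹ * (κ * ‖ξ‖ ^ 2) :=
            mul_le_mul_of_nonneg_left ((hES m).trans h2) (inv_nonneg.2 hT.le)
        _ = _ := by ring
    · rw [Real.sqrt_mul (by positivity), Real.sqrt_sq (norm_nonneg _)]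
  set G : List I → I → List I → H := fun L k R => star (c k R) (V (wp g L) (z k)) with hG
  set η : List I → H := fun w => ((K : ℝ)⁻¹) • ∑ i ∈ Finset.range K, atPos G i w with hη
  set Λ := ∑ i, (p i : ℂ) * ⟪z i, a i (v i ξ)⟫_ℂ with hΛ
  have hGi : ∀ L k R ζ, ⟪G L k R, ζ⟫_ℂ = ⟪z k, star (V (wp g L)) (c k R ζ)⟫_ℂ := by
    intro L k R ζ
    simp only [hG, inner_star_left, inner_star_right]
  have hηi : ∀ w ζ, ⟪η w, ζ⟫_ℂ = ((K : ℝ)⁻¹) • ∑ i ∈ Finset.range K, ⟪atPos G i w, ζ⟫_ℂ := by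
    intro w ζ
    simp only [hη]
    rw [← Complex.coe_smul, inner_smul_left, sum_inner, Complex.conj_ofReal, Complex.real_smul]
  have hηE : ∀ y : List I → H, Ex p K (fun w => ⟪η w, y w⟫_ℂ) =
      ((K : ℝ)⁻¹) • ∑ i ∈ Finset.range K, Ex p K (fun w => ⟪atPos G i w, y w⟫_ℂ) := by
    intro y
    rw [← Ex_sum, ← Ex_smul]
    exact Ex_congr p fun w _ => hηi w _
  have cmm : ∀ {x y : H →L[ℂ] H}, x ∈ N → y ∈ N.commutant → ∀ θ, x (y θ) = y (x θ) :=
    fun hx hy θ => congrArg (fun T : H →L[ℂ] H => T θ) (comm_of_mem hx hy)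
  -- (0)
  have h0 : Ex p K (fun w => ⟪η w, wp g w ξ⟫_ℂ) = 0 := by
    rw [hηE, Finset.sum_eq_zero, smul_zero]
    intro i hi
    rw [Finset.mem_range] at hi
    apply norm_le_zero_iff.1
    refine (norm_Ex_pos_le hp hp1 hi (B := fun _ => 0) fun L R hL' _ => ?_).trans
      (Ex_const hp1 _ _).le
    simp only [atPos_append G L _ R hL', hGi, real_smul_inner_sum, wp_append, wp_cons]
    have := hV.inner_zero (star (V (wp g L)) * q R * r R * wp g L) (wp g R ξ)
    simp only [ContinuousLinearMap.mul_apply, inner_star_left] at this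
    simp only [hc, cV, ContinuousLinearMap.mul_apply, cmm (star_mem (hV1 _).1) (ha _)]
    rw [this]; simp
  -- (1)
  have h1 : ∀ w : List I, w.length = K → ∀ θ, ‖⟪η w, θ⟫_ℂ‖ ≤
      √(∑ j ∈ Finset.range K, (K : ℝ)⁻¹ * atPos (fun _ k _ => ‖z k‖) j w ^ 2) * (√T * ‖θ‖) := by
    intro w hw θ
    rw [hηi, Finset.smul_sum]
    refine (norm_sum_le _ _).trans (le_trans (Finset.sum_le_sum (g := fun j => (K : ℝ)⁻¹ *
      (atPos (fun _ k _ => ‖z k‖) j w * atPos (fun _ k R => ‖c k R θ‖) j w)) fun j hj => ?_) ?_)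
    · obtain ⟨L, k, R, rfl, hL', -⟩ := exists_split w (hw ▸ Finset.mem_range.1 hj)
      simp only [atPos_append _ L k R hL', hGi]
      rw [norm_smul, Real.norm_of_nonneg (by positivity)]
      refine mul_le_mul_of_nonneg_left ((norm_inner_le_norm _ _).trans ?_) (by positivity)
      exact mul_le_mul_of_nonneg_left (contr_apply (by rw [norm_star]; exact (hV1 _).2) _)
        (norm_nonneg _)
    · refine wcs _ (fun _ => by positivity) (Real.sqrt_nonneg _) (by positivity) ?_ ?_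
      · rw [Real.sq_sqrt (Finset.sum_nonneg fun _ _ => by positivity)]
      · rw [mul_pow, Real.sq_sqrt hT.le]
        refine le_of_eq_of_le ?_ (hSb w θ).2
        rw [hS, ← sum_cV_sq, hw]
        refine Finset.sum_congr rfl fun j hj => ?_
        obtain ⟨L, k, R, rfl, hL', -⟩ := exists_split w (hw ▸ Finset.mem_range.1 hj)
        simp only [atPos_append _ L k R hL', hc]
  have h2 : Ex p K (fun w => √(∑ j ∈ Finset.range K,
      (K : ℝ)⁻¹ * atPos (fun _ k _ => ‖z k‖) j w ^ 2)) ≤ F := by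
    refine (Ex_le_sqrt hp hp1 (B := F ^ 2) ?_).trans (Real.sqrt_sq hF).le
    rw [Ex_congr p (g := fun w => ∑ j ∈ Finset.range K,
      (K : ℝ)⁻¹ * atPos (fun _ k _ => ‖z k‖) j w ^ 2) fun w _ =>
        Real.sq_sqrt (Finset.sum_nonneg fun _ _ => by positivity), Ex_sum]
    refine (Finset.sum_le_sum (g := fun _ => (K : ℝ)⁻¹ * F ^ 2) fun j hj => ?_).trans ?_
    · rw [Ex_mul_left]
      refine mul_le_mul_of_nonneg_left ?_ (by positivity)
      refine (le_abs_self _).trans ((Real.norm_eq_abs _).symm.le.trans ?_)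
      refine (norm_Ex_pos_le hp hp1 (Finset.mem_range.1 hj) (B := fun _ => F ^ 2)
        fun L R hL' _ => ?_).trans (Ex_const hp1 _ _).le
      simp only [atPos_append _ L _ R hL', smul_eq_mul]
      rw [Real.norm_of_nonneg (Finset.sum_nonneg fun k _ => mul_nonneg (hp k) (sq_nonneg _))]
      exact hz
    · rw [Finset.sum_const, Finset.card_range, nsmul_eq_mul, ← mul_assoc,
        mul_inv_cancel₀ hK0.ne', one_mul]
  have h3 : ‖Ex p K (fun w => ⟪η w, V (wp g w) ξ⟫_ℂ)‖ ≤ F * (δ * √T * ‖ξ‖) := by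
    have : Ex p K (fun w => ⟪η w, V (wp g w) ξ⟫_ℂ) =
        - Ex p K (fun w => ⟪η w, (wp g w - V (wp g w)) ξ⟫_ℂ) := by
      simp only [ContinuousLinearMap.sub_apply, inner_sub_right]
      rw [Ex_sub, h0]; ring
    rw [this, norm_neg]
    refine (norm_Ex_le hp (g := fun w => (δ * √T * ‖ξ‖) * √(∑ j ∈ Finset.range K,
      (K : ℝ)⁻¹ * atPos (fun _ k _ => ‖z k‖) j w ^ 2)) fun w hw => ?_).trans ?_
    · refine (h1 w hw _).trans ?_
      have := ((wp g w - V (wp g w)).le_opNorm ξ).trans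
        (mul_le_mul_of_nonneg_right (vd w) (norm_nonneg _))
      rw [mul_comm]
      refine mul_le_mul_of_nonneg_right ?_ (Real.sqrt_nonneg _)
      have := mul_le_mul_of_nonneg_left this (Real.sqrt_nonneg T)
      linarith
    · rw [Ex_mul_left, mul_comm]
      exact mul_le_mul_of_nonneg_right h2 (by positivity)
  -- (2)
  have h4 : ∀ i < K, ‖Ex p K (fun w => ⟪atPos G i w, V (wp g w) ξ⟫_ℂ) - Λ‖ ≤
      F * (√κ * (6 * δ * ‖ξ‖ + √(κ / T) * ‖ξ‖ + √K * ε)) := by
    intro i hi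
    rw [← Ex_const hp1 K Λ, ← Ex_sub]
    refine (norm_Ex_pos_le hp hp1 hi
      (B := fun R => (F * √κ) * (6 * δ * ‖ξ‖ + ‖r R ξ - ξ‖ + ‖wp g R (wp g' R ξ) - ξ‖))
        fun L R hL' _ => ?_).trans ?_
    · simp only [atPos_append G L _ R hL', smul_sub, Finset.sum_sub_distrib, ← Finset.sum_smul,
        hp1, one_smul, hGi, real_smul_inner_sum]
      set d : I → H →L[ℂ] H := fun k =>
        star (V (wp g L)) * V (wp g (L ++ k :: R)) - v k * V (wp g R) with hd
      set θ : H := V (wp g R) (q R (r R ξ)) - ξ with hθ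
      have hd2 : ∀ k, ‖d k‖ ≤ 4 * δ := by
        intro k
        have e : star (wp g L) * wp g (L ++ k :: R) = g k * wp g R := by
          simp only [wp_append, wp_cons]
          rw [← mul_assoc, Unitary.star_mul_self_of_mem (gU L), one_mul]
        have s1 : ∀ l, ‖star (V (wp g l)) - star (wp g l)‖ ≤ δ := fun l => by
          rw [← star_sub, norm_star, norm_sub_rev]; exact vd l
        have k1 : ‖star (V (wp g L)) * V (wp g (L ++ k :: R)) -
            star (wp g L) * wp g (L ++ k :: R)‖ ≤ δ + δ :=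
          norm_mul_sub_mul_le (by rw [norm_star]; exact (hV1 _).2) (unit_norm_le (gU _)) (s1 L)
            (by rw [norm_sub_rev]; exact vd _)
        have k2 : ‖g k * wp g R - v k * V (wp g R)‖ ≤ δ + δ :=
          norm_mul_sub_mul_le (unit_norm_le (hL.g_unit k)) (hV1 _).2 (hv k).2.2 (vd R)
        rw [e] at k1
        have := norm_sub_le_norm_sub_add_norm_sub (star (V (wp g L)) * V (wp g (L ++ k :: R)))
          (g k * wp g R) (v k * V (wp g R))
        simp only [hd]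
        linarith
      have hθn : ‖θ‖ ≤ 2 * δ * ‖ξ‖ + ‖r R ξ - ξ‖ + ‖wp g R (wp g' R ξ) - ξ‖ := by
        have e : θ = (V (wp g R) * q R) (r R ξ - ξ) +
            (V (wp g R) * q R - wp g R * wp g' R) ξ + (wp g R (wp g' R ξ) - ξ) := by
          simp only [hθ, ContinuousLinearMap.sub_apply, map_sub, ContinuousLinearMap.mul_apply]
          abel
        rw [e]
        refine (norm_add_le _ _).trans (add_le_add_left ((norm_add_le _ _).trans ?_) _)
        have k1 := contr_apply (norm_mul_le_one' (hV1 (wp g R)).2 (hq2 R)) (r R ξ - ξ)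
        have k2 : ‖V (wp g R) * q R - wp g R * wp g' R‖ ≤ δ + δ :=
          norm_mul_sub_mul_le (hV1 _).2 (unit_norm_le (gU' R))
            (by rw [norm_sub_rev]; exact vd _) (by rw [norm_sub_rev]; exact vd' _)
        have k3 := ((V (wp g R) * q R - wp g R * wp g' R).le_opNorm ξ).trans
          (mul_le_mul_of_nonneg_right k2 (norm_nonneg _))
        linarith
      have e : ∑ k, (p k : ℂ) * ⟪z k, star (V (wp g L)) (c k R (V (wp g (L ++ k :: R)) ξ))⟫_ℂ - Λ =
          ∑ k, (p k : ℂ) * ⟪z k, d k (c k R ξ)⟫_ℂ + ∑ k, (p k : ℂ) * ⟪z k, v k (a k θ)⟫_ℂ := by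
        simp only [hΛ, ← Finset.sum_sub_distrib, ← Finset.sum_add_distrib]
        refine Finset.sum_congr rfl fun k _ => ?_
        rw [← cmm (hV1 _).1 (hcN k R), ← cmm (hv k).1 (ha k)]
        simp only [hd, hθ, ContinuousLinearMap.mul_apply, ContinuousLinearMap.sub_apply, map_sub,
          inner_sub_right, hc, cV, ← cmm (hV1 (wp g R)).1 (ha k)]
        ring
      rw [e]
      refine (norm_add_le _ _).trans ?_
      have nb : ∀ (y : I → H) (B : I → ℝ), (∀ k, ‖y k‖ ≤ B k) →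
          ‖∑ k, (p k : ℂ) * ⟪z k, y k⟫_ℂ‖ ≤ ∑ k, p k * (‖z k‖ * B k) := by
        intro y B hy
        refine (norm_sum_le _ _).trans (Finset.sum_le_sum fun k _ => ?_)
        rw [norm_mul, Complex.norm_real, Real.norm_of_nonneg (hp k)]
        exact mul_le_mul_of_nonneg_left ((norm_inner_le_norm _ _).trans
          (mul_le_mul_of_nonneg_left (hy k) (norm_nonneg _))) (hp k)
      have k1 := nb (fun k => d k (c k R ξ)) (fun k => 4 * δ * ‖c k R ξ‖) fun k =>
        ((d k).le_opNorm _).trans (mul_le_mul_of_nonneg_right (hd2 k) (norm_nonneg _))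
      have k2 := nb (fun k => v k (a k θ)) (fun k => ‖a k θ‖) fun k => contr_apply (hv k).2.1 _
      have k3 : ∑ k, p k * (‖z k‖ * ‖c k R ξ‖) ≤ F * (√κ * ‖ξ‖) :=
        wcs _ hp hF (by positivity) hz (hsq ξ ▸ hcκ R ξ)
      have k4 : ∑ k, p k * (‖z k‖ * ‖a k θ‖) ≤ F * (√κ * ‖θ‖) :=
        wcs _ hp hF (by positivity) hz (hsq θ ▸ haκ θ)
      have k5 : ∑ k, p k * (‖z k‖ * (4 * δ * ‖c k R ξ‖)) =
          4 * δ * ∑ k, p k * (‖z k‖ * ‖c k R ξ‖) := by
        rw [Finset.mul_sum]; exact Finset.sum_congr rfl fun k _ => by ring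
      have k6 := mul_le_mul_of_nonneg_left k3 (by positivity : 0 ≤ 4 * δ)
      have k7 := mul_le_mul_of_nonneg_left hθn (by positivity : 0 ≤ F * √κ)
      nlinarith
    · rw [Ex_mul_left, Ex_add, Ex_add, Ex_const hp1, mul_assoc]
      refine mul_le_mul_of_nonneg_left (mul_le_mul_of_nonneg_left (add_le_add
        (add_le_add_right (hEr _ (by omega)) _) ?_) (Real.sqrt_nonneg _)) hF
      refine (Ex_le_sqrt hp hp1 (hL.drift _)).trans ?_
      rw [Real.sqrt_mul (Nat.cast_nonneg _), Real.sqrt_sq hε]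
      refine mul_le_mul_of_nonneg_right (Real.sqrt_le_sqrt ?_) hε
      exact_mod_cast (by omega : K - 1 - i ≤ K)
  have h5 : ‖Ex p K (fun w => ⟪η w, V (wp g w) ξ⟫_ℂ) - Λ‖ ≤
      F * (√κ * (6 * δ * ‖ξ‖ + √(κ / T) * ‖ξ‖ + √K * ε)) := by
    have e : Ex p K (fun w => ⟪η w, V (wp g w) ξ⟫_ℂ) - Λ = ((K : ℝ)⁻¹) •
        ∑ i ∈ Finset.range K, (Ex p K (fun w => ⟪atPos G i w, V (wp g w) ξ⟫_ℂ) - Λ) := by
      rw [hηE, Finset.sum_sub_distrib, smul_sub]
      congr 1
      rw [Finset.sum_const, Finset.card_range, ← Nat.cast_smul_eq_nsmul ℝ, smul_smul,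
        inv_mul_cancel₀ hK0.ne', one_smul]
    rw [e, norm_smul, Real.norm_of_nonneg (by positivity), inv_mul_le_iff₀ hK0]
    refine (norm_sum_le _ _).trans ((Finset.sum_le_sum fun i hi =>
      h4 i (Finset.mem_range.1 hi)).trans ?_)
    simp
  have := norm_sub_norm_le Λ (Ex p K (fun w => ⟪η w, V (wp g w) ξ⟫_ℂ))
  rw [norm_sub_rev] at h5
  linarith

end Crest.Agent.H1KK
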