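import Crest.Agent.H1KK.Defs2

/-! Modular data without the band field: all that `Emb2` needs. -/

set_option autoImplicit false

namespace Crest.Agent.H1KK

open scoped InnerProductSpace
open Crest.OpAlg

universe u
variable {H : Type u} [NormedAddCommGroup H] [InnerProductSpace ℂ H] [CompleteSpace H]

/-- modular data of an arbitrary vector (`q` = projection on the closure of `M' ξ`); this is `MD`
without the field `band` -/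
structure MD0 (M : VonNeumannAlgebra H) (ξ : H) where
  D : LineCalculus H
  q : H →L[ℂ] H
  σ : ℝ → (H →L[ℂ] H) →ₗ[ℂ] (H →L[ℂ] H)
  ρ : ℝ → (H →L[ℂ] H) → (H →L[ℂ] H)
  q_mem : q ∈ M
  q_proj : IsStarProjection q
  q_fix : ∀ z ∈ M.commutant, q (z ξ) = z ξ
  σ_mem : ∀ t, ∀ x ∈ M, σ t x ∈ M
  σ_norm : ∀ t, ∀ x ∈ M, ‖σ t x‖ ≤ ‖x‖
  σ_star : ∀ t, ∀ x ∈ M, σ t (star x) = star (σ t x)
  σ_cont : ∀ x ∈ M, ∀ v, Continuous fun t => σ t x v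
  σ_vac : ∀ t, ∀ x ∈ M, σ t x ξ = D.wave t (q (x ξ))
  ρ_mem : ∀ t, ∀ x ∈ M, ρ t x ∈ M.commutant
  ρ_norm : ∀ t, ∀ x ∈ M, ‖ρ t x‖ ≤ ‖x‖
  ρ_star : ∀ t, ∀ x ∈ M, ρ t (star x) = star (ρ t x)
  ρ_cont : ∀ x ∈ M, ∀ v, Continuous fun t => ρ t x v
  ρ_vac : ∀ t, ∀ x ∈ M, ρ t x ξ = D.wave t (ρ 0 x ξ)
  half : ∀ x ∈ M, star x = x → D.HalfExp (q (x ξ)) (ρ 0 x ξ)

/-- Tomita–Takesaki for an arbitrary vector. -/
def HasMD0 (H : Type u) [NormedAddCommGroup H] [InnerProductSpace ℂ H] [CompleteSpace H] : Prop :=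
  ∀ (M : VonNeumannAlgebra H) (ξ : H), Nonempty (MD0 M ξ)

/- Targets: `hasMD0 : HasMD0 H` (helper1, on top of `H3.KK.TT`),
`emb2_of : ∃ m₀ κ₀ : ℝ, 0 < m₀ ∧ 0 ≤ κ₀ ∧ ∀ H [..], HasMD0 H → Emb2 H m₀ κ₀` (lead, files `E*.lean`). -/

end Crest.Agent.H1KK
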