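import Crest.Agent.H1KK.Defs3

/-! Two independent pieces of `Emb2`. -/

set_option autoImplicit false

namespace Crest.Agent.H1KK

open scoped InnerProductSpace

universe u
variable {H : Type u} [NormedAddCommGroup H] [InnerProductSpace ℂ H] [CompleteSpace H]

/-- a family of isometries with orthogonal ranges -/
def OI {ι : Type} [DecidableEq ι] (u : ι → H →L[ℂ] H) : Prop :=
  ∀ a b, star (u a) * u b = if a = b then 1 else 0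

/-- E1: `g = h + i√(1-h²)`, `g' = h' - i√(1-h'²)`; `(s+s')(s-s') = -(h+h')(h-h')`, `s, s' ≥ 1/2`. -/
def Unit2 (H : Type u) [NormedAddCommGroup H] [InnerProductSpace ℂ H] [CompleteSpace H] : Prop :=
  ∀ (M : VonNeumannAlgebra H), ∀ h ∈ M, ∀ h' ∈ M.commutant, star h = h → star h' = h' →
    ‖h‖ ≤ 1 / 2 → ‖h'‖ ≤ 1 / 2 →
    ∃ g ∈ M, ∃ g' ∈ M.commutant, g ∈ unitary (H →L[ℂ] H) ∧ g' ∈ unitary (H →L[ℂ] H) ∧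
      g + star g = (2 : ℂ) • h ∧ ∀ ξ : H, ‖g (g' ξ) - ξ‖ ≤ 2 * ‖h ξ - h' ξ‖ ∧
        ‖star g (star g' ξ) - ξ‖ ≤ 2 * ‖h ξ - h' ξ‖

/-- E2: signs and multiplicities.  `d a = ⌈exp (a η)⌉₊`, `Z = ∑ d a exp (-a η) ∈ [n, 2n]`,
`ξ₁ = ∑_{a, i < d a} √(w a) t (pair a i) t' (pair a i) ξ`, `E = Π a, Fin (d a) × Bool`,
`u e a = ± t (pair a (e a).1)`, `u' e a = ± t' (pair a (e a).1)` (same sign),
`Y e = ∑ (n w a)^(-1/2) (u' e a)*`. -/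
def Wrap (H : Type u) [NormedAddCommGroup H] [InnerProductSpace ℂ H] [CompleteSpace H] : Prop :=
  ∀ (M N : VonNeumannAlgebra H) (δ : ℝ) (t t' : ℕ → H →L[ℂ] H), Setting M N δ t t' →
  ∀ ξ : H, ‖ξ‖ = 1 → ∀ (n : ℕ) (η : ℝ), 1 ≤ n → 0 ≤ η →
    ∃ (E : Type) (_ : Fintype E) (_ : Nonempty E) (ξ₁ : H) (Z : ℝ) (u u' : E → Fin n → H →L[ℂ] H)
      (Y : E → H →L[ℂ] H), ‖ξ₁‖ ≤ 1 ∧ 0 < Z ∧ ∑ a : Fin n, Real.exp (-(a * η)) / Z ≤ 1 ∧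
      (∀ e, OI (u e) ∧ OI (u' e)) ∧
      (∀ e a, u e a ∈ M ∧ u e a ∈ N ∧ u' e a ∈ M.commutant ∧
        star (u e a) ξ₁ = ((√(Real.exp (-(a * η)) / Z) : ℝ) : ℂ) • u' e a ξ ∧
        star (u' e a) ξ₁ = ((√(Real.exp (-(a * η)) / Z) : ℝ) : ℂ) • u e a ξ) ∧
      (∀ e, Y e ∈ M.commutant ∧ Y e ∈ N.commutant ∧
        Y e ξ₁ = (((√n)⁻¹ : ℝ) : ℂ) • ∑ a, u e a ξ ∧ ‖Y e‖ ^ 2 ≤ 2 * n * Real.exp (n * η)) ∧
      ∀ ζ, ∑ e, ‖Y e ζ‖ ^ 2 ≤ Fintype.card E * 2 * ‖ζ‖ ^ 2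

/- Targets: `unit2 : Unit2 H` (file `EUnit.lean`), `wrap : Wrap H` (file `EWrap.lean`). -/

end Crest.Agent.H1KK
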