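import Mathlib

/-! Scalar estimates for the Gaussian battery kernel. -/

set_option autoImplicit false

namespace Crest.Agent.H1KK.Emb

open Finset Real MeasureTheory

/-- the Gaussian kernel -/
noncomputable def FF (r u : ℝ) : ℝ := r * exp (-(r * u) ^ 2 / 2)

/-- the majorant -/
noncomputable def hh (x : ℝ) : ℝ := 1 / (1 + |x|) ^ 2

lemma hh_nonneg (x : ℝ) : 0 ≤ hh x := by unfold hh; positivity

lemma hh_neg (x : ℝ) : hh (-x) = hh x := by simp [hh]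

lemma hh_le_one (x : ℝ) : hh x ≤ 1 := by
  unfold hh
  rw [div_le_one (by positivity)]
  nlinarith [abs_nonneg x]

lemma hh_tel (x ρ : ℝ) (h0 : 0 ≤ ρ) (h1 : ρ ≤ 1) :
    ρ * hh x ≤ 2 * ((x + ρ) / (1 + |x + ρ|) - x / (1 + |x|)) := by
  unfold hh
  rcases le_total 0 x with hx | hx
  · rw [abs_of_nonneg hx, abs_of_nonneg (by linarith : 0 ≤ x + ρ)]
    have e : 2 * ((x + ρ) / (1 + (x + ρ)) - x / (1 + x)) = ρ * (2 / ((1 + x) * (1 + x + ρ))) := by
      field_simp; ring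
    rw [e]
    refine mul_le_mul_of_nonneg_left ?_ h0
    rw [div_le_div_iff₀ (by positivity) (by positivity)]
    nlinarith
  · rcases le_total (x + ρ) 0 with hy | hy
    · rw [abs_of_nonpos hx, abs_of_nonpos hy]
      have p1 : 0 < 1 + -x := by linarith
      have p2 : 0 < 1 + -(x + ρ) := by linarith
      have e : 2 * ((x + ρ) / (1 + -(x + ρ)) - x / (1 + -x)) =
          ρ * (2 / ((1 + -x) * (1 + -(x + ρ)))) := by
        field_simp; ring
      rw [e]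
      refine mul_le_mul_of_nonneg_left ?_ h0
      rw [div_le_div_iff₀ (by positivity) (by positivity)]
      nlinarith
    · rw [abs_of_nonpos hx, abs_of_nonneg hy]
      have p1 : 0 < 1 + -x := by linarith
      have a1 : (x + ρ) / 2 ≤ (x + ρ) / (1 + (x + ρ)) :=
        div_le_div_of_nonneg_left hy (by linarith) (by linarith)
      have a2 : -x / 2 ≤ -x / (1 + -x) :=
        div_le_div_of_nonneg_left (by linarith) (by linarith) (by linarith)
      have a3 : 1 / (1 + -x) ^ 2 ≤ 1 := by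
        rw [div_le_one (by positivity)]; nlinarith
      have a4 : -x / (1 + -x) = -(x / (1 + -x)) := neg_div _ _
      nlinarith

lemma frac_le (x : ℝ) : |x / (1 + |x|)| ≤ 1 := by
  rw [abs_div, abs_of_pos (by positivity : 0 < 1 + |x|), div_le_one (by positivity)]
  linarith

lemma sum_hh (ρ y : ℝ) (h0 : 0 ≤ ρ) (h1 : ρ ≤ 1) (n : ℕ) :
    ∑ a ∈ range n, ρ * hh (y + a * ρ) ≤ 4 := by
  have key : ∀ n : ℕ, ∑ a ∈ range n, ρ * hh (y + a * ρ) ≤
      2 * ((y + n * ρ) / (1 + |y + n * ρ|) - y / (1 + |y|)) := by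
    intro n
    induction n with
    | zero => simp
    | succ n ih =>
      rw [sum_range_succ]
      have := hh_tel (y + n * ρ) ρ h0 h1
      have e : y + ((n + 1 : ℕ) : ℝ) * ρ = y + n * ρ + ρ := by push_cast; ring
      rw [e]; linarith
  have a := abs_le.1 (frac_le (y + n * ρ))
  have b := abs_le.1 (frac_le y)
  linarith [key n, a.2, b.1]

lemma sum_hh' (ρ y : ℝ) (h0 : 0 ≤ ρ) (h1 : ρ ≤ 1) (n : ℕ) :
    ∑ a ∈ range n, ρ * hh (y - a * ρ) ≤ 4 := by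
  refine le_trans (le_of_eq (sum_congr rfl fun a _ => ?_)) (sum_hh ρ (-y) h0 h1 n)
  rw [← hh_neg]; congr 2; ring

lemma one_add_le (x : ℝ) : 1 + |x| ≤ exp |x| := by linarith [add_one_le_exp |x|]

/-- the absolute constant -/
noncomputable def C0 : ℝ := 2 * exp (9 / 2)

lemma C0_pos : 0 < C0 := by unfold C0; positivity

lemma gauss_hh (x : ℝ) : (|x| + 2) * exp (-x ^ 2 / 2) ≤ C0 * hh x := by
  unfold hh C0
  rw [mul_one_div, le_div_iff₀ (by positivity)]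
  have h1 := one_add_le x
  have h0 := abs_nonneg x
  have h2 : (|x| + 2) * (1 + |x|) ^ 2 ≤ 2 * exp |x| ^ 3 := by
    calc (|x| + 2) * (1 + |x|) ^ 2 ≤ (2 * (1 + |x|)) * (1 + |x|) ^ 2 := by gcongr; linarith
      _ = 2 * (1 + |x|) ^ 3 := by ring
      _ ≤ _ := by gcongr
  have h3 : exp |x| ^ 3 * exp (-x ^ 2 / 2) ≤ exp (9 / 2) := by
    rw [← exp_nat_mul, ← exp_add, exp_le_exp]
    push_cast
    nlinarith [sq_nonneg (|x| - 3), sq_abs x]
  calc (|x| + 2) * exp (-x ^ 2 / 2) * (1 + |x|) ^ 2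
      = ((|x| + 2) * (1 + |x|) ^ 2) * exp (-x ^ 2 / 2) := by ring
    _ ≤ (2 * exp |x| ^ 3) * exp (-x ^ 2 / 2) := by gcongr
    _ = 2 * (exp |x| ^ 3 * exp (-x ^ 2 / 2)) := by ring
    _ ≤ _ := by gcongr

lemma FF_nonneg {r : ℝ} (hr : 0 ≤ r) (u : ℝ) : 0 ≤ FF r u := by unfold FF; positivity

lemma FF_neg (r u : ℝ) : FF r (-u) = FF r u := by simp [FF]

lemma FF_le_one {r : ℝ} (hr : 0 ≤ r) (h1 : r ≤ 1) (u : ℝ) : FF r u ≤ 1 := by
  unfold FF
  have : exp (-(r * u) ^ 2 / 2) ≤ 1 := by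
    rw [exp_le_one_iff]; nlinarith [sq_nonneg (r * u)]
  nlinarith [exp_pos (-(r * u) ^ 2 / 2)]

lemma FF_le {r : ℝ} (hr : 0 ≤ r) (u : ℝ) : FF r u ≤ C0 * (r * hh (r * u)) := by
  unfold FF
  have h := gauss_hh (r * u)
  have h2 : exp (-(r * u) ^ 2 / 2) ≤ (|r * u| + 2) * exp (-(r * u) ^ 2 / 2) :=
    le_mul_of_one_le_left (exp_pos _).le (by linarith [abs_nonneg (r * u)])
  calc _ ≤ r * (C0 * hh (r * u)) := by gcongr; linarith
    _ = _ := by ring

lemma sum_FF {r : ℝ} (hr : 0 ≤ r) (h1 : r ≤ 1) (v : ℝ) (n : ℕ) :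
    ∑ a ∈ range n, FF r (v - a) ≤ 4 * C0 := by
  calc _ ≤ ∑ a ∈ range n, C0 * (r * hh (r * v - a * r)) :=
        sum_le_sum fun a _ => (FF_le hr _).trans (le_of_eq (by congr 3; ring))
    _ = C0 * ∑ a ∈ range n, r * hh (r * v - a * r) := by rw [mul_sum]
    _ ≤ C0 * 4 := by gcongr; exacts [C0_pos.le, sum_hh' r _ hr h1 n]
    _ = _ := by ring

lemma abs_exp_sub (A B : ℝ) : |exp A - exp B| ≤ |A - B| * (exp A + exp B) := by
  wlog h : B ≤ A generalizing A B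
  · have := this B A (le_of_not_ge h)
    rwa [abs_sub_comm, abs_sub_comm B, add_comm] at this
  rw [abs_of_nonneg (by linarith [exp_le_exp.2 h]), abs_of_nonneg (by linarith)]
  have h1 := add_one_le_exp (B - A)
  have h2 : exp B = exp A * exp (B - A) := by rw [← exp_add]; congr 1; ring
  have h3 := exp_pos A
  have h4 := exp_pos B
  nlinarith

lemma FF_shift {r : ℝ} (hr : 0 ≤ r) (h1 : r ≤ 1) (u s : ℝ) (hs : 0 ≤ s) (hs1 : s ≤ 1) :
    |FF r (u + s) - FF r u| ≤ r * C0 * (r * hh (r * (u + s)) + r * hh (r * u)) := by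
  unfold FF
  rw [← mul_sub, abs_mul, abs_of_nonneg hr]
  set x := r * u
  have hx : r * (u + s) = x + r * s := by simp only [x]; ring
  rw [hx]
  set ρ := r * s
  have hρ0 : 0 ≤ ρ := by positivity
  have hρ : ρ ≤ r := by simp only [ρ]; nlinarith
  have h2 := abs_exp_sub (-(x + ρ) ^ 2 / 2) (-x ^ 2 / 2)
  have h3 : |-(x + ρ) ^ 2 / 2 - -x ^ 2 / 2| ≤ r * (|x| + 1) := by
    have : -(x + ρ) ^ 2 / 2 - -x ^ 2 / 2 = -(ρ * (x + ρ / 2)) := by ring
    rw [this, abs_neg, abs_mul, abs_of_nonneg hρ0]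
    have : |x + ρ / 2| ≤ |x| + 1 := (abs_add_le _ _).trans (by
      rw [abs_of_nonneg (by positivity : 0 ≤ ρ / 2)]; linarith)
    gcongr
  have h4 := gauss_hh x
  have h5 := gauss_hh (x + ρ)
  have h6 : |x| + 1 ≤ |x + ρ| + 2 := by
    have : |x| ≤ |x + ρ| + |ρ| := by
      calc |x| = |(x + ρ) - ρ| := by ring_nf
        _ ≤ _ := abs_sub _ _
    rw [abs_of_nonneg hρ0] at this
    linarith
  have e1 := exp_pos (-(x + ρ) ^ 2 / 2)
  have e2 := exp_pos (-x ^ 2 / 2)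
  have h7 : (|x| + 1) * exp (-(x + ρ) ^ 2 / 2) ≤ C0 * hh (x + ρ) :=
    le_trans (by gcongr) h5
  have h8 : (|x| + 1) * exp (-x ^ 2 / 2) ≤ C0 * hh x := le_trans (by gcongr; norm_num) h4
  calc r * |exp (-(x + ρ) ^ 2 / 2) - exp (-x ^ 2 / 2)|
      ≤ r * (r * (|x| + 1) * (exp (-(x + ρ) ^ 2 / 2) + exp (-x ^ 2 / 2))) := by
        gcongr
        exact h2.trans (by gcongr)
    _ = r * r * ((|x| + 1) * exp (-(x + ρ) ^ 2 / 2) + (|x| + 1) * exp (-x ^ 2 / 2)) := by ring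
    _ ≤ r * r * (C0 * hh (x + ρ) + C0 * hh x) := by gcongr
    _ = _ := by ring

/-- the averaged kernel -/
noncomputable def PP (r : ℝ) (n : ℕ) (v : ℝ) : ℝ :=
  (n : ℝ)⁻¹ * ∑ b ∈ range n, ∑ a ∈ range n, FF r (v + b - a)

lemma PP_nonneg {r : ℝ} (hr : 0 ≤ r) (n : ℕ) (v : ℝ) : 0 ≤ PP r n v :=
  mul_nonneg (by positivity) (sum_nonneg fun _ _ => sum_nonneg fun _ _ => FF_nonneg hr _)

lemma avg_le {n : ℕ} (hn : 1 ≤ n) (f : ℕ → ℝ) (c : ℝ) (h : ∀ b, f b ≤ c) :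
    (n : ℝ)⁻¹ * ∑ b ∈ range n, f b ≤ c := by
  have hn' : (0 : ℝ) < n := by exact_mod_cast hn
  calc _ ≤ (n : ℝ)⁻¹ * ∑ _b ∈ range n, c := by gcongr with b; exact h b
    _ = c := by simp only [sum_const, card_range, nsmul_eq_mul]; field_simp

lemma PP_le {r : ℝ} (hr : 0 ≤ r) (h1 : r ≤ 1) {n : ℕ} (hn : 1 ≤ n) (v : ℝ) :
    PP r n v ≤ 4 * C0 := avg_le hn _ _ fun _ => sum_FF hr h1 _ n

lemma PP_frac {r : ℝ} (hr : 0 ≤ r) (h1 : r ≤ 1) {n : ℕ} (hn : 1 ≤ n) (v s : ℝ) (hs : 0 ≤ s)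
    (hs1 : s ≤ 1) : |PP r n (v + s) - PP r n v| ≤ 8 * C0 * r := by
  unfold PP
  rw [← mul_sub, ← sum_sub_distrib, abs_mul, abs_of_nonneg (by positivity)]
  refine le_trans (by gcongr; exact abs_sum_le_sum_abs _ _) (avg_le hn _ _ fun b => ?_)
  rw [← sum_sub_distrib]
  refine (abs_sum_le_sum_abs _ _).trans ?_
  have hC := C0_pos
  calc _ ≤ ∑ a ∈ range n, r * C0 * (r * hh (r * (v + s + b) - a * r) +
          r * hh (r * (v + b) - a * r)) := by
        refine sum_le_sum fun a _ => ?_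
        have := FF_shift hr h1 (v + b - a) s hs hs1
        have e1 : v + s + b - a = v + b - a + s := by ring
        have e2 : r * (v + s + b) - a * r = r * (v + b - a + s) := by ring
        have e3 : r * (v + b) - a * r = r * (v + b - a) := by ring
        rw [e1, e2, e3]; exact this
    _ = r * C0 * (∑ a ∈ range n, r * hh (r * (v + s + b) - a * r) +
          ∑ a ∈ range n, r * hh (r * (v + b) - a * r)) := by rw [← mul_sum, sum_add_distrib]
    _ ≤ r * C0 * (4 + 4) := by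
        gcongr
        exacts [sum_hh' r _ hr h1 n, sum_hh' r _ hr h1 n]
    _ = _ := by ring

lemma PP_one {r : ℝ} (hr : 0 ≤ r) (h1 : r ≤ 1) (n : ℕ) (v : ℝ) :
    |PP r n (v + 1) - PP r n v| ≤ 4 * C0 / n := by
  unfold PP
  set ψ : ℕ → ℝ := fun b => ∑ a ∈ range n, FF r (v + b - a) with hψ
  have e : ∑ b ∈ range n, ∑ a ∈ range n, FF r (v + 1 + b - a) = ∑ b ∈ range n, ψ (b + 1) := by
    refine sum_congr rfl fun b _ => sum_congr rfl fun a _ => ?_
    congr 1; push_cast; ring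
  rw [e, ← mul_sub, ← sum_sub_distrib, sum_range_sub ψ, abs_mul, abs_of_nonneg (by positivity),
    mul_comm, div_eq_mul_inv]
  gcongr
  have a1 : ∀ b, 0 ≤ ψ b := fun b => sum_nonneg fun _ _ => FF_nonneg hr _
  have a2 : ∀ b, ψ b ≤ 4 * C0 := fun b => sum_FF hr h1 _ n
  rw [abs_le]; constructor <;> linarith [a1 n, a1 0, a2 n, a2 0]

lemma PP_int {r : ℝ} (hr : 0 ≤ r) (h1 : r ≤ 1) (n : ℕ) (v : ℝ) (k : ℕ) :
    |PP r n (v + k) - PP r n v| ≤ k * (4 * C0 / n) := by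
  induction k with
  | zero => simp
  | succ k ih =>
    have := PP_one hr h1 n (v + k)
    have e : v + ((k + 1 : ℕ) : ℝ) = v + k + 1 := by push_cast; ring
    rw [e]
    push_cast
    calc _ = |(PP r n (v + k + 1) - PP r n (v + k)) + (PP r n (v + k) - PP r n v)| := by ring_nf
      _ ≤ _ := abs_add_le _ _
      _ ≤ _ := by linarith

lemma PP_near {r : ℝ} (hr : 0 ≤ r) (h1 : r ≤ 1) {n : ℕ} (hn : 1 ≤ n) (v : ℝ) :
    |PP r n v - PP r n 0| ≤ 8 * C0 * r + (|v| + 1) * (4 * C0 / n) := by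
  have hC : 0 ≤ 4 * C0 / n := by have := C0_pos; positivity
  rcases le_total 0 v with hv | hv
  · have a := PP_int hr h1 n (v - ⌊v⌋₊) ⌊v⌋₊
    have b := PP_frac hr h1 hn 0 (v - ⌊v⌋₊) (by linarith [Nat.floor_le hv])
      (by linarith [Nat.lt_floor_add_one v])
    rw [sub_add_cancel] at a
    rw [zero_add] at b
    have c : (⌊v⌋₊ : ℝ) * (4 * C0 / n) ≤ (|v| + 1) * (4 * C0 / n) := by
      gcongr; linarith [Nat.floor_le hv, le_abs_self v]
    calc _ = |(PP r n v - PP r n (v - ⌊v⌋₊)) + (PP r n (v - ⌊v⌋₊) - PP r n 0)| := by ring_nf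
      _ ≤ _ := abs_add_le _ _
      _ ≤ _ := by linarith
  · have a := PP_int hr h1 n v ⌈-v⌉₊
    have b := PP_frac hr h1 hn 0 (v + ⌈-v⌉₊) (by linarith [Nat.le_ceil (-v)])
      (by linarith [Nat.ceil_lt_add_one (by linarith : 0 ≤ -v)])
    rw [zero_add] at b
    rw [abs_sub_comm] at a
    have c : (⌈-v⌉₊ : ℝ) * (4 * C0 / n) ≤ (|v| + 1) * (4 * C0 / n) := by
      gcongr; linarith [Nat.ceil_lt_add_one (by linarith : 0 ≤ -v), neg_le_abs v]
    calc _ = |(PP r n v - PP r n (v + ⌈-v⌉₊)) + (PP r n (v + ⌈-v⌉₊) - PP r n 0)| := by ring_nf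
      _ ≤ _ := abs_add_le _ _
      _ ≤ _ := by linarith

lemma PP_zero_ge {σ n : ℕ} (hσ : 1 ≤ σ) (hn : 2 * σ ≤ n) :
    exp (-1 / 2) / 2 ≤ PP (σ : ℝ)⁻¹ n 0 := by
  have hσ' : (0 : ℝ) < σ := by exact_mod_cast hσ
  have hn' : (0 : ℝ) < n := by exact_mod_cast (by omega : 0 < n)
  have hr : 0 ≤ (σ : ℝ)⁻¹ := by positivity
  have h1 : ∀ b ∈ range (n - σ), exp (-1 / 2) ≤ ∑ a ∈ range n, FF (σ : ℝ)⁻¹ (0 + b - a) := by
    intro b hb
    rw [mem_range] at hb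
    calc exp (-1 / 2) = ∑ _a ∈ Ico b (b + σ), (σ : ℝ)⁻¹ * exp (-1 / 2) := by
          simp only [sum_const, Nat.card_Ico, add_tsub_cancel_left, nsmul_eq_mul]; field_simp
      _ ≤ ∑ a ∈ Ico b (b + σ), FF (σ : ℝ)⁻¹ (0 + b - a) := by
          refine sum_le_sum fun a ha => ?_
          rw [mem_Ico] at ha
          unfold FF
          gcongr
          have a1 : (b : ℝ) ≤ a := by exact_mod_cast ha.1
          have a2 : (a : ℝ) ≤ b + σ := by exact_mod_cast ha.2.le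
          have a3 : |(σ : ℝ)⁻¹ * (0 + b - a)| ≤ 1 := by
            rw [abs_mul, abs_of_nonneg hr, inv_mul_le_iff₀ hσ', abs_le]
            constructor <;> linarith
          have := sq_le_one_iff_abs_le_one _ |>.2 a3
          linarith
      _ ≤ _ := by
          refine sum_le_sum_of_subset_of_nonneg (fun a ha => ?_) fun _ _ _ => FF_nonneg hr _
          rw [mem_Ico] at ha; rw [mem_range]; omega
  have h2 : ((n - σ : ℕ) : ℝ) * exp (-1 / 2) ≤
      ∑ b ∈ range n, ∑ a ∈ range n, FF (σ : ℝ)⁻¹ (0 + b - a) := by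
    calc _ = ∑ _b ∈ range (n - σ), exp (-1 / 2) := by simp
      _ ≤ ∑ b ∈ range (n - σ), ∑ a ∈ range n, FF (σ : ℝ)⁻¹ (0 + b - a) := sum_le_sum h1
      _ ≤ _ := sum_le_sum_of_subset_of_nonneg (range_subset_range.2 (Nat.sub_le _ _))
          fun _ _ _ => sum_nonneg fun _ _ => FF_nonneg hr _
  unfold PP
  rw [le_inv_mul_iff₀ hn']
  refine le_trans ?_ h2
  rw [Nat.cast_sub (by omega)]
  have : (2 : ℝ) * σ ≤ n := by exact_mod_cast hn
  nlinarith [exp_pos (-1 / 2 : ℝ)]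

lemma abs_one_sub_exp (y : ℝ) : |1 - exp y| ≤ |y| * exp |y| := by
  rcases le_total 0 y with hy | hy
  · rw [abs_of_nonneg hy, abs_of_nonpos (by linarith [one_le_exp hy])]
    have h1 := add_one_le_exp (-y)
    have h2 : exp y * exp (-y) = 1 := by rw [← exp_add]; simp
    nlinarith [exp_pos y]
  · rw [abs_of_nonpos hy, abs_of_nonneg (by linarith [exp_le_one_iff.2 hy])]
    have h1 := add_one_le_exp y
    have h2 := one_le_exp (by linarith : 0 ≤ -y)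
    nlinarith

lemma defect_sq {r η : ℝ} (hr : 0 < r) (h1 : r ≤ 1) (hη : 0 ≤ η) (hη1 : η ≤ 1) (u : ℝ) :
    (FF r u * (1 - exp (η * u / 2))) ^ 2 ≤ exp (25 / (4 * r ^ 2)) * η ^ 2 * hh u := by
  unfold hh
  rw [mul_one_div, le_div_iff₀ (by positivity)]
  have h0 := abs_nonneg u
  have a1 : FF r u ^ 2 ≤ exp (-(r * u) ^ 2) := by
    unfold FF
    rw [mul_pow, ← exp_nat_mul]
    have : r ^ 2 ≤ 1 := by nlinarith
    calc _ ≤ 1 * exp (((2 : ℕ) : ℝ) * (-(r * u) ^ 2 / 2)) := by gcongr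
      _ = _ := by rw [one_mul]; congr 1; push_cast; ring
  have a2 : |1 - exp (η * u / 2)| ≤ η * (1 + |u|) * exp (|u| / 2) := by
    refine (abs_one_sub_exp _).trans ?_
    have : |η * u / 2| = η * |u| / 2 := by rw [abs_div, abs_mul, abs_of_nonneg hη]; norm_num
    rw [this]
    gcongr
    · nlinarith
    · nlinarith
  have a3 : (1 - exp (η * u / 2)) ^ 2 ≤ η ^ 2 * (1 + |u|) ^ 2 * exp |u| := by
    rw [← sq_abs]
    calc _ ≤ (η * (1 + |u|) * exp (|u| / 2)) ^ 2 := by gcongr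
      _ = η ^ 2 * (1 + |u|) ^ 2 * (exp (|u| / 2) * exp (|u| / 2)) := by ring
      _ = _ := by rw [← exp_add]; congr 2; ring
  have a4 := one_add_le u
  have a5 : exp (-(r * u) ^ 2) * exp |u| ^ 5 ≤ exp (25 / (4 * r ^ 2)) := by
    rw [← exp_nat_mul, ← exp_add, exp_le_exp, le_div_iff₀ (by positivity)]
    push_cast
    have : (r * u) ^ 2 = r ^ 2 * |u| ^ 2 := by rw [mul_pow, sq_abs]
    rw [this]
    nlinarith [sq_nonneg (2 * r ^ 2 * |u| - 5)]
  calc (FF r u * (1 - exp (η * u / 2))) ^ 2 * (1 + |u|) ^ 2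
      = FF r u ^ 2 * (1 - exp (η * u / 2)) ^ 2 * (1 + |u|) ^ 2 := by ring
    _ ≤ exp (-(r * u) ^ 2) * (η ^ 2 * (1 + |u|) ^ 2 * exp |u|) * (1 + |u|) ^ 2 := by gcongr
    _ ≤ exp (-(r * u) ^ 2) * (η ^ 2 * exp |u| ^ 2 * exp |u|) * exp |u| ^ 2 := by gcongr
    _ = (exp (-(r * u) ^ 2) * exp |u| ^ 5) * η ^ 2 := by ring
    _ ≤ _ := by gcongr

lemma sum_defect {r η : ℝ} (hr : 0 < r) (h1 : r ≤ 1) (hη : 0 ≤ η) (hη1 : η ≤ 1) (v : ℝ) (n : ℕ) :
    ∑ a ∈ range n, (FF r (v - a) * (1 - exp (η * (v - a) / 2))) ^ 2 ≤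
      4 * exp (25 / (4 * r ^ 2)) * η ^ 2 := by
  calc _ ≤ ∑ a ∈ range n, exp (25 / (4 * r ^ 2)) * η ^ 2 * (1 * hh (v - a * 1)) :=
        sum_le_sum fun a _ => (defect_sq hr h1 hη hη1 _).trans (le_of_eq (by simp))
    _ = exp (25 / (4 * r ^ 2)) * η ^ 2 * ∑ a ∈ range n, 1 * hh (v - a * 1) := by rw [mul_sum]
    _ ≤ exp (25 / (4 * r ^ 2)) * η ^ 2 * 4 := by
        gcongr; exact sum_hh' 1 v zero_le_one le_rfl n
    _ = _ := by ring

lemma FF_exp_le {r η : ℝ} (hr : 0 < r) (h1 : r ≤ 1) (u : ℝ) :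
    FF r u * exp (η * u / 2) ≤ exp (η ^ 2 / (8 * r ^ 2)) := by
  unfold FF
  calc _ ≤ 1 * exp (-(r * u) ^ 2 / 2) * exp (η * u / 2) := by gcongr
    _ = exp (-(r * u) ^ 2 / 2 + η * u / 2) := by rw [one_mul, exp_add]
    _ ≤ _ := by
      rw [exp_le_exp, le_div_iff₀ (by positivity)]
      nlinarith [sq_nonneg (2 * r ^ 2 * u - η)]

/-- the Fourier transform of `FF` -/
noncomputable def kk (r t : ℝ) : ℝ := r / √(π / (1 / (2 * r ^ 2))) * exp (-(1 / (2 * r ^ 2)) * t ^ 2)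

lemma kk_nonneg {r : ℝ} (hr : 0 ≤ r) (t : ℝ) : 0 ≤ kk r t := by unfold kk; positivity

lemma kk_integrable {r : ℝ} (hr : 0 < r) : Integrable (kk r) :=
  (integrable_exp_neg_mul_sq (by positivity)).const_mul _

lemma kk_fourier {r : ℝ} (hr : 0 < r) (v : ℝ) :
    ∫ t : ℝ, (kk r t : ℂ) * Complex.exp (Complex.I * ((t * v : ℝ) : ℂ)) = (FF r v : ℂ) := by
  set b : ℝ := 1 / (2 * r ^ 2) with hb
  have hb0 : 0 < b := by positivity
  have h := integral_cexp_quadratic (b := -(b : ℂ)) (by simpa using hb0) (Complex.I * v) 0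
  have e1 : ∀ t : ℝ, (kk r t : ℂ) * Complex.exp (Complex.I * ((t * v : ℝ) : ℂ)) =
      ((r / √(π / b) : ℝ) : ℂ) * Complex.exp (-(b : ℂ) * t ^ 2 + Complex.I * v * t + 0) := by
    intro t
    unfold kk
    rw [← hb, Complex.ofReal_mul, mul_assoc, Complex.ofReal_exp, ← Complex.exp_add]
    congr 2; push_cast; ring
  simp only [e1]
  rw [integral_const_mul, h]
  have e2 : ((π : ℂ) / - -(b : ℂ)) ^ (1 / 2 : ℂ) = ((√(π / b) : ℝ) : ℂ) := by
    rw [neg_neg, sqrt_eq_rpow, Complex.ofReal_cpow (by positivity)]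
    push_cast; rfl
  have e3 : (0 : ℂ) - (Complex.I * v) ^ 2 / (4 * -(b : ℂ)) = ((-(r * v) ^ 2 / 2 : ℝ) : ℂ) := by
    have hr' : (r : ℂ) ≠ 0 := by exact_mod_cast hr.ne'
    rw [mul_pow, Complex.I_sq, hb]; push_cast; field_simp; ring
  rw [e2, e3, ← Complex.ofReal_exp, ← Complex.ofReal_mul, ← Complex.ofReal_mul]
  congr 1
  unfold FF
  have : 0 < √(π / b) := by positivity
  field_simp

end Crest.Agent.H1KK.Emb
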