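import Crest.Agent.H1KK.E1
import Crest.Agent.H1KK.Defs4
import Crest.Agent.H3Mod.Datum

/-! Gaussian smearing of operator flows and block Toeplitz operators. -/

set_option autoImplicit false

namespace Crest.Agent.H1KK.Emb

open Finset MeasureTheory Filter
open scoped InnerProductSpace
open Crest.Agent.H3Mod

universe u
variable {H : Type u} [NormedAddCommGroup H] [InnerProductSpace ℂ H] [CompleteSpace H]

/-- `exp (i x)` -/
noncomputable def ee (x : ℝ) : ℂ := Complex.exp (Complex.I * (x : ℂ))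

lemma norm_ee (x : ℝ) : ‖ee x‖ = 1 := by unfold ee; rw [Complex.norm_exp]; simp

lemma ee_add (x y : ℝ) : ee (x + y) = ee x * ee y := by
  unfold ee; rw [← Complex.exp_add]; congr 1; push_cast; ring

lemma conj_ee (x : ℝ) : (starRingEnd ℂ) (ee x) = ee (-x) := by
  unfold ee; rw [← Complex.exp_conj]; congr 1; simp

lemma continuous_ee : Continuous ee := by unfold ee; fun_prop

/-- the modulated weight -/
noncomputable def wk (r s t : ℝ) : ℂ := (kk r t : ℂ) * ee (t * (-s))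

lemma conj_wk (r s t : ℝ) : (starRingEnd ℂ) (wk r s t) = wk r (-s) t := by
  unfold wk; rw [map_mul, conj_ee, Complex.conj_ofReal]; congr 2; ring

lemma kkC_integrable {r : ℝ} (hr : 0 < r) : Integrable fun t => (kk r t : ℂ) :=
  (kk_integrable hr).ofReal

lemma wk_integrable {r : ℝ} (hr : 0 < r) (s : ℝ) : Integrable (wk r s) :=
  (kkC_integrable hr).mul_bdd (c := 1)
    (continuous_ee.comp (continuous_id.mul continuous_const)).aestronglyMeasurable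
    (Eventually.of_forall fun t => (norm_ee _).le)

lemma wk_fourier {r : ℝ} (hr : 0 < r) (s v : ℝ) :
    ∫ t, wk r s t * ee (t * v) = (FF r (v - s) : ℂ) := by
  rw [← kk_fourier hr]
  congr 1; ext t
  unfold wk
  rw [mul_assoc, ← ee_add]; unfold ee; congr 4; ring

/-- a bounded strongly continuous family -/
structure Fl (φ : ℝ → H →L[ℂ] H) (c : ℝ) : Prop where
  norm : ∀ t, ‖φ t‖ ≤ c
  cont : ∀ v, Continuous fun t => φ t v

omit [CompleteSpace H] in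
lemma Fl.nonneg {φ : ℝ → H →L[ℂ] H} {c : ℝ} (h : Fl φ c) : 0 ≤ c := (norm_nonneg _).trans (h.norm 0)

omit [CompleteSpace H] in
lemma Fl.apply_le {φ : ℝ → H →L[ℂ] H} {c : ℝ} (h : Fl φ c) (t : ℝ) (v : H) :
    ‖φ t v‖ ≤ c * ‖v‖ := ((φ t).le_opNorm v).trans (by gcongr; exact h.norm t)

omit [CompleteSpace H] in
lemma Fl.integrable {φ : ℝ → H →L[ℂ] H} {c : ℝ} (h : Fl φ c) {G : ℝ → ℂ} (hG : Integrable G)
    (v : H) : Integrable fun t => G t • φ t v :=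
  Integrable.smul_of_top_left hG (memLp_top_of_bound (h.cont v).aestronglyMeasurable (c * ‖v‖)
    (Eventually.of_forall fun t => h.apply_le t v))

/-- `X s` is the smearing of `φ` with the weight `wk r s` -/
def Sm (r : ℝ) (φ X : ℝ → H →L[ℂ] H) : Prop := ∀ s v, X s v = ∫ t, wk r s t • φ t v

lemma exists_sm {r : ℝ} (hr : 0 < r) (S : VonNeumannAlgebra H) {φ : ℝ → H →L[ℂ] H} {c : ℝ}
    (h : Fl φ c) (hS : ∀ t, φ t ∈ S) : ∃ X : ℝ → H →L[ℂ] H, (∀ s, X s ∈ S) ∧ Sm r φ X := by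
  have key : ∀ s, ∃ y ∈ S, ∀ v, y v = ∫ t, wk r s t • φ t v := by
    intro s
    have hG := wk_integrable hr s
    let L : H →ₗ[ℂ] H :=
      { toFun := fun v => ∫ t, wk r s t • φ t v
        map_add' := fun v w => by
          simp only [map_add, smul_add]
          exact integral_add (h.integrable hG v) (h.integrable hG w)
        map_smul' := fun z v => by
          simp only [map_smul, RingHom.id_apply]
          rw [← integral_smul]
          congr 1; ext t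
          rw [smul_comm] }
    have hL : ∀ v, ‖L v‖ ≤ ((∫ t, ‖wk r s t‖) * c) * ‖v‖ := by
      intro v
      refine (norm_integral_le_integral_norm _).trans ?_
      rw [mul_assoc, ← integral_mul_const]
      refine integral_mono (h.integrable hG v).norm (hG.norm.mul_const _) ?_
      intro t
      simp only [norm_smul]
      gcongr
      exact h.apply_le t v
    refine ⟨L.mkContinuous _ hL, ?_, fun v => rfl⟩
    refine mem_of_comm _ _ fun z hz => ?_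
    ext v
    change z (∫ t, wk r s t • φ t v) = ∫ t, wk r s t • φ t (z v)
    rw [← z.integral_comp_comm (h.integrable hG v)]
    congr 1; ext t
    rw [map_smul, H3Mod.comm_of_mem (hS t) hz]
  choose X hX hX' using key
  exact ⟨X, hX, hX'⟩

lemma Sm.inner {r : ℝ} (hr : 0 < r) {φ X : ℝ → H →L[ℂ] H} {c : ℝ} (h : Fl φ c) (hX : Sm r φ X)
    (s : ℝ) (w v : H) : ⟪w, X s v⟫_ℂ = ∫ t, wk r s t * ⟪w, φ t v⟫_ℂ := by
  rw [hX, ← integral_inner (h.integrable (wk_integrable hr s) v)]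
  simp only [inner_smul_right]

lemma Sm.star {r : ℝ} (hr : 0 < r) {φ X : ℝ → H →L[ℂ] H} {c : ℝ} (h : Fl φ c) (hX : Sm r φ X)
    (hs : ∀ t, star (φ t) = φ t) (s : ℝ) : star (X s) = X (-s) := by
  ext v
  refine ext_inner_left ℂ fun w => ?_
  rw [H3Mod.inner_star_right, ← inner_conj_symm, hX.inner hr h, hX.inner hr h, ← integral_conj]
  congr 1; ext t
  rw [map_mul, conj_wk, inner_conj_symm, ← H3Mod.inner_star_right, hs]

variable {ι : Type} [Fintype ι]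

/-- the modulated sum -/
noncomputable def ZZ (pos : ι → ℝ) (α : ι → H) (t : ℝ) : H := ∑ a, ee (t * pos a) • α a

omit [CompleteSpace H] in
lemma ZZ_cont (pos : ι → ℝ) (α : ι → H) : Continuous (ZZ pos α) :=
  continuous_finsetSum _ fun _ _ =>
    (continuous_ee.comp (continuous_id.mul continuous_const)).smul continuous_const

omit [CompleteSpace H] in
lemma ZZ_le (pos : ι → ℝ) (α : ι → H) (t : ℝ) : ‖ZZ pos α t‖ ≤ ∑ a, ‖α a‖ :=
  (norm_sum_le _ _).trans (le_of_eq (by simp only [norm_smul, norm_ee, one_mul]))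

lemma Sm.form {r : ℝ} (hr : 0 < r) {φ X : ℝ → H →L[ℂ] H} {c : ℝ} (h : Fl φ c) (hX : Sm r φ X)
    (pos : ι → ℝ) (α β : ι → H) :
    ∑ a, ∑ b, ⟪α a, X (pos a - pos b) (β b)⟫_ℂ =
      ∫ t, (kk r t : ℂ) * ⟪ZZ pos α t, φ t (ZZ pos β t)⟫_ℂ := by
  have hi : ∀ a b, Integrable fun t => wk r (pos a - pos b) t * ⟪α a, φ t (β b)⟫_ℂ := by
    intro a b
    have := (h.integrable (wk_integrable hr (pos a - pos b)) (β b)).const_inner (𝕜 := ℂ) (α a)
    simpa only [inner_smul_right] using this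
  simp only [hX.inner hr h]
  simp_rw [← integral_finsetSum _ fun b _ => hi _ b]
  rw [← integral_finsetSum _ fun a _ => integrable_finsetSum _ fun b _ => hi a b]
  congr 1; ext t
  simp only [ZZ, map_sum, map_smul, sum_inner, inner_sum, inner_smul_left, inner_smul_right,
    mul_sum]
  rw [sum_comm]
  refine sum_congr rfl fun b _ => sum_congr rfl fun a _ => ?_
  rw [conj_ee, wk]
  have : ee (t * -(pos a - pos b)) = ee (t * pos b) * ee (-(t * pos a)) := by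
    rw [← ee_add]; congr 1; ring
  rw [this]; ring

omit [CompleteSpace H] in
lemma ZZ_integrable {r : ℝ} (hr : 0 < r) (pos : ι → ℝ) (α : ι → H) :
    Integrable fun t => kk r t * ‖ZZ pos α t‖ ^ 2 :=
  (kk_integrable hr).mul_bdd (c := (∑ a, ‖α a‖) ^ 2)
    ((ZZ_cont pos α).norm.pow 2).aestronglyMeasurable
    (Eventually.of_forall fun t => by
      rw [norm_pow, norm_norm]; gcongr; exact ZZ_le pos α t)

lemma ZZ_sq {r : ℝ} (hr : 0 < r) (pos : ι → ℝ) (α : ι → H) {C : ℝ}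
    (hC : ∀ b, ∑ a, FF r (pos a - pos b) ≤ C) :
    ∫ t, kk r t * ‖ZZ pos α t‖ ^ 2 ≤ C * ∑ a, ‖α a‖ ^ 2 := by
  have h1 : Fl (fun _ : ℝ => (1 : H →L[ℂ] H)) 1 :=
    ⟨fun _ => ContinuousLinearMap.norm_id_le, fun v => continuous_const⟩
  have h2 : Sm r (fun _ : ℝ => (1 : H →L[ℂ] H)) fun s => (FF r s : ℂ) • (1 : H →L[ℂ] H) := by
    intro s v
    simp only [ContinuousLinearMap.smul_apply, ContinuousLinearMap.one_apply]
    rw [integral_smul_const]
    congr 1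
    have := wk_fourier hr s 0
    simp only [mul_zero, zero_sub, FF_neg] at this
    rw [← this]; congr 1; ext t; simp [ee]
  have h3 := h2.form hr h1 pos α α
  simp only [ContinuousLinearMap.smul_apply, ContinuousLinearMap.one_apply, inner_smul_right,
    inner_self_eq_norm_sq_to_K] at h3
  have h4 : (∫ t, (kk r t : ℂ) * ((‖ZZ pos α t‖ : ℝ) : ℂ) ^ 2) =
      ((∫ t, kk r t * ‖ZZ pos α t‖ ^ 2 : ℝ) : ℂ) := by
    rw [← integral_complex_ofReal]; congr 1; ext t; push_cast; rfl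
  have h5 : ∫ t, kk r t * ‖ZZ pos α t‖ ^ 2 ≤
      ‖∑ a, ∑ b, (FF r (pos a - pos b) : ℂ) * ⟪α a, α b⟫_ℂ‖ := by
    rw [h3]
    change _ ≤ ‖∫ t, (kk r t : ℂ) * ((‖ZZ pos α t‖ : ℝ) : ℂ) ^ 2‖
    rw [h4, Complex.norm_real]; exact le_abs_self _
  refine h5.trans ((norm_sum_le _ _).trans ?_)
  calc _ ≤ ∑ a, ∑ b, (FF r (pos a - pos b) * ‖α a‖ ^ 2 / 2 + FF r (pos a - pos b) * ‖α b‖ ^ 2 / 2) := by
        refine sum_le_sum fun a _ => (norm_sum_le _ _).trans (sum_le_sum fun b _ => ?_)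
        have h0 := FF_nonneg hr.le (pos a - pos b)
        rw [norm_mul, Complex.norm_real, Real.norm_of_nonneg h0]
        have := norm_inner_le_norm (𝕜 := ℂ) (α a) (α b)
        have h6 : ‖⟪α a, α b⟫_ℂ‖ ≤ ‖α a‖ ^ 2 / 2 + ‖α b‖ ^ 2 / 2 := by
          nlinarith [sq_nonneg (‖α a‖ - ‖α b‖)]
        nlinarith
    _ = ∑ a, (∑ b, FF r (pos b - pos a)) * ‖α a‖ ^ 2 / 2 +
          ∑ b, (∑ a, FF r (pos a - pos b)) * ‖α b‖ ^ 2 / 2 := by
        simp only [sum_add_distrib]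
        congr 1
        · refine sum_congr rfl fun a _ => ?_
          rw [sum_mul, sum_div]
          refine sum_congr rfl fun b _ => ?_
          rw [← FF_neg, neg_sub]
        · rw [sum_comm]
          refine sum_congr rfl fun b _ => ?_
          rw [sum_mul, sum_div]
    _ ≤ ∑ a, C * ‖α a‖ ^ 2 / 2 + ∑ b, C * ‖α b‖ ^ 2 / 2 := by
        gcongr with a _ b _
        exacts [hC a, hC b]
    _ = _ := by rw [← sum_add_distrib, mul_sum]; exact sum_congr rfl fun a _ => by ring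

omit [CompleteSpace H] in
lemma opNorm_le_of_form (T : H →L[ℂ] H) {K : ℝ} (hK : 0 < K)
    (h : ∀ ζ' ζ, ‖⟪ζ', T ζ⟫_ℂ‖ ≤ K / 2 * (‖ζ'‖ ^ 2 + ‖ζ‖ ^ 2)) : ‖T‖ ≤ K := by
  refine T.opNorm_le_bound hK.le fun ζ => ?_
  have h1 := h (((K⁻¹ : ℝ) : ℂ) • T ζ) ζ
  rw [inner_smul_left, inner_self_eq_norm_sq_to_K, norm_mul, norm_smul, Complex.conj_ofReal,
    Complex.norm_real, Real.norm_of_nonneg (by positivity)] at h1
  have h2 : ‖((‖T ζ‖ : ℝ) : ℂ) ^ 2‖ = ‖T ζ‖ ^ 2 := by simp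
  erw [h2] at h1
  have h3 : ‖T ζ‖ ^ 2 ≤ (K * ‖ζ‖) ^ 2 := by
    have e : K / 2 * ((K⁻¹ * ‖T ζ‖) ^ 2 + ‖ζ‖ ^ 2) = K⁻¹ * (‖T ζ‖ ^ 2 / 2 + (K * ‖ζ‖) ^ 2 / 2) := by
      field_simp
    rw [e] at h1
    have := le_of_mul_le_mul_left h1 (by positivity)
    linarith
  exact (pow_le_pow_iff_left₀ (norm_nonneg _) (by positivity) two_ne_zero).1 h3

variable [DecidableEq ι]

omit [Fintype ι] in
lemma OI.inner {u : ι → H →L[ℂ] H} (h : OI u) (a b : ι) (x y : H) :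
    ⟪u a x, u b y⟫_ℂ = if a = b then ⟪x, y⟫_ℂ else 0 := by
  rw [← H3Mod.inner_star_right]
  change ⟪x, (star (u a) * u b) y⟫_ℂ = _
  rw [h a b]; split_ifs <;> simp

lemma OI.norm_sum {u : ι → H →L[ℂ] H} (h : OI u) (x : ι → H) :
    ‖∑ a, u a (x a)‖ ^ 2 = ∑ a, ‖x a‖ ^ 2 := by
  have : ⟪∑ a, u a (x a), ∑ a, u a (x a)⟫_ℂ = ∑ a, ⟪x a, x a⟫_ℂ := by
    simp only [sum_inner, inner_sum, OI.inner h]
    refine sum_congr rfl fun a _ => ?_
    simp
  simp only [inner_self_eq_norm_sq_to_K] at this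
  exact_mod_cast this

lemma OI.bessel {u : ι → H →L[ℂ] H} (h : OI u) (ζ : H) :
    ∑ a, ‖star (u a) ζ‖ ^ 2 ≤ ‖ζ‖ ^ 2 := by
  set w := ∑ a, u a (star (u a) ζ)
  have h1 : ‖w‖ ^ 2 = ∑ a, ‖star (u a) ζ‖ ^ 2 := OI.norm_sum h _
  have h2 : ⟪ζ, w⟫_ℂ = ((∑ a, ‖star (u a) ζ‖ ^ 2 : ℝ) : ℂ) := by
    simp only [w, inner_sum, ← H3Mod.inner_star_left, inner_self_eq_norm_sq_to_K]
    push_cast; rfl
  have h3 := norm_inner_le_norm (𝕜 := ℂ) ζ w
  rw [h2, Complex.norm_real, ← h1, Real.norm_of_nonneg (by positivity)] at h3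
  rw [← h1]
  nlinarith [sq_nonneg (‖ζ‖ - ‖w‖)]

/-- the block Toeplitz operator -/
noncomputable def Toep (u : ι → H →L[ℂ] H) (pos : ι → ℝ) (X : ℝ → H →L[ℂ] H) : H →L[ℂ] H :=
  ∑ a, ∑ b, u a * X (pos a - pos b) * star (u b)

omit [DecidableEq ι] in
lemma Toep_mem {S : VonNeumannAlgebra H} {u : ι → H →L[ℂ] H} (hu : ∀ a, u a ∈ S) (pos : ι → ℝ)
    {X : ℝ → H →L[ℂ] H} (hX : ∀ s, X s ∈ S) : Toep u pos X ∈ S :=
  sum_mem fun a _ => sum_mem fun b _ => mul_mem (mul_mem (hu a) (hX _)) (star_mem (hu b))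

omit [DecidableEq ι] in
lemma Toep_star (u : ι → H →L[ℂ] H) (pos : ι → ℝ) {X : ℝ → H →L[ℂ] H}
    (hX : ∀ s, star (X s) = X (-s)) : star (Toep u pos X) = Toep u pos X := by
  simp only [Toep, star_sum, star_mul, star_star, hX, neg_sub, mul_assoc]
  exact sum_comm

omit [DecidableEq ι] in
lemma Toep_apply (u : ι → H →L[ℂ] H) (pos : ι → ℝ) (X : ℝ → H →L[ℂ] H) (ζ : H) :
    Toep u pos X ζ = ∑ a, ∑ b, u a (X (pos a - pos b) (star (u b) ζ)) := by
  simp only [Toep, ContinuousLinearMap.sum_apply, ContinuousLinearMap.mul_apply]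

lemma Toep_norm {r : ℝ} (hr : 0 < r) {φ X : ℝ → H →L[ℂ] H} {c : ℝ} (hc : 0 < c) (h : Fl φ c)
    (hX : Sm r φ X) {u : ι → H →L[ℂ] H} (hu : OI u) (pos : ι → ℝ) {C : ℝ} (hC0 : 0 < C)
    (hC : ∀ b, ∑ a, FF r (pos a - pos b) ≤ C) : ‖Toep u pos X‖ ≤ c * C := by
  refine opNorm_le_of_form _ (by positivity) fun ζ' ζ => ?_
  have h1 : ⟪ζ', Toep u pos X ζ⟫_ℂ =
      ∑ a, ∑ b, ⟪star (u a) ζ', X (pos a - pos b) (star (u b) ζ)⟫_ℂ := by
    simp only [Toep_apply, inner_sum, H3Mod.inner_star_left]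
  rw [h1, hX.form hr h]
  set α := fun a => star (u a) ζ'
  set β := fun a => star (u a) ζ
  have i1 := ZZ_integrable hr pos α
  have i2 := ZZ_integrable hr pos β
  have b1 := ZZ_sq hr pos α hC
  have b2 := ZZ_sq hr pos β hC
  have c1 : ∑ a, ‖α a‖ ^ 2 ≤ ‖ζ'‖ ^ 2 := OI.bessel hu ζ'
  have c2 : ∑ a, ‖β a‖ ^ 2 ≤ ‖ζ‖ ^ 2 := OI.bessel hu ζ
  refine (norm_integral_le_of_norm_le ((i1.add i2).const_mul (c / 2))
    (Eventually.of_forall fun t => ?_)).trans ?_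
  · have k0 := kk_nonneg hr.le t
    rw [norm_mul, Complex.norm_real, Real.norm_of_nonneg k0]
    have d1 := norm_inner_le_norm (𝕜 := ℂ) (ZZ pos α t) (φ t (ZZ pos β t))
    have d2 := h.apply_le t (ZZ pos β t)
    have d3 : ‖⟪ZZ pos α t, φ t (ZZ pos β t)⟫_ℂ‖ ≤
        c / 2 * (‖ZZ pos α t‖ ^ 2 + ‖ZZ pos β t‖ ^ 2) := by
      calc _ ≤ ‖ZZ pos α t‖ * (c * ‖ZZ pos β t‖) := d1.trans (by gcongr)
        _ ≤ _ := by nlinarith [sq_nonneg (‖ZZ pos α t‖ - ‖ZZ pos β t‖)]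
    simp only [Pi.add_apply]
    nlinarith
  · rw [integral_const_mul, integral_add' i1 i2]
    calc _ ≤ c / 2 * (C * ‖ζ'‖ ^ 2 + C * ‖ζ‖ ^ 2) := by
          gcongr
          · exact b1.trans (by gcongr)
          · exact b2.trans (by gcongr)
      _ = _ := by ring

omit [Fintype ι] [DecidableEq ι] in
lemma exists_lin_ext (S : VonNeumannAlgebra H) (f : (H →L[ℂ] H) → H →L[ℂ] H)
    (hadd : ∀ x ∈ S, ∀ y ∈ S, f (x + y) = f x + f y)
    (hsmul : ∀ (c : ℂ), ∀ x ∈ S, f (c • x) = c • f x) :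
    ∃ Θ : (H →L[ℂ] H) →ₗ[ℂ] (H →L[ℂ] H), ∀ x ∈ S, Θ x = f x := by
  let p : Submodule ℂ (H →L[ℂ] H) := Subalgebra.toSubmodule S.toStarSubalgebra.toSubalgebra
  let g : p →ₗ[ℂ] (H →L[ℂ] H) :=
    { toFun := fun x => f x
      map_add' := fun x y => hadd _ x.2 _ y.2
      map_smul' := fun c x => hsmul c _ x.2 }
  obtain ⟨Θ, hΘ⟩ := g.exists_extend
  exact ⟨Θ, fun x hx => congrArg (fun k => k (⟨x, hx⟩ : p)) hΘ⟩

end Crest.Agent.H1KK.Emb
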