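import Crest.Agent.H1KK.E2

/-! The battery defect and the cut-off. -/

set_option autoImplicit false

namespace Crest.Agent.H1KK.Emb

open Finset MeasureTheory Filter BoundedContinuousFunction
open scoped InnerProductSpace
open Crest.Agent.H3Mod Crest.OpAlg

universe u
variable {H : Type u} [NormedAddCommGroup H] [InnerProductSpace ℂ H] [CompleteSpace H]

lemma continuous_FF (r : ℝ) : Continuous (FF r) := by unfold FF; fun_prop

/-- the shifted Gaussian as a bounded continuous function -/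
noncomputable def FB (r η s : ℝ) : ℝ →ᵇ ℂ :=
  ofNormedAddCommGroup (fun L : ℝ => ((FF r (η⁻¹ * L - s) : ℝ) : ℂ))
    (Complex.continuous_ofReal.comp ((continuous_FF r).comp (by fun_prop))) |r|
    (fun L => by
      rw [Complex.norm_real, FF, norm_mul, Real.norm_eq_abs, Real.norm_eq_abs,
        abs_of_pos (Real.exp_pos _)]
      refine mul_le_of_le_one_right (abs_nonneg _) ?_
      rw [Real.exp_le_one_iff]; nlinarith [sq_nonneg (r * (η⁻¹ * L - s))])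

lemma FB_apply (r η s L : ℝ) : FB r η s L = ((FF r (η⁻¹ * L - s) : ℝ) : ℂ) := rfl

lemma exists_GB {r η : ℝ} (hr : 0 < r) (h1 : r ≤ 1) (hη : η ≠ 0) (s : ℝ) :
    ∃ G : ℝ →ᵇ ℂ, ∀ L, G L = FB r η s L * ((Real.exp (L / 2) : ℝ) : ℂ) := by
  refine ⟨ofNormedAddCommGroup (fun L => FB r η s L * ((Real.exp (L / 2) : ℝ) : ℂ))
    ((FB r η s).continuous.mul (by fun_prop))
    (Real.exp (η ^ 2 / (8 * r ^ 2)) * Real.exp (η * s / 2)) fun L => ?_, fun L => rfl⟩
  rw [FB_apply, ← Complex.ofReal_mul, Complex.norm_real,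
    Real.norm_of_nonneg (mul_nonneg (FF_nonneg hr.le _) (Real.exp_pos _).le)]
  have e : Real.exp (L / 2) = Real.exp (η * (η⁻¹ * L - s) / 2) * Real.exp (η * s / 2) := by
    rw [← Real.exp_add]; congr 1; field_simp; ring
  rw [e, ← mul_assoc]
  gcongr
  exact FF_exp_le hr h1 _

lemma Sm.vac {r : ℝ} (hr : 0 < r) {φ X : ℝ → H →L[ℂ] H} (hX : Sm r φ X) (D : LineCalculus H)
    (η : ℝ) {ξ y : H} (h : ∀ t, φ t ξ = D.wave (η⁻¹ * t) y) (s : ℝ) :
    X s ξ = D.apply (FB r η s) y := by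
  rw [hX, ← integral_wave D (wk r s) (wk_integrable hr s) η⁻¹ (FB r η s)]
  · simp only [h]
  · intro L
    rw [FB_apply, ← wk_fourier hr]
    congr 1; ext t; unfold ee; congr 4; ring

lemma calc_sum_sq (D : LineCalculus H) {ι : Type} [Fintype ι] (f : ι → ℝ →ᵇ ℂ) {K : ℝ}
    (hK : 0 ≤ K) (h : ∀ L, ∑ a, ‖f a L‖ ^ 2 ≤ K) (y : H) :
    ∑ a, ‖D.apply (f a) y‖ ^ 2 ≤ K * ‖y‖ ^ 2 := by
  set g : ℝ →ᵇ ℂ := ∑ a, star (f a) * f a with hg
  have h1 : ‖g‖ ≤ K := by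
    rw [BoundedContinuousFunction.norm_le hK]
    intro L
    rw [hg, BoundedContinuousFunction.coe_sum, Finset.sum_apply]
    refine (norm_sum_le _ _).trans (le_trans (le_of_eq ?_) (h L))
    refine sum_congr rfl fun a _ => ?_
    simp [sq]
  have h2 : ⟪y, D.apply g y⟫_ℂ = ((∑ a, ‖D.apply (f a) y‖ ^ 2 : ℝ) : ℂ) := by
    simp only [hg, map_sum, ContinuousLinearMap.sum_apply, inner_sum, map_mul, map_star,
      ContinuousLinearMap.mul_apply, H3Mod.inner_star_right, inner_self_eq_norm_sq_to_K]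
    push_cast; rfl
  have h3 := norm_inner_le_norm (𝕜 := ℂ) y (D.apply g y)
  rw [h2, Complex.norm_real, Real.norm_of_nonneg (by positivity)] at h3
  have h4 := calc_apply_norm_le D g y
  calc _ ≤ ‖y‖ * (K * ‖y‖) := h3.trans (by gcongr; exact h4.trans (by gcongr))
    _ = _ := by ring

lemma sqrt_w (η Z a b : ℝ) :
    √(Real.exp (-(a * η)) / Z) = √(Real.exp (-(b * η)) / Z) * Real.exp (-((a - b) * η) / 2) := by
  have e : Real.exp (-(a * η)) / Z =
      Real.exp (-(b * η)) / Z * (Real.exp (-((a - b) * η) / 2)) ^ 2 := by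
    rw [← Real.exp_nat_mul, div_mul_eq_mul_div, ← Real.exp_add]; congr 2; push_cast; ring
  rw [e, Real.sqrt_mul' _ (sq_nonneg _), Real.sqrt_sq (Real.exp_pos _).le]

lemma defect {r η : ℝ} (hr : 0 < r) (h1 : r ≤ 1) (hη : 0 < η) (hη1 : η ≤ 1)
    {M : VonNeumannAlgebra H} {n : ℕ} {u u' : Fin n → H →L[ℂ] H} (hu : OI u) (hu' : OI u')
    {ξ ξ₁ : H} {Z : ℝ} (hZ : 0 < Z) (hw : ∑ a : Fin n, Real.exp (-(a * η)) / Z ≤ 1)
    (hm : ∀ a, u a ∈ M) (hm' : ∀ a, u' a ∈ M.commutant)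
    (hs : ∀ a, star (u a) ξ₁ = ((√(Real.exp (-(a * η)) / Z) : ℝ) : ℂ) • u' a ξ)
    (hs' : ∀ a, star (u' a) ξ₁ = ((√(Real.exp (-(a * η)) / Z) : ℝ) : ℂ) • u a ξ)
    {X X' : ℝ → H →L[ℂ] H} (hX : ∀ s, X s ∈ M) (hX' : ∀ s, X' s ∈ M.commutant)
    (D : LineCalculus H) {y y' : H} (hy : ∀ s, X s ξ = D.apply (FB r η s) y)
    (hy' : ∀ s, X' s ξ = D.apply (FB r η s) y') (hh : D.HalfExp y y') :
    ‖Toep u (fun a => (a : ℝ)) X ξ₁ - Toep u' (fun a => -(a : ℝ)) X' ξ₁‖ ^ 2 ≤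
      4 * Real.exp (25 / (4 * r ^ 2)) * η ^ 2 * ‖y‖ ^ 2 := by
  choose G hG using exists_GB hr h1 hη.ne'
  set sw : Fin n → ℝ := fun a => √(Real.exp (-(a * η)) / Z) with hsw
  set f : Fin n × Fin n → ℝ →ᵇ ℂ := fun p =>
    (sw p.2 : ℂ) • FB r η ((p.1 : ℝ) - p.2) - (sw p.1 : ℂ) • G ((p.1 : ℝ) - p.2) with hf
  have e1 : Toep u (fun a => (a : ℝ)) X ξ₁ =
      ∑ a, ∑ b, u a (u' b ((sw b : ℂ) • D.apply (FB r η ((a : ℝ) - b)) y)) := by
    rw [Toep_apply]
    refine sum_congr rfl fun a _ => sum_congr rfl fun b _ => ?_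
    rw [hs, map_smul, ← H3Mod.comm_of_mem (hX _) (hm' b), hy, map_smul (u' b)]
  have e2 : Toep u' (fun a => -(a : ℝ)) X' ξ₁ =
      ∑ a, ∑ b, u a (u' b ((sw a : ℂ) • D.apply (G ((a : ℝ) - b)) y)) := by
    rw [Toep_apply, sum_comm]
    refine sum_congr rfl fun a _ => sum_congr rfl fun b _ => ?_
    have : -(b : ℝ) - -(a : ℝ) = (a : ℝ) - b := by ring
    rw [hs', this, map_smul, H3Mod.comm_of_mem (hm a) (hX' _), hy', hh _ _ (hG _),
      ← map_smul (u a), H3Mod.comm_of_mem (hm a) (hm' b)]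
  have e3 : Toep u (fun a => (a : ℝ)) X ξ₁ - Toep u' (fun a => -(a : ℝ)) X' ξ₁ =
      ∑ a, u a (∑ b, u' b (D.apply (f (a, b)) y)) := by
    rw [e1, e2, ← sum_sub_distrib]
    refine sum_congr rfl fun a _ => ?_
    rw [← sum_sub_distrib, map_sum]
    refine sum_congr rfl fun b _ => ?_
    simp only [hf, map_sub, map_smul, ContinuousLinearMap.sub_apply,
      ContinuousLinearMap.smul_apply]
  rw [e3, OI.norm_sum hu]
  simp only [OI.norm_sum hu']
  rw [← Fintype.sum_prod_type' fun a b => ‖D.apply (f (a, b)) y‖ ^ 2]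
  refine calc_sum_sq D f (by positivity) (fun L => ?_) y
  rw [Fintype.sum_prod_type_right]
  have e4 : ∀ a b : Fin n, ‖f (a, b) L‖ ^ 2 = Real.exp (-(b * η)) / Z *
      (FF r (η⁻¹ * L + b - a) * (1 - Real.exp (η * (η⁻¹ * L + b - a) / 2))) ^ 2 := by
    intro a b
    have : f (a, b) L = ((sw b * (FF r (η⁻¹ * L + b - a) *
        (1 - Real.exp (η * (η⁻¹ * L + b - a) / 2))) : ℝ) : ℂ) := by
      simp only [hf, BoundedContinuousFunction.sub_apply, BoundedContinuousFunction.smul_apply,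
        hG, FB_apply, smul_eq_mul]
      have a1 : sw a = sw b * Real.exp (-(((a : ℝ) - b) * η) / 2) := sqrt_w η Z a b
      have a2 : Real.exp (η * (η⁻¹ * L + b - a) / 2) =
          Real.exp (-(((a : ℝ) - b) * η) / 2) * Real.exp (L / 2) := by
        rw [← Real.exp_add]; congr 1; field_simp; ring
      have a3 : η⁻¹ * L - ((a : ℝ) - b) = η⁻¹ * L + b - a := by ring
      rw [a1, a2, a3]; push_cast; ring
    rw [this, Complex.norm_real, Real.norm_eq_abs, sq_abs, mul_pow, hsw]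
    simp only
    rw [Real.sq_sqrt (by positivity)]
  simp only [e4, ← mul_sum]
  calc _ ≤ ∑ b : Fin n, Real.exp (-(b * η)) / Z * (4 * Real.exp (25 / (4 * r ^ 2)) * η ^ 2) := by
        gcongr with b
        rw [Fin.sum_univ_eq_sum_range fun a =>
          (FF r (η⁻¹ * L + b - a) * (1 - Real.exp (η * (η⁻¹ * L + b - a) / 2))) ^ 2]
        exact sum_defect hr h1 hη.le hη1 _ n
    _ ≤ 1 * (4 * Real.exp (25 / (4 * r ^ 2)) * η ^ 2) := by rw [← sum_mul]; gcongr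
    _ = _ := one_mul _

lemma cut (D : LineCalculus H) {κ : Type*} (F : Finset κ) (y : κ → H) {τ : ℝ} (hτ : 0 < τ) :
    ∃ R : ℝ, 0 ≤ R ∧ ∀ x ∈ F, ∀ (g : ℝ →ᵇ ℂ) (α β : ℝ), 0 ≤ α → (∀ L, |L| ≤ R → ‖g L‖ ≤ α) →
      ‖g‖ ≤ β → ‖D.apply g (y x)‖ ≤ α * ‖y x‖ + β * τ := by
  choose χ hχ h1 h2 using fun x => exists_cutoff D (y x) τ hτ
  choose R hR0 hR using fun x => (hχ x).isCompact.isBounded.exists_pos_norm_le
  refine ⟨∑ x ∈ F, R x, sum_nonneg fun x _ => (hR0 x).le, fun x hx g α β hα hg hβ => ?_⟩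
  have e : D.apply g (y x) = D.apply (g * χ x) (y x) - D.apply g (D.apply (χ x) (y x) - y x) := by
    rw [calc_mul_apply, map_sub]; abel
  have b1 : ‖g * χ x‖ ≤ α := by
    rw [BoundedContinuousFunction.norm_le hα]
    intro L
    rw [BoundedContinuousFunction.mul_apply, norm_mul]
    by_cases hL : L ∈ tsupport (χ x : ℝ → ℂ)
    · have c1 := hg L ((hR x L hL).trans (single_le_sum (fun x _ => (hR0 x).le) hx))
      have c2 := ((χ x).norm_coe_le_norm L).trans (h1 x)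
      calc _ ≤ α * 1 := by gcongr
        _ = _ := mul_one _
    · rw [image_eq_zero_of_notMem_tsupport hL, norm_zero, mul_zero]; exact hα
  rw [e]
  refine (norm_sub_le _ _).trans (add_le_add ((calc_apply_norm_le _ _ _).trans (by gcongr))
    ((calc_apply_norm_le _ _ _).trans ?_))
  have := (h2 x).le
  gcongr
  exact (norm_nonneg _).trans hβ

lemma exists_X {r : ℝ} (hr : 0 < r) {M : VonNeumannAlgebra H} {ξ : H} (S : MD0 M ξ) (η : ℝ) :
    ∃ X : ℝ → (H →L[ℂ] H) →ₗ[ℂ] (H →L[ℂ] H), ∀ x ∈ M, (∀ s, X s x ∈ M) ∧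
      Fl (fun t => S.σ (η⁻¹ * t) x) ‖x‖ ∧ Sm r (fun t => S.σ (η⁻¹ * t) x) fun s => X s x := by
  classical
  have hF : ∀ x ∈ M, Fl (fun t => S.σ (η⁻¹ * t) x) ‖x‖ := fun x hx =>
    ⟨fun t => S.σ_norm _ x hx, fun v => (S.σ_cont x hx v).comp (continuous_const.mul continuous_id)⟩
  have key : ∀ x, ∃ X : ℝ → H →L[ℂ] H, x ∈ M →
      (∀ s, X s ∈ M) ∧ Sm r (fun t => S.σ (η⁻¹ * t) x) X := by
    intro x
    by_cases hx : x ∈ M
    · obtain ⟨X, h⟩ := exists_sm hr M (hF x hx) fun t => S.σ_mem _ x hx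
      exact ⟨X, fun _ => h⟩
    · exact ⟨0, fun h => absurd h hx⟩
  choose X₀ hX₀ using key
  have key2 : ∀ s, ∃ Θ : (H →L[ℂ] H) →ₗ[ℂ] (H →L[ℂ] H), ∀ x ∈ M, Θ x = X₀ x s := by
    intro s
    refine exists_lin_ext M (fun x => X₀ x s) (fun x hx y hy => ?_) fun c x hx => ?_
    · ext v
      rw [ContinuousLinearMap.add_apply, (hX₀ _ (add_mem hx hy)).2, (hX₀ _ hx).2, (hX₀ _ hy).2,
        ← integral_add ((hF x hx).integrable (wk_integrable hr s) v)
          ((hF y hy).integrable (wk_integrable hr s) v)]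
      simp only [map_add, ContinuousLinearMap.add_apply, smul_add]
    · ext v
      rw [ContinuousLinearMap.smul_apply, (hX₀ _ (smul_mem' c hx)).2, (hX₀ _ hx).2,
        ← integral_smul]
      simp only [map_smul, ContinuousLinearMap.smul_apply, smul_comm c]
  choose X hX using key2
  refine ⟨X, fun x hx => ⟨fun s => ?_, hF x hx, fun s v => ?_⟩⟩
  · rw [hX s x hx]; exact (hX₀ x hx).1 s
  · simp only [hX s x hx]; exact (hX₀ x hx).2 s v

end Crest.Agent.H1KK.Emb
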