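import Crest.Agent.H1KK.E3

/-! Assembly of the embedding lemma `Emb2`. -/

set_option autoImplicit false

namespace Crest.Agent.H1KK.Emb

open Finset MeasureTheory Filter BoundedContinuousFunction
open scoped InnerProductSpace
open Crest.Agent.H3Mod Crest.OpAlg

universe u
variable {H : Type u} [NormedAddCommGroup H] [InnerProductSpace ℂ H] [CompleteSpace H]

lemma one_le_C0 : 1 ≤ C0 := by
  unfold C0; linarith [Real.one_le_exp (by norm_num : (0 : ℝ) ≤ 9 / 2)]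

lemma fin_FF {r : ℝ} (hr : 0 < r) (h1 : r ≤ 1) (n : ℕ) (b : Fin n) :
    ∑ a : Fin n, FF r (-(a : ℝ) - -(b : ℝ)) ≤ 4 * C0 := by
  rw [Fin.sum_univ_eq_sum_range fun a => FF r (-(a : ℝ) - -(b : ℝ))]
  refine le_trans (le_of_eq (sum_congr rfl fun a _ => ?_)) (sum_FF hr.le h1 b n)
  congr 1; ring

lemma fin_FF' {r : ℝ} (hr : 0 < r) (h1 : r ≤ 1) (n : ℕ) (b : Fin n) :
    ∑ a : Fin n, FF r ((a : ℝ) - (b : ℝ)) ≤ 4 * C0 := by
  refine le_trans (le_of_eq (sum_congr rfl fun a _ => ?_)) (fin_FF hr h1 n b)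
  rw [← FF_neg]; congr 1; ring

/-- one self-adjoint contraction gives a pair of letters -/
lemma pair_of_sa (hU : Unit2 H) {r η : ℝ} (hr : 0 < r) (h1 : r ≤ 1) (hη : 0 < η) (hη1 : η ≤ 1)
    {M : VonNeumannAlgebra H} {n : ℕ} {u u' : Fin n → H →L[ℂ] H} (hu : OI u) (hu' : OI u')
    {ξ ξ₁ : H} (hξ : ‖ξ‖ = 1) {Z : ℝ} (hZ : 0 < Z)
    (hw : ∑ a : Fin n, Real.exp (-(a * η)) / Z ≤ 1)
    (hm : ∀ a, u a ∈ M) (hm' : ∀ a, u' a ∈ M.commutant)
    (hs : ∀ a, star (u a) ξ₁ = ((√(Real.exp (-(a * η)) / Z) : ℝ) : ℂ) • u' a ξ)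
    (hs' : ∀ a, star (u' a) ξ₁ = ((√(Real.exp (-(a * η)) / Z) : ℝ) : ℂ) • u a ξ)
    (S : MD0 M ξ) {x : H →L[ℂ] H} (hx : x ∈ M) (hsa : star x = x) (hn : ‖x‖ ≤ 1)
    {X : ℝ → H →L[ℂ] H} (hX : ∀ s, X s ∈ M) (hSm : Sm r (fun t => S.σ (η⁻¹ * t) x) X) :
    ∃ g ∈ M, ∃ g' ∈ M.commutant, g ∈ unitary (H →L[ℂ] H) ∧ g' ∈ unitary (H →L[ℂ] H) ∧
      g + star g = (((4 * C0)⁻¹ : ℝ) : ℂ) • Toep u (fun a => (a : ℝ)) X ∧
      ‖g (g' ξ₁) - ξ₁‖ ≤ √(4 * Real.exp (25 / (4 * r ^ 2))) * η ∧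
      ‖star g (star g' ξ₁) - ξ₁‖ ≤ √(4 * Real.exp (25 / (4 * r ^ 2))) * η := by
  have hC := one_le_C0
  have hF : Fl (fun t => S.σ (η⁻¹ * t) x) 1 :=
    ⟨fun t => (S.σ_norm _ x hx).trans hn,
      fun v => (S.σ_cont x hx v).comp (continuous_const.mul continuous_id)⟩
  have hF' : Fl (fun t => S.ρ (η⁻¹ * t) x) 1 :=
    ⟨fun t => (S.ρ_norm _ x hx).trans hn,
      fun v => (S.ρ_cont x hx v).comp (continuous_const.mul continuous_id)⟩
  obtain ⟨X', hX', hSm'⟩ := exists_sm hr M.commutant hF' fun t => S.ρ_mem _ x hx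
  set T := Toep u (fun a => (a : ℝ)) X
  set T' := Toep u' (fun a => -(a : ℝ)) X'
  have t1 : star T = T := Toep_star _ _ (hSm.star hr hF fun t => by rw [← S.σ_star _ x hx, hsa])
  have t1' : star T' = T' :=
    Toep_star _ _ (hSm'.star hr hF' fun t => by rw [← S.ρ_star _ x hx, hsa])
  have t2 : ‖T‖ ≤ 1 * (4 * C0) := Toep_norm hr one_pos hF hSm hu _ (by positivity) (fin_FF' hr h1 n)
  have t2' : ‖T'‖ ≤ 1 * (4 * C0) :=
    Toep_norm hr one_pos hF' hSm' hu' _ (by positivity) (fin_FF hr h1 n)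
  have t3 := defect hr h1 hη hη1 hu hu' hZ hw hm hm' hs hs' hX hX' S.D
    (hSm.vac hr S.D η fun t => S.σ_vac _ x hx) (hSm'.vac hr S.D η fun t => S.ρ_vac _ x hx)
    (S.half x hx hsa)
  have t4 : ‖S.q (x ξ)‖ ≤ 1 := by
    calc _ ≤ ‖S.q‖ * (‖x‖ * ‖ξ‖) := (S.q.le_opNorm _).trans (by gcongr; exact x.le_opNorm _)
      _ ≤ 1 * (1 * 1) := by rw [hξ]; gcongr; exact S.q_proj.norm_le
      _ = 1 := by norm_num
  have t5 : ‖T ξ₁ - T' ξ₁‖ ≤ √(4 * Real.exp (25 / (4 * r ^ 2))) * η := by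
    refine (pow_le_pow_iff_left₀ (norm_nonneg _) (by positivity) two_ne_zero).1 (t3.trans ?_)
    rw [mul_pow, Real.sq_sqrt (by positivity)]
    exact mul_le_of_le_one_right (by positivity) (pow_le_one₀ (norm_nonneg _) t4)
  set c : ℝ := (8 * C0)⁻¹ with hc
  have hc0 : 0 < c := by positivity
  have nb : ∀ A : H →L[ℂ] H, ‖A‖ ≤ 1 * (4 * C0) → ‖(c : ℂ) • A‖ ≤ 1 / 2 := by
    intro A hA
    rw [norm_smul, Complex.norm_real, Real.norm_of_nonneg hc0.le]
    calc _ ≤ c * (1 * (4 * C0)) := by gcongr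
      _ = _ := by rw [hc]; field_simp; norm_num
  obtain ⟨g, hg, g', hg', u1, u2, e, d⟩ := hU M ((c : ℂ) • T) (smul_mem' _ (Toep_mem hm _ hX))
    ((c : ℂ) • T') (smul_mem' _ (Toep_mem hm' _ hX'))
    (by rw [star_smul, t1, Complex.star_def, Complex.conj_ofReal])
    (by rw [star_smul, t1', Complex.star_def, Complex.conj_ofReal]) (nb _ t2) (nb _ t2')
  have t6 : 2 * ‖((c : ℂ) • T) ξ₁ - ((c : ℂ) • T') ξ₁‖ ≤ √(4 * Real.exp (25 / (4 * r ^ 2))) * η := by
    simp only [ContinuousLinearMap.smul_apply]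
    rw [← smul_sub, norm_smul, Complex.norm_real, Real.norm_of_nonneg hc0.le, ← mul_assoc]
    refine le_trans (mul_le_of_le_one_left (norm_nonneg _) ?_) t5
    rw [hc, ← div_eq_mul_inv, div_le_one (by positivity)]; linarith
  refine ⟨g, hg, g', hg', u1, u2, ?_, (d ξ₁).1.trans t6, (d ξ₁).2.trans t6⟩
  rw [e, smul_smul]
  congr 1
  have : (C0 : ℂ) ≠ 0 := by exact_mod_cast C0_pos.ne'
  rw [hc]; push_cast; field_simp; norm_num

lemma star_sum_mul {ι : Type} [Fintype ι] [DecidableEq ι] {u : ι → H →L[ℂ] H} (hu : OI u) (b : ι) :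
    star (∑ a, u a) * u b = 1 := by
  rw [star_sum, sum_mul]
  simp only [hu _ b]
  simp

lemma star_mul_sum {ι : Type} [Fintype ι] [DecidableEq ι] {u : ι → H →L[ℂ] H} (hu : OI u) (b : ι) :
    star (u b) * ∑ a, u a = 1 := by
  have := congrArg star (star_sum_mul hu b)
  rwa [star_mul, star_star, star_one] at this

/-- the block Toeplitz operator as a linear map -/
noncomputable def ToepL {ι : Type} [Fintype ι] (u : ι → H →L[ℂ] H) (pos : ι → ℝ)
    (X : ℝ → (H →L[ℂ] H) →ₗ[ℂ] (H →L[ℂ] H)) : (H →L[ℂ] H) →ₗ[ℂ] (H →L[ℂ] H) where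
  toFun x := Toep u pos fun s => X s x
  map_add' x y := by simp only [Toep, map_add, mul_add, add_mul, sum_add_distrib]
  map_smul' c x := by
    simp only [Toep, map_smul, mul_smul_comm, smul_mul_assoc, smul_sum, RingHom.id_apply]

lemma embOut (hU : Unit2 H) (hW : Wrap H) {M N : VonNeumannAlgebra H} {δ : ℝ}
    {t t' : ℕ → H →L[ℂ] H} (hS : Setting M N δ t t') {ξ : H} (hξ : ‖ξ‖ = 1) (S : MD0 M ξ)
    {r η : ℝ} (hr : 0 < r) (h1 : r ≤ 1) (hη : 0 < η) (hη1 : η ≤ 1) {n : ℕ} (hn : 1 ≤ n) :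
    ∃ Φ : (H →L[ℂ] H) →ₗ[ℂ] (H →L[ℂ] H),
      EmbOut2 M N ξ 2 (2 * n * Real.exp (n * η)) (√(4 * Real.exp (25 / (4 * r ^ 2))) * η) Φ ∧
      ∃ g : ℝ →ᵇ ℂ, (∀ L, g L = (((16 * C0)⁻¹ * PP r n (η⁻¹ * L) : ℝ) : ℂ)) ∧
        ∀ x ∈ M, Φ x ξ = S.D.apply g (S.q (x ξ)) := by
  obtain ⟨X, hX⟩ := exists_X hr S η
  obtain ⟨E, iE, nE, ξ₁, Z, u, u', Y, n1, hZ, hw, hO, hu, hY, hav⟩ :=
    hW M N δ t t' hS ξ hξ n η hn hη.le
  have hn' : (0 : ℝ) < n := by exact_mod_cast hn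
  have hC : (C0 : ℂ) ≠ 0 := by exact_mod_cast C0_pos.ne'
  set c : ℂ := (((16 * C0)⁻¹ : ℝ) : ℂ) with hc
  set ν : ℂ := (((√n)⁻¹ : ℝ) : ℂ) with hν
  have hνν : ν * ν = ((n : ℝ) : ℂ)⁻¹ := by
    rw [hν, ← Complex.ofReal_mul, ← mul_inv, Real.mul_self_sqrt hn'.le, Complex.ofReal_inv]
  have hνs : star ν = ν := by rw [hν, Complex.star_def, Complex.conj_ofReal]
  refine ⟨(c * ((n : ℝ) : ℂ)⁻¹) • ∑ a : Fin n, ∑ b : Fin n, X ((a : ℝ) - b),
    ⟨E, iE, nE, ξ₁, fun e => ν • ∑ a, u e a, Y,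
      fun e => c • ToepL (u e) (fun a => (a : ℝ)) X, n1, fun e => ?_, hav, fun e x _ => ?_,
      fun e x hx hx1 => ?_⟩,
    (c * ((n : ℝ) : ℂ)⁻¹) • ∑ a : Fin n, ∑ b : Fin n, FB r η ((a : ℝ) - b), fun L => ?_,
      fun x hx => ?_⟩
  · refine ⟨smul_mem' _ (sum_mem fun a _ => (hu e a).1),
      smul_mem' _ (sum_mem fun a _ => (hu e a).2.1), ?_, (hY e).1, (hY e).2.1, ?_, (hY e).2.2.2⟩
    · rw [star_smul, hνs, smul_mul_smul_comm, hνν, mul_sum]
      simp only [star_sum_mul (hO e).1, sum_const, card_univ, Fintype.card_fin]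
      rw [← Nat.cast_smul_eq_nsmul ℂ, smul_smul]
      have : (n : ℂ) ≠ 0 := by exact_mod_cast (by omega : n ≠ 0)
      simp [this]
    · rw [(hY e).2.2.1]
      simp only [ContinuousLinearMap.smul_apply, ContinuousLinearMap.sum_apply]
  · simp only [star_smul, hνs, LinearMap.smul_apply, LinearMap.sum_apply, smul_mul_assoc,
      mul_smul_comm, smul_smul]
    have : star (∑ a, u e a) * ToepL (u e) (fun a => (a : ℝ)) X x * ∑ a, u e a =
        ∑ a : Fin n, ∑ b : Fin n, X ((a : ℝ) - b) x := by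
      change star (∑ a, u e a) * Toep (u e) (fun a => (a : ℝ)) (fun s => X s x) * ∑ a, u e a = _
      have k1 := star_sum_mul (hO e).1
      have k2 := star_mul_sum (hO e).1
      generalize ∑ a, u e a = U at k1 k2 ⊢
      rw [Toep, mul_sum, sum_mul]
      refine sum_congr rfl fun a _ => ?_
      rw [mul_sum, sum_mul]
      refine sum_congr rfl fun b _ => ?_
      rw [← mul_assoc, ← mul_assoc, k1, one_mul, mul_assoc, k2, mul_one]
    rw [this, ← hνν]
    congr 1; ring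
  · set x₁ : H →L[ℂ] H := (1 / 2 : ℂ) • (x + star x) with hx₁
    set x₂ : H →L[ℂ] H := (-Complex.I / 2 : ℂ) • (x - star x) with hx₂
    have m1 : x₁ ∈ M := smul_mem' _ (add_mem hx (star_mem hx))
    have m2 : x₂ ∈ M := smul_mem' _ (sub_mem hx (star_mem hx))
    have s1 : star x₁ = x₁ := by
      rw [hx₁, star_smul, star_add, star_star, add_comm]; congr 1; simp
    have s2 : star x₂ = x₂ := by
      rw [hx₂, star_smul, star_sub, star_star, ← neg_sub, smul_neg, ← neg_smul]; congr 1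
      simp [neg_div]
    have b1 : ‖x₁‖ ≤ 1 := by
      rw [hx₁, norm_smul]
      have := norm_add_le x (star x)
      rw [norm_star] at this
      have e : ‖(1 / 2 : ℂ)‖ = 1 / 2 := by simp
      rw [e]; linarith
    have b2 : ‖x₂‖ ≤ 1 := by
      rw [hx₂, norm_smul]
      have := norm_sub_le x (star x)
      rw [norm_star] at this
      have e : ‖(-Complex.I / 2 : ℂ)‖ = 1 / 2 := by simp
      rw [e]; linarith
    have hdec : x = x₁ + Complex.I • x₂ := by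
      rw [hx₁, hx₂, smul_smul]
      have : Complex.I * (-Complex.I / 2) = 1 / 2 := by
        rw [← mul_div_assoc, mul_neg, Complex.I_mul_I, neg_neg]
      rw [this, ← smul_add]
      have : x + star x + (x - star x) = (2 : ℂ) • x := by rw [two_smul]; abel
      rw [this, smul_smul]; norm_num
    obtain ⟨g₁, a1, g₁', a2, a3, a4, a5, a6, a7⟩ := pair_of_sa hU hr h1 hη hη1 (hO e).1 (hO e).2 hξ
      hZ hw (fun a => (hu e a).1) (fun a => (hu e a).2.2.1) (fun a => (hu e a).2.2.2.1)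
      (fun a => (hu e a).2.2.2.2) S m1 s1 b1 (hX _ m1).1 (hX _ m1).2.2
    obtain ⟨g₂, c1, g₂', c2, c3, c4, c5, c6, c7⟩ := pair_of_sa hU hr h1 hη hη1 (hO e).1 (hO e).2 hξ
      hZ hw (fun a => (hu e a).1) (fun a => (hu e a).2.2.1) (fun a => (hu e a).2.2.2.1)
      (fun a => (hu e a).2.2.2.2) S m2 s2 b2 (hX _ m2).1 (hX _ m2).2.2
    refine ⟨fun j => if j.1 then (if j.2 then star g₂ else g₂) else (if j.2 then star g₁ else g₁),
      fun j => if j.1 then (if j.2 then star g₂' else g₂') else (if j.2 then star g₁' else g₁'),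
      ?_, ?_⟩
    · rintro ⟨_ | _, _ | _⟩
      · exact ⟨a1, a3, a2, a4, by simp, by simp, a6⟩
      · exact ⟨star_mem a1, Unitary.star_mem a3, star_mem a2, Unitary.star_mem a4, by simp,
          by simp, a7⟩
      · exact ⟨c1, c3, c2, c4, by simp, by simp, c6⟩
      · exact ⟨star_mem c1, Unitary.star_mem c3, star_mem c2, Unitary.star_mem c4, by simp,
          by simp, c7⟩
    · have e1 : ToepL (u e) (fun a => (a : ℝ)) X x = ToepL (u e) (fun a => (a : ℝ)) X x₁ +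
          Complex.I • ToepL (u e) (fun a => (a : ℝ)) X x₂ := by
        rw [← map_smul, ← map_add, ← hdec]
      change g₁ + star g₁ = _ • ToepL (u e) (fun a => (a : ℝ)) X x₁ at a5
      change g₂ + star g₂ = _ • ToepL (u e) (fun a => (a : ℝ)) X x₂ at c5
      rw [LinearMap.smul_apply, e1]
      simp only [Fintype.sum_prod_type, Fintype.sum_bool, if_true, Bool.false_eq_true, if_false]
      rw [← smul_add, ← smul_add, add_comm (star g₂), add_comm (star g₁), a5, c5, smul_add,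
        smul_smul, smul_smul, smul_smul, add_comm]
      congr 2
      · rw [hc]; push_cast; field_simp; norm_num
      · rw [hc]; push_cast; field_simp; norm_num
  · simp only [BoundedContinuousFunction.smul_apply, BoundedContinuousFunction.coe_sum,
      Finset.sum_apply, FB_apply, smul_eq_mul, PP]
    rw [← Fin.sum_univ_eq_sum_range fun b => ∑ a ∈ range n, FF r (η⁻¹ * L + b - a)]
    simp only [← Fin.sum_univ_eq_sum_range fun a => FF r (η⁻¹ * L + _ - a)]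
    rw [sum_comm, hc]
    push_cast
    rw [mul_assoc]
    congr 2
    refine sum_congr rfl fun b _ => sum_congr rfl fun a _ => ?_
    congr 2; ring
  · simp only [LinearMap.smul_apply, LinearMap.sum_apply, ContinuousLinearMap.smul_apply,
      ContinuousLinearMap.sum_apply, map_smul, map_sum]
    congr 1
    refine sum_congr rfl fun a _ => sum_congr rfl fun b _ => ?_
    exact (hX x hx).2.2.vac hr S.D η (fun t => S.σ_vac _ x hx) _

theorem emb2_aux (hU : Unit2 H) (hW : Wrap H) (hM : HasMD0 H) :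
    Emb2 H ((16 * C0)⁻¹ * (Real.exp (-1 / 2) / 2)) 2 := by
  intro M N δ t t' hS ξ hξ F τ hF hτ
  obtain ⟨S⟩ := hM M ξ
  have hC := one_le_C0
  obtain ⟨R, hR0, hR⟩ := cut S.D F (fun x => S.q (x ξ)) (τ := τ / 2) (by positivity)
  obtain ⟨σ, hσ⟩ := exists_nat_ge (6 / τ + 1)
  have hσ1 : (1 : ℝ) ≤ σ := by
    have : 0 < 6 / τ := by positivity
    linarith
  set r : ℝ := (σ : ℝ)⁻¹ with hr
  have hr0 : 0 < r := by positivity
  have hr1 : r ≤ 1 := inv_le_one_of_one_le₀ hσ1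
  have hrτ : r ≤ τ / 6 := by
    rw [hr, inv_le_comm₀ (by positivity) (by positivity), inv_div]; linarith
  set a₀ : ℝ := 6 * (R + 1) / τ with ha₀
  have ha0 : 0 < a₀ := by positivity
  set K : ℝ := 4 * Real.exp (25 / (4 * r ^ 2)) with hK
  have hK0 : 0 < K := by positivity
  obtain ⟨n, hn⟩ := exists_nat_ge (6 / τ + a₀ + 2 * σ + 3 * Real.exp a₀ * K * a₀ ^ 2 / τ)
  have p1 : 0 < 6 / τ := by positivity
  have p2 : 0 < 3 * Real.exp a₀ * K * a₀ ^ 2 / τ := by positivity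
  have hn2 : 2 * σ ≤ n := by
    have : (2 : ℝ) * σ ≤ n := by linarith
    exact_mod_cast this
  have hσ1' : 1 ≤ σ := by exact_mod_cast hσ1
  have hn1 : 1 ≤ n := by omega
  have hn0 : (0 : ℝ) < n := by exact_mod_cast hn1
  have hn1' : (1 : ℝ) ≤ n := by exact_mod_cast hn1
  set η : ℝ := a₀ / n with hη
  have hη0 : 0 < η := by positivity
  have hη1 : η ≤ 1 := by rw [hη, div_le_one hn0]; linarith
  have hnη : n * η = a₀ := by rw [hη]; field_simp
  obtain ⟨Φ, hΦ, g, hg, hΦg⟩ := embOut hU hW hS hξ S hr0 hr1 hη0 hη1 hn1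
  refine ⟨_, _, (16 * C0)⁻¹ * PP r n 0, Φ, by positivity, by positivity, ?_, ?_, hΦ,
    fun x hx z hz => ?_⟩
  · rw [mul_pow, ← hK, Real.sq_sqrt hK0.le, hnη]
    have e1 := Real.one_le_exp ha0.le
    have e2 : 3 * Real.exp a₀ * K * a₀ ^ 2 ≤ n * τ := by
      rw [← div_le_iff₀ hτ]; linarith
    calc _ ≤ (3 * n * Real.exp a₀) * (K * η ^ 2) := by gcongr; nlinarith
      _ = 3 * Real.exp a₀ * K * a₀ ^ 2 / n := by rw [hη]; field_simp
      _ ≤ _ := by rw [div_le_iff₀ hn0]; linarith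
  · gcongr; exact PP_zero_ge hσ1' hn2
  · obtain ⟨hxM, hx1⟩ := hF x hx
    set m : ℝ := (16 * C0)⁻¹ * PP r n 0
    have e1 : ⟪z ξ, x ξ⟫_ℂ = ⟪z ξ, S.q (x ξ)⟫_ℂ := by
      rw [← S.q_proj.isSelfAdjoint.star_eq, H3Mod.inner_star_right, S.q_fix z hz]
    have e2 : ⟪z ξ, Φ x ξ⟫_ℂ - (m : ℂ) * ⟪z ξ, x ξ⟫_ℂ =
        ⟪z ξ, S.D.apply (g - (m : ℂ) • 1) (S.q (x ξ))⟫_ℂ := by
      rw [hΦg x hxM, e1, map_sub, map_smul, map_one]
      simp only [ContinuousLinearMap.sub_apply, ContinuousLinearMap.smul_apply,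
        ContinuousLinearMap.one_apply, inner_sub_right, inner_smul_right]
    have e3 : ∀ L, ‖(g - (m : ℂ) • (1 : ℝ →ᵇ ℂ)) L‖ =
        (16 * C0)⁻¹ * |PP r n (η⁻¹ * L) - PP r n 0| := by
      intro L
      have : (g - (m : ℂ) • (1 : ℝ →ᵇ ℂ)) L =
          (((16 * C0)⁻¹ * (PP r n (η⁻¹ * L) - PP r n 0) : ℝ) : ℂ) := by
        simp only [BoundedContinuousFunction.sub_apply, BoundedContinuousFunction.smul_apply, hg,
          BoundedContinuousFunction.coe_one, Pi.one_apply, smul_eq_mul, mul_one, m]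
        push_cast; ring
      rw [this, Complex.norm_real, Real.norm_eq_abs, abs_mul, abs_of_nonneg (by positivity)]
    have t4 : ‖S.q (x ξ)‖ ≤ 1 := by
      calc _ ≤ ‖S.q‖ * (‖x‖ * ‖ξ‖) := (S.q.le_opNorm _).trans (by gcongr; exact x.le_opNorm _)
        _ ≤ 1 * (1 * 1) := by rw [hξ]; gcongr; exact S.q_proj.norm_le
        _ = 1 := by norm_num
    have b := hR x hx (g - (m : ℂ) • 1) (τ / 2) 1 (by positivity) (fun L hL => ?_) ?_
    · rw [e2, mul_comm]
      refine (norm_inner_le_norm _ _).trans ?_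
      gcongr
      refine b.trans ?_
      nlinarith
    · rw [e3, inv_mul_le_iff₀ (by positivity)]
      refine (PP_near hr0.le hr1 hn1 _).trans ?_
      have f1 : |η⁻¹ * L| / n ≤ τ / 6 := by
        rw [abs_mul, abs_of_pos (by positivity), div_le_iff₀ hn0, inv_mul_le_iff₀ hη0]
        have : η * (τ / 6 * n) = R + 1 := by
          rw [hη, ha₀]; field_simp
        rw [this]; linarith
      have f2 : 1 / (n : ℝ) ≤ τ / 6 := by
        rw [div_le_div_iff₀ hn0 (by norm_num)]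
        have : 6 / τ ≤ n := by linarith
        rw [div_le_iff₀ hτ] at this
        linarith
      have f3 : (|η⁻¹ * L| + 1) * (4 * C0 / n) = 4 * C0 * (|η⁻¹ * L| / n + 1 / n) := by
        field_simp
      rw [f3]
      nlinarith
    · rw [BoundedContinuousFunction.norm_le zero_le_one]
      intro L
      rw [e3, inv_mul_le_iff₀ (by positivity), abs_le]
      have g1 := PP_nonneg hr0.le n (η⁻¹ * L)
      have g2 := PP_nonneg hr0.le n 0
      have g3 := PP_le hr0.le hr1 hn1 (η⁻¹ * L)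
      have g4 := PP_le hr0.le hr1 hn1 0
      constructor <;> linarith

end Crest.Agent.H1KK.Emb

namespace Crest.Agent.H1KK

universe u

theorem emb2_of : ∃ m₀ κ₀ : ℝ, 0 < m₀ ∧ 0 ≤ κ₀ ∧ ∀ (H : Type u) [NormedAddCommGroup H]
    [InnerProductSpace ℂ H] [CompleteSpace H], Unit2 H → Wrap H → HasMD0 H → Emb2 H m₀ κ₀ :=
  ⟨(16 * Emb.C0)⁻¹ * (Real.exp (-1 / 2) / 2), 2, by have := Emb.C0_pos; positivity, by norm_num,
    fun _ _ _ _ hU hW hM => Emb.emb2_aux hU hW hM⟩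

end Crest.Agent.H1KK
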