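import Mathlib
import Crest.Agent.H1KK.Coin
import Crest.Agent.H1KK.Defs4

/-! `Unit2`: two unitaries from two small self-adjoint elements. -/

set_option autoImplicit false
set_option linter.unusedSectionVars false
set_option linter.deprecated false

namespace Crest.Agent.H1KK

open scoped InnerProductSpace

universe u
variable {H : Type u} [NormedAddCommGroup H] [InnerProductSpace ℂ H] [CompleteSpace H]

lemma exists_sqrt_one_sub_sq (M : VonNeumannAlgebra H) {h : H →L[ℂ] H} (hM : h ∈ M)
    (hs : star h = h) (hn : ‖h‖ ≤ 1 / 2) :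
    ∃ s ∈ M, star s = s ∧ s * s = 1 - h * h ∧ s * h = h * s ∧ ‖1 - s‖ ≤ 1 / 2 := by
  have hsa : IsSelfAdjoint h := hs
  have hsp : ∀ x ∈ spectrum ℝ h, |x| ≤ 1 / 2 := fun x hx => by
    rcases subsingleton_or_nontrivial (H →L[ℂ] H) with hH | hH
    · simp [spectrum.of_subsingleton] at hx
    · exact (spectrum.norm_le_norm_of_mem hx).trans hn
  have hc : Continuous fun x : ℝ => √(1 - x ^ 2) := by fun_prop
  refine ⟨cfc (fun x : ℝ => √(1 - x ^ 2)) h, ?_, (cfc_predicate _ h : IsSelfAdjoint _), ?_, ?_, ?_⟩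
  · rw [← M.commutant_commutant, VonNeumannAlgebra.mem_commutant_iff]
    intro z hz
    exact (Commute.cfc_real (comm_of_mem hM hz) _).eq.symm
  · rw [← cfc_mul _ _ h, ← sq, ← cfc_pow_id (R := ℝ) h 2, ← cfc_one ℝ h, ← cfc_sub _ _ h]
    refine cfc_congr fun x hx => ?_
    have := abs_le.1 (hsp x hx)
    simp only [Pi.one_apply]
    exact Real.mul_self_sqrt (by nlinarith)
  · exact (Commute.cfc_real (Commute.refl h) _).eq
  · rw [← cfc_one ℝ h, ← cfc_sub _ _ h]
    refine norm_cfc_le (by norm_num) fun x hx => ?_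
    have := abs_le.1 (hsp x hx)
    simp only [Pi.one_apply, Real.norm_eq_abs]
    have h1 : √(1 - x ^ 2) ≤ 1 := Real.sqrt_le_one.2 (by nlinarith)
    have h2 : 1 / 2 ≤ √(1 - x ^ 2) := Real.le_sqrt_of_sq_le (by nlinarith)
    rw [abs_le]; constructor <;> linarith

lemma unit_of_sq {h s : H →L[ℂ] H} (hh : star h = h) (hs : star s = s) (e : s * s = 1 - h * h)
    (c : s * h = h * s) (σ : ℂ) (hσ : σ * σ = -1) (hσ' : star σ = -σ) :
    h + σ • s ∈ unitary (H →L[ℂ] H) := by
  have k : ∀ a b : ℂ, a + b = 0 → a * b = 1 → (h + a • s) * (h + b • s) = 1 := by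
    intro a b hab hab'
    have hb : b = -a := by linear_combination hab
    simp only [add_mul, mul_add, smul_mul_assoc, mul_smul_comm, smul_smul, c, e, smul_add,
      mul_comm b a, hab', one_smul]
    rw [hb, neg_smul]; abel
  rw [Unitary.mem_iff, star_add, star_smul, hh, hs, hσ']
  exact ⟨k _ _ (by ring) (by linear_combination -hσ), k _ _ (by ring) (by linear_combination -hσ)⟩

theorem unit2 : Unit2 H := by
  intro M h hM h' hM' hs hs' hn hn'
  obtain ⟨s, sM, ss, se, sc, sn⟩ := exists_sqrt_one_sub_sq M hM hs hn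
  obtain ⟨s', sM', ss', se', sc', sn'⟩ := exists_sqrt_one_sub_sq M.commutant hM' hs' hn'
  have hI : star Complex.I = -Complex.I := Complex.conj_I
  have key : ∀ ξ : H, ‖s ξ - s' ξ‖ ≤ ‖h ξ - h' ξ‖ := by
    intro ξ
    have e : (s + s') * (s - s') = -((h + h') * (h - h')) := by
      have c1 := comm_of_mem sM sM'
      have c2 := comm_of_mem hM hM'
      simp only [add_mul, mul_sub, c1, c2, se, se']; abel
    have e' := congrArg (fun T : H →L[ℂ] H => ‖T ξ‖) e
    simp only [ContinuousLinearMap.mul_apply, ContinuousLinearMap.neg_apply, norm_neg,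
      ContinuousLinearMap.sub_apply] at e'
    have k1 := contr_apply (x := h + h') ((norm_add_le _ _).trans (by linarith)) (h ξ - h' ξ)
    set θ := s ξ - s' ξ
    have k2 : (2 : ℝ) • θ = (s + s') θ + (1 - s) θ + (1 - s') θ := by
      simp only [ContinuousLinearMap.add_apply, ContinuousLinearMap.sub_apply,
        ContinuousLinearMap.one_apply, two_smul]; abel
    have k3 := norm_add₃_le (a := (s + s') θ) (b := (1 - s) θ) (c := (1 - s') θ)
    rw [← k2, norm_smul, Real.norm_ofNat] at k3
    have k4 := ((1 - s).le_opNorm θ).trans (mul_le_mul_of_nonneg_right sn (norm_nonneg _))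
    have k5 := ((1 - s').le_opNorm θ).trans (mul_le_mul_of_nonneg_right sn' (norm_nonneg _))
    linarith
  have bound : ∀ (σ : ℂ), ‖σ‖ = 1 → ∀ (g : H →L[ℂ] H), g ∈ unitary (H →L[ℂ] H) →
      star g = h + σ • s → ∀ ξ, ‖g ((h' + σ • s') ξ) - ξ‖ ≤ 2 * ‖h ξ - h' ξ‖ := by
    intro σ hσ g hg hg' ξ
    have e : g ((h' + σ • s') ξ) - ξ = -g ((h ξ - h' ξ) + σ • (s ξ - s' ξ)) := by
      have u := congrArg (fun T : H →L[ℂ] H => T ξ) (Unitary.mul_star_self_of_mem hg)
      simp only [hg', ContinuousLinearMap.mul_apply, ContinuousLinearMap.one_apply,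
        ContinuousLinearMap.add_apply, ContinuousLinearMap.smul_apply, map_add, map_smul] at u
      simp only [ContinuousLinearMap.add_apply, ContinuousLinearMap.smul_apply, map_add, map_smul,
        map_sub, smul_sub]
      linear_combination (norm := module) u
    rw [e, norm_neg, unit_apply hg]
    refine (norm_add_le _ _).trans ?_
    rw [norm_smul, hσ]
    linarith [key ξ]
  have hu := unit_of_sq hs ss se sc Complex.I (by simp) hI
  refine ⟨h + Complex.I • s, add_mem hM (vn_smul_mem _ sM), h' + (-Complex.I) • s',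
    add_mem hM' (vn_smul_mem _ sM'), hu,
    unit_of_sq hs' ss' se' sc' (-Complex.I) (by simp) (by simp), ?_, fun ξ => ⟨?_, ?_⟩⟩
  · rw [star_add, star_smul, hs, ss, hI, two_smul, neg_smul]; abel
  · exact bound (-Complex.I) (by simp) _ hu (by rw [star_add, star_smul, hs, ss, hI]) ξ
  · have := bound Complex.I (by simp) _ (Unitary.star_mem hu) (star_star _) ξ
    rwa [star_add h', star_smul, hs', ss', star_neg, hI, neg_neg]

end Crest.Agent.H1KK
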