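import Mathlib
import Crest.Agent.H1KK.Coin
import Crest.Agent.H1KK.Defs4

/-! `Wrap`: signs and multiplicities. -/

set_option autoImplicit false
set_option linter.unusedSectionVars false
set_option linter.deprecated false

namespace Crest.Agent.H1KK

open scoped InnerProductSpace

universe u
variable {H : Type u} [NormedAddCommGroup H] [InnerProductSpace ℂ H] [CompleteSpace H]

lemma OI.apply {ι : Type} [DecidableEq ι] {u : ι → H →L[ℂ] H} (h : OI u) (a b : ι) (x : H) :
    star (u a) (u b x) = if a = b then x else 0 := by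
  have := congrArg (fun T : H →L[ℂ] H => T x) (h a b)
  simp only [ContinuousLinearMap.mul_apply] at this
  rw [this]; split_ifs <;> simp

lemma OI.star_sum {ι : Type} [Fintype ι] [DecidableEq ι] {u : ι → H →L[ℂ] H} (h : OI u) (a : ι)
    (x : ι → H) : star (u a) (∑ b, u b (x b)) = x a := by
  simp [map_sum, h.apply]

lemma OI.norm_sum {ι : Type} [Fintype ι] [DecidableEq ι] {u : ι → H →L[ℂ] H} (h : OI u)
    (x : ι → H) : ‖∑ b, u b (x b)‖ ^ 2 = ∑ b, ‖x b‖ ^ 2 := by
  rw [← re_inner_self, sum_inner, Complex.re_sum]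
  refine Finset.sum_congr rfl fun a _ => ?_
  rw [← inner_star_right, h.star_sum, re_inner_self]

lemma OI.bessel {ι : Type} [Fintype ι] [DecidableEq ι] {u : ι → H →L[ℂ] H} (h : OI u) (ζ : H) :
    ∑ b, ‖star (u b) ζ‖ ^ 2 ≤ ‖ζ‖ ^ 2 := by
  have h1 := h.norm_sum fun b => star (u b) ζ
  set y := ∑ b, u b (star (u b) ζ) with hy
  have h2 : (⟪y, ζ⟫_ℂ).re = ∑ b, ‖star (u b) ζ‖ ^ 2 := by
    rw [hy, sum_inner, Complex.re_sum]
    refine Finset.sum_congr rfl fun a _ => ?_
    rw [← inner_star_right, re_inner_self]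
  have h3 : (⟪y, ζ⟫_ℂ).re ≤ ‖y‖ * ‖ζ‖ := (Complex.re_le_norm _).trans (norm_inner_le_norm _ _)
  nlinarith [sq_nonneg (‖y‖ - ‖ζ‖)]

/-- a sign -/
def sg (b : Bool) : ℂ := if b then 1 else -1

lemma sg_sq (b : Bool) : sg b * sg b = 1 := by cases b <;> simp [sg]
lemma sg_star (b : Bool) : star (sg b) = sg b := by cases b <;> simp [sg]
lemma sg_not (b : Bool) : sg (!b) = -sg b := by cases b <;> simp [sg]
lemma sg_norm (b : Bool) : ‖sg b‖ = 1 := by cases b <;> simp [sg]

lemma sum_sign_sq {ι : Type} [Fintype ι] [DecidableEq ι] {X : ι → Type} [∀ a, Fintype (X a)]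
    (f : ∀ a, X a → H) :
    ∑ e : (∀ a, X a × Bool), ‖∑ a, sg (e a).2 • f a (e a).1‖ ^ 2 =
      ∑ e : (∀ a, X a × Bool), ∑ a, ‖f a (e a).1‖ ^ 2 := by
  simp only [← re_inner_self, sum_inner, inner_sum, Complex.re_sum]
  rw [Finset.sum_comm]
  conv_rhs => rw [Finset.sum_comm]
  refine Finset.sum_congr rfl fun b _ => ?_
  rw [Finset.sum_comm, Finset.sum_eq_single b]
  · refine Finset.sum_congr rfl fun e _ => ?_
    rw [re_inner_self, re_inner_self, norm_smul, sg_norm, one_mul]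
  · intro a _ hab
    let fl : (∀ a, X a × Bool) → (∀ a, X a × Bool) := fun e =>
      Function.update e a ((e a).1, !(e a).2)
    have hfl : Function.Involutive fl := fun e => by simp [fl]
    have h1 := Equiv.sum_comp (hfl.toPerm fl)
      (fun e : (∀ a, X a × Bool) => (⟪sg (e a).2 • f a (e a).1, sg (e b).2 • f b (e b).1⟫_ℂ).re)
    simp only [Function.Involutive.coe_toPerm, fl, Function.update_self,
      Function.update_of_ne hab.symm, sg_not, neg_smul, inner_neg_left, Complex.neg_re,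
      Finset.sum_neg_distrib] at h1
    linarith
  · simp

lemma sum_pi_eval {ι : Type} [Fintype ι] [DecidableEq ι] {Y : ι → Type} [∀ a, Fintype (Y a)]
    (a : ι) (φ : Y a → ℝ) :
    (Fintype.card (Y a) : ℝ) * ∑ e : (∀ a, Y a), φ (e a) =
      Fintype.card (∀ a, Y a) * ∑ y, φ y := by
  rw [Fintype.card_congr (Equiv.piSplitAt a Y), ← (Equiv.piSplitAt a Y).symm.sum_comp,
    Fintype.sum_prod_type]
  simp [Equiv.piSplitAt, ← Finset.mul_sum]
  ring

theorem wrap : Wrap H := by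
  intro M N δ t t' hS ξ hξ n η hn hη
  classical
  set d : Fin n → ℕ := fun a => ⌈Real.exp (a * η)⌉₊ with hd
  have hn0 : (0 : ℝ) < n := by exact_mod_cast hn
  have hd1 : ∀ a, 1 ≤ (d a : ℝ) * Real.exp (-(a * η)) := fun a => by
    rw [Real.exp_neg, ← div_eq_mul_inv, le_div_iff₀ (Real.exp_pos _), one_mul]
    exact Nat.le_ceil _
  have hd2 : ∀ a, (d a : ℝ) * Real.exp (-(a * η)) ≤ 2 := fun a => by
    rw [Real.exp_neg, ← div_eq_mul_inv, div_le_iff₀ (Real.exp_pos _)]
    have h1 := (Nat.ceil_lt_add_one (Real.exp_pos (a * η)).le).le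
    have h2 : 1 ≤ Real.exp (a * η) := Real.one_le_exp (by positivity)
    simp only [hd]; linarith
  have hd0 : ∀ a, 0 < d a := fun a => Nat.ceil_pos.2 (Real.exp_pos _)
  set Z : ℝ := ∑ a : Fin n, (d a : ℝ) * Real.exp (-(a * η)) with hZ
  have hZ1 : (n : ℝ) ≤ Z := by
    simpa using Finset.sum_le_sum (s := Finset.univ) fun a _ => hd1 a
  have hZ2 : Z ≤ 2 * n := by
    have := Finset.sum_le_sum (s := Finset.univ) fun a _ => hd2 a
    simp only [Finset.sum_const, Finset.card_univ, Fintype.card_fin, nsmul_eq_mul] at this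
    linarith
  have hZ0 : 0 < Z := by linarith
  set w : Fin n → ℝ := fun a => Real.exp (-(a * η)) / Z with hw
  have hw0 : ∀ a, 0 < w a := fun a => by positivity
  let J := Σ a : Fin n, Fin (d a)
  let ix : J → ℕ := fun j => Nat.pair j.1 j.2
  have hix : ∀ j j' : J, ix j = ix j' ↔ j = j' := by
    rintro ⟨a, i⟩ ⟨a', i'⟩
    refine ⟨fun h => ?_, fun h => by rw [h]⟩
    obtain ⟨h1, h2⟩ := Nat.pair_eq_pair.1 h
    obtain rfl : a = a' := Fin.ext h1
    obtain rfl : i = i' := Fin.ext h2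
    rfl
  have oT : OI fun j : J => t (ix j) := fun j j' => by rw [hS.iso]; simp only [hix]
  have oT' : OI fun j : J => t' (ix j) := fun j j' => by rw [hS.iso']; simp only [hix]
  have cm : ∀ a b θ, t a (t' b θ) = t' b (t a θ) := fun a b θ =>
    congrArg (fun T : H →L[ℂ] H => T θ) (comm_of_mem (hS.tM a) (hS.tM' b))
  set ξ₁ : H := ∑ j : J, t (ix j) (((√(w j.1) : ℝ) : ℂ) • t' (ix j) ξ) with hξ₁
  have hξ₁' : ξ₁ = ∑ j : J, t' (ix j) (((√(w j.1) : ℝ) : ℂ) • t (ix j) ξ) := by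
    simp only [hξ₁, map_smul, cm]
  let E := ∀ a : Fin n, Fin (d a) × Bool
  let u : E → Fin n → H →L[ℂ] H := fun e a => sg (e a).2 • t (ix ⟨a, (e a).1⟩)
  let u' : E → Fin n → H →L[ℂ] H := fun e a => sg (e a).2 • t' (ix ⟨a, (e a).1⟩)
  let c : Fin n → ℝ := fun a => (√(n * w a))⁻¹
  have hc2 : ∀ a, c a ^ 2 = (n * w a)⁻¹ := fun a => by
    simp only [c]; rw [inv_pow, Real.sq_sqrt (mul_pos hn0 (hw0 a)).le]
  let Y : E → H →L[ℂ] H := fun e => ∑ a, ((c a : ℝ) : ℂ) • star (u' e a)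
  have oS : ∀ (v : J → H →L[ℂ] H), OI v → ∀ e : E,
      OI fun a => sg (e a).2 • v ⟨a, (e a).1⟩ := by
    intro v hv e a b
    simp only [star_smul, smul_mul_assoc, mul_smul_comm, smul_smul, hv _ _, sg_star]
    by_cases h : a = b
    · subst h; simp [sg_sq]
    · rw [if_neg h, if_neg (fun h' => h (congrArg Sigma.fst h')), smul_zero]
  have ou : ∀ e, OI (u e) := fun e => oS (fun j => t (ix j)) oT e
  have ou' : ∀ e, OI (u' e) := fun e => oS (fun j => t' (ix j)) oT' e
  have s1 : ∀ e a, star (u e a) ξ₁ = ((√(w a) : ℝ) : ℂ) • u' e a ξ := fun e a => by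
    simp only [u, u', star_smul, ContinuousLinearMap.smul_apply, sg_star]
    rw [hξ₁, oT.star_sum ⟨a, (e a).1⟩, smul_comm]
  have s2 : ∀ e a, star (u' e a) ξ₁ = ((√(w a) : ℝ) : ℂ) • u e a ξ := fun e a => by
    simp only [u, u', star_smul, ContinuousLinearMap.smul_apply, sg_star]
    rw [hξ₁', oT'.star_sum ⟨a, (e a).1⟩, smul_comm]
  have hYm : ∀ S : VonNeumannAlgebra H, (∀ a, t' a ∈ S) → ∀ e, Y e ∈ S := fun S hS e =>
    sum_mem fun a _ => vn_smul_mem _ (star_mem (vn_smul_mem _ (hS _)))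
  refine ⟨E, inferInstance, ⟨fun a => (⟨0, hd0 a⟩, true)⟩, ξ₁, Z, u, u', Y, ?_, hZ0, ?_,
    fun e => ⟨ou e, ou' e⟩, fun e a => ⟨vn_smul_mem _ (hS.tM _), vn_smul_mem _ (hS.tN _),
      vn_smul_mem _ (hS.tM' _), s1 e a, s2 e a⟩,
    fun e => ⟨hYm _ hS.tM' e, hYm _ hS.tN' e, ?_, ?_⟩, fun ζ => ?_⟩
  · have h1 : ‖ξ₁‖ ^ 2 = 1 := by
      rw [hξ₁, oT.norm_sum]
      have : ∀ j : J, ‖((√(w j.1) : ℝ) : ℂ) • t' (ix j) ξ‖ ^ 2 = w j.1 := fun j => by
        have k : ‖t' (ix j) ξ‖ ^ 2 = ‖ξ‖ ^ 2 := by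
          rw [← re_inner_self, ← inner_star_right, oT'.apply j j, if_pos rfl, re_inner_self]
        rw [norm_smul, mul_pow, k, hξ, Complex.norm_real, Real.norm_eq_abs, sq_abs,
          Real.sq_sqrt (hw0 _).le]; simp
      simp only [this]
      rw [Fintype.sum_sigma]
      simp only [Finset.sum_const, Finset.card_univ, Fintype.card_fin, nsmul_eq_mul, hw,
        ← mul_div_assoc, ← Finset.sum_div]
      exact div_self hZ0.ne'
    nlinarith [norm_nonneg ξ₁]
  · rw [← Finset.sum_div, div_le_one hZ0]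
    refine Finset.sum_le_sum fun a _ => le_mul_of_one_le_left (Real.exp_pos _).le ?_
    exact_mod_cast hd0 a
  · simp only [Y, ContinuousLinearMap.sum_apply, ContinuousLinearMap.smul_apply, s2, smul_smul,
      Finset.smul_sum]
    refine Finset.sum_congr rfl fun a _ => ?_
    congr 1
    rw [← Complex.ofReal_mul]
    congr 1
    simp only [c]
    rw [Real.sqrt_mul hn0.le, mul_inv, mul_assoc, inv_mul_cancel₀ (Real.sqrt_pos.2 (hw0 a)).ne',
      mul_one]
  · have hs : ∑ a, c a ^ 2 ≤ 2 * n * Real.exp (n * η) := by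
      have : ∀ a : Fin n, c a ^ 2 ≤ 2 * Real.exp (n * η) := fun a => by
        rw [hc2, inv_le_iff_one_le_mul₀ (mul_pos hn0 (hw0 a))]
        have k1 : 1 ≤ Real.exp (n * η) * Real.exp (-(a * η)) := by
          rw [← Real.exp_add]
          refine Real.one_le_exp ?_
          have : (a : ℝ) ≤ n := by exact_mod_cast a.2.le
          nlinarith
        have k2 : 1 ≤ 2 * n / Z := by rw [le_div_iff₀ hZ0]; linarith
        calc (1 : ℝ) ≤ (2 * n / Z) * (Real.exp (n * η) * Real.exp (-(a * η))) :=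
              one_le_mul_of_one_le_of_one_le k2 k1
          _ = _ := by simp only [hw]; ring
      have := Finset.sum_le_sum (s := Finset.univ) fun a _ => this a
      simp only [Finset.sum_const, Finset.card_univ, Fintype.card_fin, nsmul_eq_mul] at this
      linarith
    have h1 : ‖star (Y e)‖ ≤ √(∑ a, c a ^ 2) := by
      refine ContinuousLinearMap.opNorm_le_bound _ (Real.sqrt_nonneg _) fun θ => ?_
      have k : star (Y e) θ = ∑ a, u' e a (((c a : ℝ) : ℂ) • θ) := by
        simp [Y, star_sum, star_smul]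
      refine le_of_sq_le_sq ?_ (by positivity) |> fun h => h
      rw [k, (ou' e).norm_sum, mul_pow, Real.sq_sqrt (Finset.sum_nonneg fun _ _ => sq_nonneg _),
        Finset.sum_mul]
      refine le_of_eq (Finset.sum_congr rfl fun a _ => ?_)
      rw [norm_smul, mul_pow, Complex.norm_real, Real.norm_eq_abs, sq_abs]
    rw [norm_star] at h1
    refine (pow_le_pow_left₀ (norm_nonneg _) h1 2).trans ?_
    rwa [Real.sq_sqrt (Finset.sum_nonneg fun _ _ => sq_nonneg _)]
  · let f : ∀ a : Fin n, Fin (d a) → H := fun a i => ((c a : ℝ) : ℂ) • star (t' (ix ⟨a, i⟩)) ζ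
    have k : ∀ e, Y e ζ = ∑ a, sg (e a).2 • f a (e a).1 := fun e => by
      simp only [Y, u', f, ContinuousLinearMap.sum_apply, ContinuousLinearMap.smul_apply,
        star_smul, sg_star]
      exact Finset.sum_congr rfl fun a _ => smul_comm _ _ _
    simp only [k]
    rw [sum_sign_sq f, Finset.sum_comm]
    have hb := oT'.bessel ζ
    rw [Fintype.sum_sigma] at hb
    refine le_trans (Finset.sum_le_sum fun a _ => ?_)
      ((Finset.mul_sum _ _ _).symm.le.trans (mul_le_mul_of_nonneg_left hb (by positivity)))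
    have h1 := sum_pi_eval (Y := fun a => Fin (d a) × Bool) a (fun y => ‖f a y.1‖ ^ 2)
    rw [Fintype.sum_prod_type] at h1
    simp only [Fintype.card_prod, Fintype.card_fin, Fintype.card_bool, Finset.sum_const,
      Finset.card_univ, nsmul_eq_mul, ← Finset.mul_sum] at h1
    have h2 : ∑ i, ‖f a i‖ ^ 2 = c a ^ 2 * ∑ i, ‖star (t' (ix ⟨a, i⟩)) ζ‖ ^ 2 := by
      rw [Finset.mul_sum]
      refine Finset.sum_congr rfl fun i _ => ?_
      simp only [f]
      rw [norm_smul, mul_pow, Complex.norm_real, Real.norm_eq_abs, sq_abs]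
    have hda : (0 : ℝ) < d a := by exact_mod_cast hd0 a
    have h3 : c a ^ 2 ≤ 2 * d a := by
      rw [hc2, inv_le_iff_one_le_mul₀ (mul_pos hn0 (hw0 a))]
      have k2 : 1 ≤ 2 * n / Z := by rw [le_div_iff₀ hZ0]; linarith
      calc (1 : ℝ) ≤ (2 * n / Z) * (d a * Real.exp (-(a * η))) :=
            one_le_mul_of_one_le_of_one_le k2 (hd1 a)
        _ = _ := by simp only [hw]; ring
    push_cast at h1
    rw [h2] at h1
    set B := ∑ i, ‖star (t' (ix ⟨a, i⟩)) ζ‖ ^ 2
    have hB : 0 ≤ B := Finset.sum_nonneg fun _ _ => sq_nonneg _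
    refine le_of_mul_le_mul_left (a := (d a : ℝ) * 2) (h1.le.trans ?_) (by positivity)
    have := mul_le_mul_of_nonneg_right h3 (mul_nonneg (Nat.cast_nonneg (α := ℝ)
      (Fintype.card E)) hB)
    nlinarith

end Crest.Agent.H1KK
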