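import Crest.Agent.H1KK.TT1
import Crest.Agent.H3.KK.Defs
import Crest.Agent.H3Mod.Calc

/-! Modular data of an arbitrary vector from the Tomita–Takesaki theorem. -/

set_option autoImplicit false

namespace Crest.Agent.H1KK

open scoped InnerProductSpace BoundedContinuousFunction
open Crest.OpAlg Crest.Agent.H3Mod

universe u
variable {H : Type u} [NormedAddCommGroup H] [InnerProductSpace ℂ H] [CompleteSpace H]

/-- the commutant of a set -/
noncomputable def vnC (S : Set (H →L[ℂ] H)) : VonNeumannAlgebra H where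
  toStarSubalgebra := StarSubalgebra.centralizer ℂ S
  centralizer_centralizer' := by
    change Set.centralizer (Set.centralizer ((StarSubalgebra.centralizer ℂ S : Set (H →L[ℂ] H)))) =
      ((StarSubalgebra.centralizer ℂ S : Set (H →L[ℂ] H)))
    rw [StarSubalgebra.coe_centralizer, Set.centralizer_centralizer_centralizer]

lemma mem_vnC {S : Set (H →L[ℂ] H)} {x : H →L[ℂ] H} :
    x ∈ vnC S ↔ ∀ s ∈ S, s * x = x * s ∧ star s * x = x * star s :=
  StarSubalgebra.mem_centralizer_iff ℂ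

/-- a real bounded continuous function -/
noncomputable def bcf (f : ℝ → ℝ) (hf : Continuous f) (C : ℝ) (h : ∀ u, |f u| ≤ C) : ℝ →ᵇ ℂ :=
  BoundedContinuousFunction.ofNormedAddCommGroup (fun u => ((f u : ℝ) : ℂ))
    (Complex.continuous_ofReal.comp hf) C (fun u => by rw [Complex.norm_real]; exact h u)

@[simp] lemma bcf_apply (f : ℝ → ℝ) (hf : Continuous f) (C : ℝ) (h : ∀ u, |f u| ≤ C) (u : ℝ) :
    bcf f hf C h u = (f u : ℂ) := rfl

lemma norm_bcf (f : ℝ → ℝ) (hf : Continuous f) (C : ℝ) (h : ∀ u, |f u| ≤ C) :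
    ‖bcf f hf C h‖ ≤ C :=
  BoundedContinuousFunction.norm_ofNormedAddCommGroup_le _ ((abs_nonneg _).trans (h 0)) _

noncomputable def fr : ℝ →ᵇ ℂ :=
  bcf (fun u => 2 / (1 + Real.exp (u / 2) ^ 2)) (by fun_prop (disch := intros; positivity)) 2
    fun u => by
      rw [abs_of_pos (by positivity), div_le_iff₀ (by positivity)]
      nlinarith [sq_nonneg (Real.exp (u / 2))]

noncomputable def fs : ℝ →ᵇ ℂ :=
  bcf (fun u => 2 * Real.exp (u / 2) / (1 + Real.exp (u / 2) ^ 2))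
    (by fun_prop (disch := intros; positivity)) 1
    fun u => by
      rw [abs_of_pos (by positivity), div_le_iff₀ (by positivity)]
      nlinarith [sq_nonneg (Real.exp (u / 2) - 1)]

lemma tanh_half (u : ℝ) : Real.tanh (u / 2) = 1 - 2 / (1 + Real.exp (u / 2) ^ 2) := by
  rw [Real.tanh_eq_sinh_div_cosh, Real.sinh_eq, Real.cosh_eq, Real.exp_neg]
  have := Real.exp_pos (u / 2)
  field_simp
  ring

lemma th_apply (u : ℝ) : th u = ((Real.tanh (u / 2) : ℝ) : ℂ) := rfl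

lemma th_eq : th = 1 - fr := by
  ext u
  rw [th_apply, tanh_half]; simp [fr]

lemma norm_th : ‖th‖ ≤ 1 := BoundedContinuousFunction.norm_ofNormedAddCommGroup_le _ zero_le_one _

/-- rescaling the vector -/
noncomputable def mdScale {M : VonNeumannAlgebra H} {ξ : H} (S : H3.KK.MD M ξ) (c : ℝ) :
    H3.KK.MD M ((c : ℂ) • ξ) :=
  { S with
    J_vac := by rw [map_smulₛₗ, S.J_vac, Complex.conj_ofReal]
    wave_vac := fun t => by simp [S.wave_vac]
    half := fun a ha f g hfg => by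
      have hJ : ∀ v, S.J ((c : ℂ) • v) = (c : ℂ) • S.J v := fun v => by
        rw [map_smulₛₗ, Complex.conj_ofReal]
      simp only [map_smul, hJ, S.half a ha f g hfg]
    half' := fun a ha f g hfg => by
      have hJ : ∀ v, S.J ((c : ℂ) • v) = (c : ℂ) • S.J v := fun v => by
        rw [map_smulₛₗ, Complex.conj_ofReal]
      simp only [map_smul, hJ, S.half' a ha f g hfg] }

lemma J_inner {M : VonNeumannAlgebra H} {ξ : H} (S : H3.KK.MD M ξ) (a b : H) :
    ⟪S.J a, S.J b⟫_ℂ = ⟪b, a⟫_ℂ := by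
  have h : ∀ x y : H, (⟪S.J x, S.J y⟫_ℂ).re = (⟪x, y⟫_ℂ).re := by
    intro x y
    have h1 := norm_add_sq (𝕜 := ℂ) (S.J x) (S.J y)
    have h2 := norm_add_sq (𝕜 := ℂ) x y
    rw [← map_add, S.J.norm_map, S.J.norm_map, S.J.norm_map] at h1
    simp only [RCLike.re_to_complex] at h1 h2
    linarith
  apply Complex.ext
  · rw [h, ← inner_conj_symm, Complex.conj_re]
  · have := h (Complex.I • a) b
    rw [map_smulₛₗ, inner_smul_left, inner_smul_left] at this
    simp at this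
    rw [← inner_conj_symm b a, Complex.conj_im]
    linarith

lemma band0 {M : VonNeumannAlgebra H} {ξ : H} (S : H3.KK.MD M ξ) {x w : H →L[ℂ] H} (hx : x ∈ M)
    (hw : w ∈ M.commutant) (hx1 : ‖x‖ ≤ 1) (hw1 : ‖w‖ ≤ 1) {d : ℝ} (h1 : ‖x ξ - w ξ‖ ≤ d)
    (h2 : ‖ξ‖ - 2 * d ≤ ‖x ξ‖) : ‖S.D.apply th (x ξ)‖ ^ 2 ≤ 14 * ‖ξ‖ * d := by
  have hd : 0 ≤ d := (norm_nonneg _).trans h1
  have hle : ∀ a : H →L[ℂ] H, ‖a‖ ≤ 1 → ‖a ξ‖ ≤ ‖ξ‖ := fun a ha =>
    (a.le_opNorm ξ).trans (by nlinarith [norm_nonneg ξ])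
  have hz := hle x hx1
  by_cases hdX : ‖ξ‖ ≤ d
  · have := calc_apply_norm_le S.D th (x ξ)
    have h3 : ‖S.D.apply th (x ξ)‖ ≤ ‖ξ‖ := by nlinarith [norm_th, norm_nonneg (x ξ), norm_nonneg th]
    nlinarith [norm_nonneg ξ, norm_nonneg (S.D.apply th (x ξ))]
  push Not at hdX
  have e1 := S.half x hx fs (2 - fr) fun u => by
    simp only [fs, fr, BoundedContinuousFunction.coe_sub, Pi.sub_apply, bcf_apply]
    have : (2 : ℝ →ᵇ ℂ) u = 2 := rfl
    rw [this]
    have h : (1 + Real.exp (u / 2) ^ 2 : ℝ) ≠ 0 := by positivity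
    norm_cast; field_simp; ring
  have e2 := S.half' w hw fr fs fun u => by
    simp only [fs, fr, bcf_apply]
    norm_cast; ring
  have e3 : (2 : ℂ) • S.D.apply th (x ξ) =
      S.D.apply fs (S.J (star x ξ - star w ξ)) + S.D.apply fr (w ξ - x ξ) := by
    rw [map_sub, map_sub, map_sub, e1, ← e2, th_eq, map_sub, map_sub, map_one, map_ofNat]
    simp only [ContinuousLinearMap.sub_apply, ContinuousLinearMap.one_apply, two_smul,
      ContinuousLinearMap.ofNat_apply]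
    abel
  have n1 : ‖S.D.apply fs (S.J (star x ξ - star w ξ))‖ ≤ ‖star x ξ - star w ξ‖ := by
    have := calc_apply_norm_le S.D fs (S.J (star x ξ - star w ξ))
    rw [S.J.norm_map] at this
    have h : ‖fs‖ ≤ 1 := norm_bcf _ _ _ _
    nlinarith [norm_nonneg (star x ξ - star w ξ)]
  have n2 : ‖S.D.apply fr (w ξ - x ξ)‖ ≤ 2 * d := by
    have := calc_apply_norm_le S.D fr (w ξ - x ξ)
    rw [norm_sub_rev] at this
    have h : ‖fr‖ ≤ 2 := norm_bcf _ _ _ _
    nlinarith [norm_nonneg (x ξ - w ξ)]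
  have n3 : ‖star x ξ - star w ξ‖ ^ 2 ≤ 10 * ‖ξ‖ * d := by
    rw [norm_sub_sq (𝕜 := ℂ)]
    have a1 := hle (star x) (by rwa [norm_star])
    have a2 := hle (star w) (by rwa [norm_star])
    have a3 : ⟪star x ξ, star w ξ⟫_ℂ = ⟪w ξ, x ξ⟫_ℂ := by
      rw [inner_st, ← inner_st']
      exact congrArg (fun X : H →L[ℂ] H => ⟪ξ, X ξ⟫_ℂ) (mem_comm_iff.1 (star_mem hw) x hx)
    have a4 : (⟪w ξ, x ξ⟫_ℂ).re = ‖x ξ‖ ^ 2 - (⟪x ξ - w ξ, x ξ⟫_ℂ).re := by
      rw [inner_sub_left, inner_self_eq_norm_sq_to_K]; simp; norm_cast; ring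
    have a5 : (⟪x ξ - w ξ, x ξ⟫_ℂ).re ≤ d * ‖ξ‖ :=
      (Complex.re_le_norm _).trans ((norm_inner_le_norm _ _).trans (by gcongr))
    simp only [RCLike.re_to_complex, a3, a4]
    nlinarith [norm_nonneg (star x ξ), norm_nonneg (star w ξ), norm_nonneg ξ, norm_nonneg (x ξ)]
  have n4 : 2 * ‖S.D.apply th (x ξ)‖ ≤ ‖star x ξ - star w ξ‖ + 2 * d := by
    have := congrArg norm e3
    rw [norm_smul, Complex.norm_ofNat] at this
    rw [this]; exact (norm_add_le _ _).trans (add_le_add n1 n2)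
  nlinarith [norm_nonneg (S.D.apply th (x ξ)), norm_nonneg (star x ξ - star w ξ),
    sq_nonneg (‖star x ξ - star w ξ‖ - 2 * d), mul_nonneg hd (sub_nonneg.2 hdX.le)]

variable {H0 : Type u} [NormedAddCommGroup H0] [InnerProductSpace ℂ H0] [CompleteSpace H0]

namespace RD
variable {A B : VonNeumannAlgebra H} {ξ : H} {qA qB : H →L[ℂ] H} {ι : H0 →L[ℂ] H}
  {π : H →L[ℂ] H0} (R : RD A B ξ qA qB ι π)
include R

lemma mem_red {T : H0 →L[ℂ] H0} :
    T ∈ vnC (cmp ι π '' (B : Set (H →L[ℂ] H))) ↔ ∀ c ∈ B, cmp ι π c * T = T * cmp ι π c := by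
  rw [mem_vnC]
  refine ⟨fun h c hc => (h _ ⟨c, hc, rfl⟩).1, ?_⟩
  rintro h _ ⟨c, hc, rfl⟩
  exact ⟨h c hc, by rw [← R.cmp_star]; exact h _ (star_mem hc)⟩

lemma cmp_mem {x : H →L[ℂ] H} (hx : x ∈ A) :
    cmp ι π x ∈ vnC (cmp ι π '' (B : Set (H →L[ℂ] H))) :=
  R.mem_red.2 fun _ hc => R.cmp_comm hx hc

lemma cmp_mem' {y : H →L[ℂ] H} (hy : y ∈ B) :
    cmp ι π y ∈ (vnC (cmp ι π '' (B : Set (H →L[ℂ] H)))).commutant :=
  mem_comm_iff.2 fun _ hT => (R.mem_red.1 hT y hy).symm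

lemma of_mem' {T : H0 →L[ℂ] H0} (hT : T ∈ (vnC (cmp ι π '' (B : Set (H →L[ℂ] H)))).commutant) :
    ∀ c ∈ A, cmp ι π c * T = T * cmp ι π c := fun _ hc => mem_comm_iff.1 hT _ (R.cmp_mem hc)

lemma cmp_vac (x : H →L[ℂ] H) : cmp ι π x (π ξ) = π (x ξ) := by rw [cmp_apply, R.ιπ_ξ]

lemma sep {T : H0 →L[ℂ] H0} (hT : ∀ c ∈ B, cmp ι π c * T = T * cmp ι π c) (h : T (π ξ) = 0) :
    T = 0 := R.ext0 fun y hy => by
  have := congrArg (fun X : H0 →L[ℂ] H0 => X (π ξ)) (hT y hy)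
  simp only [ContinuousLinearMap.mul_apply, h, map_zero, R.cmp_vac] at this
  simp [← this]

lemma exists_md (hT : H3.KK.TT.{u}) (hξ : ξ ≠ 0) :
    Nonempty (H3.KK.MD (vnC (cmp ι π '' (B : Set (H →L[ℂ] H)))) (π ξ)) := by
  have hn : ‖π ξ‖ = ‖ξ‖ := by rw [← R.norm_ι, R.ιπ_ξ]
  have h0 : (‖ξ‖ : ℂ) ≠ 0 := by simpa using hξ
  obtain ⟨S⟩ := hT H0 (vnC (cmp ι π '' (B : Set (H →L[ℂ] H)))) (((‖ξ‖ : ℂ))⁻¹ • π ξ)
    ⟨by rw [norm_smul, hn]; simp [hξ], fun a ha h => R.sep (R.mem_red.1 ha) (by simpa [hξ] using h),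
      fun a ha h => R.symm.sep (R.of_mem' ha) (by simpa [hξ] using h)⟩
  have := mdScale S ‖ξ‖
  rw [smul_smul, mul_inv_cancel₀ h0, one_smul] at this
  exact ⟨this⟩

lemma corner_vac {a : H →L[ℂ] H} (ha : a ∈ A) (h1 : ∀ v, qA (a v) = a v) :
    a ξ = ι (cmp ι π a (π ξ)) := by rw [R.cmp_vac, R.ιπ_A ha, h1]

lemma corner_star {a : H →L[ℂ] H} (h1 : ∀ v, qA (a v) = a v) (v : H) : star a (qA v) = star a v := by
  refine ext_inner_left ℂ fun w => ?_
  rw [inner_st', inner_st', ← R.qA_proj.isSelfAdjoint.star_eq, inner_st',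
    h1]

lemma corner_star' {a : H →L[ℂ] H} (h2 : ∀ v, a (qA v) = a v) (v : H) :
    qA (star a v) = star a v := by
  refine ext_inner_left ℂ fun w => ?_
  rw [← R.qA_proj.isSelfAdjoint.star_eq, inner_st', inner_st', inner_st', h2]

lemma exists_lin (Ψ : (H →L[ℂ] H) →ₗ[ℂ] (H0 →L[ℂ] H0))
    (hΨ : ∀ x ∈ A, ∀ c ∈ B, cmp ι π c * Ψ x = Ψ x * cmp ι π c) :
    ∃ σ : (H →L[ℂ] H) →ₗ[ℂ] (H →L[ℂ] H), ∀ x ∈ A, σ x ∈ A ∧ (∀ v, qA (σ x v) = σ x v) ∧
      (∀ v, σ x (qA v) = σ x v) ∧ cmp ι π (σ x) = Ψ x ∧ ‖σ x‖ ≤ ‖Ψ x‖ := by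
  set P : Submodule ℂ (H →L[ℂ] H) := A.toStarSubalgebra.toSubalgebra.toSubmodule
  choose s h1 h2 h3 h4 h5 using fun x : P => R.exists_corner (Ψ x) (hΨ x x.2)
  let L : P →ₗ[ℂ] (H →L[ℂ] H) :=
    { toFun := s
      map_add' := fun x y => R.corner_ext (h1 _) (add_mem (h1 _) (h1 _)) (h2 _) (h3 _)
        (fun v => by simp [h2]) (fun v => by simp [h3]) (by
          rw [h4, Submodule.coe_add, map_add, ← h4, ← h4]; ext; simp)
      map_smul' := fun c x => R.corner_ext (h1 _) (vn_smul c (h1 _)) (h2 _) (h3 _)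
        (fun v => by simp [h2]) (fun v => by simp [h3]) (by
          rw [h4, Submodule.coe_smul, map_smul, ← h4]; ext; simp) }
  obtain ⟨σ, hσ⟩ := L.exists_extend
  refine ⟨σ, fun x hx => ?_⟩
  have : σ x = s ⟨x, hx⟩ := LinearMap.congr_fun hσ ⟨x, hx⟩
  rw [this]
  exact ⟨h1 _, h2 _, h3 _, h4 _, h5 _⟩

lemma cont_of_vac (X : ℝ → H →L[ℂ] H) (hX : ∀ t, X t ∈ A) (h2 : ∀ t v, X t (qA v) = X t v) (C : ℝ)
    (hC : ∀ t, ‖X t‖ ≤ C) (hc : Continuous fun t => X t ξ) (v : H) : Continuous fun t => X t v := by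
  refine continuous_of_uniform_approx_of_continuous fun U hU => ?_
  obtain ⟨ε, hε, hεU⟩ := Metric.mem_uniformity_dist.1 hU
  have hC0 : 0 ≤ C := (norm_nonneg _).trans (hC 0)
  obtain ⟨_, ⟨y, hy, rfl⟩, h⟩ := Metric.mem_closure_iff.1 (R.qA_range v) (ε / (C + 1)) (by positivity)
  refine ⟨fun t => y (X t ξ), y.continuous.comp hc, fun t => hεU ?_⟩
  beta_reduce
  rw [R.comm (hX t) hy, ← h2, dist_eq_norm, ← map_sub]
  rw [dist_eq_norm, lt_div_iff₀ (by positivity)] at h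
  have := (X t).le_opNorm (qA v - y ξ)
  have := hC t
  nlinarith [norm_nonneg (qA v - y ξ)]

/-- the calculus extended by zero -/
noncomputable def liftD (D : LineCalculus H0) : LineCalculus H where
  apply :=
    { toFun := fun f => ι ∘L D.apply f ∘L π + f 0 • (1 - ι ∘L π)
      map_one' := by ext v; simp
      map_mul' := fun f g => by
        ext v; simp [R.πι, smul_sub, smul_smul, mul_comm]
      map_zero' := by ext v; simp
      map_add' := fun f g => by ext v; simp [add_smul, smul_sub]; abel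
      commutes' := fun c => by
        ext v; simp [Algebra.algebraMap_eq_smul_one, smul_sub]
      map_star' := fun f => by
        ext v
        refine ext_inner_right ℂ fun w => ?_
        rw [inner_st, map_star]
        simp only [ContinuousLinearMap.add_apply, ContinuousLinearMap.comp_apply,
          ContinuousLinearMap.smul_apply, ContinuousLinearMap.sub_apply,
          ContinuousLinearMap.one_apply, inner_add_left, inner_add_right, inner_smul_left,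
          inner_smul_right, inner_sub_left, inner_sub_right, ← R.adj, ← R.adj', inner_st]
        simp }
  window := fun x ε hε => by
    obtain ⟨f, hf, hfx⟩ := D.window (π x) ε hε
    obtain ⟨g, hg1, -, hgc, hg⟩ := exists_continuous_one_zero_of_isCompact
      (isCompact_singleton (x := (0 : ℝ))) isClosed_empty (Set.disjoint_empty _)
    let b : ℝ →ᵇ ℂ := bcf g g.continuous 1 fun u => abs_le.2 ⟨by linarith [(hg u).1], (hg u).2⟩
    have hb : ‖1 - b‖ ≤ 1 := by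
      rw [BoundedContinuousFunction.norm_le zero_le_one]
      intro u
      have : (1 - b) u = ((1 - g u : ℝ) : ℂ) := by simp [b]
      rw [this, Complex.norm_real, Real.norm_eq_abs, abs_le]
      constructor <;> linarith [(hg u).1, (hg u).2]
    have hbs : HasCompactSupport (b : ℝ → ℂ) := hgc.comp_left (g := fun r : ℝ => (r : ℂ)) (by simp)
    refine ⟨b + (1 - b) * f, hbs.add hf.mul_left, ?_⟩
    have h0 : (b + (1 - b) * f) 0 = 1 := by
      have : g 0 = 1 := hg1 rfl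
      simp [b, this]
    have : (ι ∘L D.apply (b + (1 - b) * f) ∘L π + (b + (1 - b) * f) 0 • (1 - ι ∘L π)) x - x =
        ι (D.apply (1 - b) (D.apply f (π x) - π x)) := by
      rw [h0]; simp; abel
    change ‖(ι ∘L D.apply (b + (1 - b) * f) ∘L π + (b + (1 - b) * f) 0 • (1 - ι ∘L π)) x - x‖ < ε
    rw [this, R.norm_ι]
    refine (calc_apply_norm_le D _ _).trans_lt ?_
    nlinarith [norm_nonneg (D.apply f (π x) - π x)]

lemma liftD_ι (D : LineCalculus H0) (f : ℝ →ᵇ ℂ) (w : H0) :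
    (R.liftD D).apply f (ι w) = ι (D.apply f w) := by
  change (ι ∘L D.apply f ∘L π + f 0 • (1 - ι ∘L π)) (ι w) = _
  simp [R.πι]

end RD

end Crest.Agent.H1KK
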