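import Crest.Agent.H1KK.LiftA
import Crest.Agent.H1KK.TT2
import Crest.Agent.S0165

/-! Hyperreflexivity: Arveson's distance formula and S0165. -/

set_option autoImplicit false

namespace Crest.Agent.H1KK

open scoped InnerProductSpace

universe u
variable {H : Type u} [NormedAddCommGroup H] [InnerProductSpace ℂ H] [CompleteSpace H]

lemma exists_cyc {A : Type*} [Ring A] [StarRing A] [Algebra ℂ A] [StarModule ℂ A]
    (π : A →⋆ₐ[ℂ] (H →L[ℂ] H)) (S : StarSubalgebra ℂ A) (ξ : H) :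
    ∃ q : H →L[ℂ] H, ‖q‖ ≤ 1 ∧ star q = q ∧ (∀ y ∈ S, π y * q = q * π y) ∧ q ξ = ξ ∧
      ∀ η, (∀ y ∈ S, ⟪η, π y ξ⟫_ℂ = 0) → q η = 0 := by
  let g : S →ₗ[ℂ] H :=
    { toFun := fun c => π c.1 ξ, map_add' := fun _ _ => by simp, map_smul' := fun _ _ => by simp }
  set U := (LinearMap.range g).topologicalClosure
  have hinv : ∀ y ∈ S, ∀ w ∈ U, π y w ∈ U := by
    intro y hy w hw
    refine map_mem_closure (π y).continuous (show w ∈ closure (LinearMap.range g : Set H) from hw) ?_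
    rintro _ ⟨c, rfl⟩
    exact ⟨⟨y * c, mul_mem hy c.2⟩, by simp [g]⟩
  refine ⟨U.starProjection, U.starProjection_norm_le, isStarProjection_starProjection.isSelfAdjoint,
    fun y hy => ?_, ?_, fun η hη => ?_⟩
  · ext v
    simp only [mul_apply_eq_comp]
    symm
    refine Submodule.eq_starProjection_of_mem_orthogonal
      (hinv y hy _ (U.starProjection_apply_mem v)) ?_
    rw [← map_sub, Submodule.mem_orthogonal]
    intro w hw
    rw [← inner_st, ← map_star]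
    exact (Submodule.mem_orthogonal _ _).1 (U.sub_starProjection_mem_orthogonal v) _
      (hinv _ (star_mem hy) w hw)
  · rw [Submodule.starProjection_eq_self_iff]
    exact (LinearMap.range g).le_topologicalClosure ⟨1, by simp [g]⟩
  · rw [Submodule.starProjection_apply_eq_zero_iff, Submodule.orthogonal_closure,
      Submodule.mem_orthogonal']
    rintro _ ⟨c, rfl⟩; exact hη c.1 c.2

/-- Hahn–Banach form of the distance to a von Neumann algebra -/
lemma exists_near_of_dual (N : VonNeumannAlgebra H) (Y : H →L[ℂ] H) {c : ℝ} (hc : 0 ≤ c)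
    (h : ∀ (κ : Type) [Fintype κ] (ξ η : κ → H), (∀ z ∈ N, ∑ k, ⟪η k, z (ξ k)⟫_ℂ = 0) →
      ‖∑ k, ⟪η k, Y (ξ k)⟫_ℂ‖ ≤ c / 2 * ∑ k, (‖ξ k‖ ^ 2 + ‖η k‖ ^ 2)) :
    ∃ y ∈ N, ‖Y - y‖ ≤ c := by
  let ev : H → H → N → ℂ := fun ξ η z => ⟪η, (z : H →L[ℂ] H) ξ⟫_ℂ
  let T : Set ((N → ℂ) × ℝ) := {p | ∃ (κ : Type) (_ : Fintype κ) (ξ η : κ → H),
    p.1 = ∑ k, ev (ξ k) (η k) ∧
      p.2 ≤ ∑ k, ((⟪η k, Y (ξ k)⟫_ℂ).re - c / 2 * (‖ξ k‖ ^ 2 + ‖η k‖ ^ 2))}
  obtain ⟨g, hg⟩ := H9.KD.hb_cone T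
    ⟨Empty, inferInstance, Empty.elim, Empty.elim, by simp, by simp⟩ (by
      rintro p ⟨κ, _, ξ, η, h1, h2⟩ q ⟨κ', _, ξ', η', h1', h2'⟩
      refine ⟨κ ⊕ κ', inferInstance, Sum.elim ξ ξ', Sum.elim η η', ?_, ?_⟩
      · simp [h1, h1']
      · simp only [Prod.snd_add, Fintype.sum_sum_type, Sum.elim_inl, Sum.elim_inr]
        linarith) (by
      rintro r hr p ⟨κ, _, ξ, η, h1, h2⟩
      have hs : ((√r : ℝ) : ℂ) * (√r : ℝ) = r := by
        rw [← Complex.ofReal_mul, Real.mul_self_sqrt hr.le]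
      refine ⟨κ, inferInstance, fun k => ((√r : ℝ) : ℂ) • ξ k, fun k => ((√r : ℝ) : ℂ) • η k,
        ?_, ?_⟩
      · simp only [Prod.smul_fst, h1, Finset.smul_sum]
        refine Finset.sum_congr rfl fun k _ => ?_
        funext y
        simp [ev, ← mul_assoc, hs]
      · simp only [Prod.smul_snd, smul_eq_mul]
        refine (mul_le_mul_of_nonneg_left h2 hr.le).trans (le_of_eq ?_)
        rw [Finset.mul_sum]
        refine Finset.sum_congr rfl fun k _ => ?_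
        simp only [map_smul, inner_smul_left, inner_smul_right, Complex.conj_ofReal, ← mul_assoc,
          hs, norm_smul, Complex.norm_real, Real.norm_eq_abs, mul_pow, sq_abs,
          Real.sq_sqrt hr.le, Complex.re_ofReal_mul]
        ring) (by
      rintro r ⟨κ, _, ξ, η, h1, h2⟩
      have h3 := h κ ξ η (fun y hy => by
        have := congrFun h1 ⟨y, hy⟩
        simpa [ev, Finset.sum_apply] using this.symm)
      have h4 := (Complex.re_le_norm _).trans h3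
      rw [Finset.sum_sub_distrib, ← Finset.mul_sum, ← Complex.re_sum] at h2
      simp only at h2
      linarith) (by
      rintro e r ⟨κ, _, ξ, η, h1, h2⟩
      refine ⟨_, κ, inferInstance, fun k => -ξ k, η, ?_, le_rfl⟩
      simp only at h1
      simp only [h1, ← Finset.sum_neg_distrib]
      refine Finset.sum_congr rfl fun k _ => ?_
      funext y
      simp [ev])
  let G : (N → ℂ) →ₗ[ℂ] ℂ := Module.Dual.extendRCLike g
  have hre : ∀ e, (G e).re = g e := fun e => Module.Dual.re_extendRCLike_apply (𝕜 := ℂ) g e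
  have ev3 : ∀ ξ ξ' η, ev (ξ + ξ') η = ev ξ η + ev ξ' η := by
    intro ξ ξ' η; funext y; simp [ev]
  have ev4 : ∀ (a : ℂ) ξ η, ev (a • ξ) η = a • ev ξ η := by
    intro a ξ η; funext y; simp [ev]
  have ev1 : ∀ ξ η η', ev ξ (η + η') = ev ξ η + ev ξ η' := by
    intro ξ η η'; funext y; simp [ev]
  have ev2 : ∀ (a : ℂ) ξ η, ev ξ (a • η) = (starRingEnd ℂ) a • ev ξ η := by
    intro a ξ η; funext y; simp [ev, mul_comm]
  have hb1 : ∀ η ξ, ‖η‖ = 1 → ‖ξ‖ = 1 → ‖⟪η, Y ξ⟫_ℂ - G (ev ξ η)‖ ≤ c := by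
    intro η ξ h1 h2
    obtain ⟨a, ha, hz⟩ := Complex.exists_norm_eq_mul_self (⟪η, Y ξ⟫_ℂ - G (ev ξ η))
    have h := hg (ev (a • ξ) η)
      ((⟪η, Y (a • ξ)⟫_ℂ).re - c / 2 * (‖a • ξ‖ ^ 2 + ‖η‖ ^ 2)) ⟨Unit, inferInstance,
      fun _ => a • ξ, fun _ => η, by simp, by simp⟩
    rw [← hre, ev4, map_smul] at h
    have h3 := congrArg Complex.re hz
    simp only [map_smul, inner_smul_right, norm_smul, ha, smul_eq_mul, h1, h2] at h
    rw [mul_sub, Complex.sub_re, Complex.ofReal_re] at h3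
    linarith
  have hb : ∀ η ξ, ‖⟪η, Y ξ⟫_ℂ - G (ev ξ η)‖ ≤ c * ‖η‖ * ‖ξ‖ := by
    intro η ξ
    by_cases h1 : η = 0
    · subst h1
      have : ev ξ 0 = 0 := by funext y; simp [ev]
      simp [this]
    by_cases h2 : ξ = 0
    · subst h2
      have : ev 0 η = 0 := by funext y; simp [ev]
      simp [this]
    have h3 := hb1 (((‖η‖⁻¹ : ℝ) : ℂ) • η) (((‖ξ‖⁻¹ : ℝ) : ℂ) • ξ)
      (by rw [norm_smul]; simp [h1]) (by rw [norm_smul]; simp [h2])
    rw [ev4, ev2, map_smul, map_smul, map_smul, inner_smul_left, inner_smul_right,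
      Complex.conj_ofReal, smul_eq_mul, smul_eq_mul, mul_left_comm, ← mul_sub, ← mul_sub, norm_mul,
      norm_mul, Complex.norm_real, Complex.norm_real, norm_inv, norm_inv, norm_norm, norm_norm,
      inv_mul_le_iff₀ (norm_pos_iff.2 h2), inv_mul_le_iff₀ (norm_pos_iff.2 h1)] at h3
    linarith
  obtain ⟨D, hD1, hD2⟩ := exists_op_of_form (fun η ξ => ⟪η, Y ξ⟫_ℂ - G (ev ξ η)) c hc
    (by intro η η' ξ; rw [ev1, map_add, inner_add_left]; ring)
    (by intro a η ξ; rw [ev2, map_smul, inner_smul_left, smul_eq_mul]; ring)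
    (by intro η ξ ξ'; rw [ev3, map_add, map_add, inner_add_right]; ring)
    (by intro a η ξ; rw [ev4, map_smul, map_smul, inner_smul_right, smul_eq_mul]; ring) hb
  have hφ : ∀ η ξ, ⟪η, (Y - D) ξ⟫_ℂ = G (ev ξ η) := by
    intro η ξ
    rw [sub_apply, inner_sub_right, hD2]; ring
  refine ⟨Y - D, mem_iff_comm.2 fun a ha => ?_, by rwa [sub_sub_cancel]⟩
  ext ξ
  refine ext_inner_left ℂ fun η => ?_
  rw [mul_apply_eq_comp, mul_apply_eq_comp, hφ, ← inner_st, hφ]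
  congr 1
  funext w
  have : (w : H →L[ℂ] H) (a ξ) = a ((w : H →L[ℂ] H) ξ) :=
    congrArg (fun T => T ξ) (mem_comm_iff.1 ha w w.2)
  simp only [ev]
  rw [this, inner_st]

theorem exists_HR : ∃ C : ℝ, 1 ≤ C ∧ H3.KK.HR.{u} C := by
  obtain ⟨C, hC⟩ := Crest.Agent.S0165.result.{u}
  refine ⟨max C 1, le_max_right _ _, fun K _ _ _ P Y g hg hY => ?_⟩
  refine exists_near_of_dual _ Y (by positivity) fun κ _ ξ η h => ?_
  rcases isEmpty_or_nonempty κ with hκ | hκ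
  · simp
  set n := Fintype.card κ
  let e : κ ≃ Fin n := Fintype.equivFin κ
  let X : PiLp 2 (fun _ : Fin n => K) := WithLp.toLp 2 fun i => ξ (e.symm i)
  let Z : PiLp 2 (fun _ : Fin n => K) := WithLp.toLp 2 fun i => η (e.symm i)
  have hin : ∀ a : K →L[ℂ] K, ⟪Z, H9.KD.amp (K := K) (Fin n) a X⟫_ℂ = ∑ k, ⟪η k, a (ξ k)⟫_ℂ := fun a => by
    rw [PiLp.inner_apply, ← e.symm.sum_comp]; rfl
  obtain ⟨q, h1, h2, h3, h4, h5⟩ := exists_cyc (H9.KD.amp (K := K) (Fin n))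
    P.commutant.toStarSubalgebra X
  have h6 := h5 Z fun y hy => (hin y).trans (h y hy)
  let s : Fin n → K →L[ℂ] PiLp 2 (fun _ : Fin n => K) := fun j =>
    (PiLp.continuousLinearEquiv 2 ℂ (fun _ : Fin n => K)).symm.toContinuousLinearMap ∘L
      ContinuousLinearMap.single ℂ (fun _ : Fin n => K) j
  have hs : ∀ j w i, s j w i = if i = j then w else 0 := fun j w i => by
    simp [s, Pi.single_apply]
  have h7 := hC K P Y g hY n Fintype.card_pos (H9.KD.amp (K := K) (Fin n) Y) q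
    (fun i j => PiLp.proj 2 (fun _ : Fin n => K) i ∘L q ∘L s j) (fun _ _ => rfl)
    (fun i j => mem_iff_comm.2 fun z hz => by
      ext w
      have e1 : s j (z w) = H9.KD.amp (K := K) (Fin n) z (s j w) := by
        ext l; rw [H9.KD.amp_apply, hs, hs]; split_ifs <;> simp
      have e2 := congrArg (fun T => T (s j w) i) (h3 z hz)
      simp only [mul_apply_eq_comp, ContinuousLinearMap.comp_apply, e1]
      exact e2)
    (fun v i => by
      have : v = ∑ j, s j (v j) := by ext l; simp [hs]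
      conv_lhs => rw [this]
      simp)
  have e3 : ⟪Z, (H9.KD.amp (K := K) (Fin n) Y * q - q * H9.KD.amp (K := K) (Fin n) Y) X⟫_ℂ =
      ∑ k, ⟪η k, Y (ξ k)⟫_ℂ := by
    rw [sub_apply, mul_apply_eq_comp, mul_apply_eq_comp, h4, inner_sub_right, hin, ← h2, inner_st',
      h6, inner_zero_left, sub_zero]
  have e4 : ∑ k, (‖ξ k‖ ^ 2 + ‖η k‖ ^ 2) = ‖X‖ ^ 2 + ‖Z‖ ^ 2 := by
    rw [PiLp.norm_sq_eq_of_L2, PiLp.norm_sq_eq_of_L2, ← Finset.sum_add_distrib, ← e.symm.sum_comp]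
  rw [← e3, e4]
  have h8 : ‖H9.KD.amp (K := K) (Fin n) Y * q - q * H9.KD.amp (K := K) (Fin n) Y‖ ≤ max C 1 * g :=
    h7.trans (by
      calc C * g * ‖q‖ ≤ max C 1 * g * ‖q‖ := by gcongr; exact le_max_left _ _
        _ ≤ max C 1 * g * 1 := by gcongr
        _ = _ := mul_one _)
  refine (norm_inner_le_norm _ _).trans ?_
  calc _ ≤ ‖Z‖ * (max C 1 * g * ‖X‖) := by
        gcongr; exact (ContinuousLinearMap.le_opNorm _ _).trans (by gcongr)
    _ ≤ _ := by
        have : 0 ≤ max C 1 * g := by positivity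
        nlinarith [mul_nonneg this (sq_nonneg (‖X‖ - ‖Z‖))]

lemma Near.mono {M N : VonNeumannAlgebra H} {δ δ' : ℝ} (h : Near M N δ) (hδ : δ ≤ δ') :
    Near M N δ' := fun x hx h1 =>
  let ⟨y, h2, h3, h4⟩ := h x hx h1; ⟨y, h2, h3, h4.trans hδ⟩

lemma Near.exists_le {M N : VonNeumannAlgebra H} {δ : ℝ} (h : Near M N δ) {x : H →L[ℂ] H}
    (hx : x ∈ M) : ∃ y ∈ N, ‖y‖ ≤ ‖x‖ ∧ ‖x - y‖ ≤ δ * ‖x‖ := by
  by_cases h0 : x = 0
  · exact ⟨0, zero_mem _, by simp [h0]⟩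
  have hn : 0 < ‖x‖ := norm_pos_iff.2 h0
  obtain ⟨y, h1, h2, h3⟩ := h (((‖x‖⁻¹ : ℝ) : ℂ) • x) (vn_smul _ hx)
    (by rw [norm_smul]; simp [h0])
  refine ⟨(‖x‖ : ℂ) • y, vn_smul _ h1, by rw [norm_smul]; simpa using mul_le_of_le_one_right hn.le h2,
    ?_⟩
  have : x - (‖x‖ : ℂ) • y = (‖x‖ : ℂ) • (((‖x‖⁻¹ : ℝ) : ℂ) • x - y) := by
    rw [smul_sub, smul_smul, ← Complex.ofReal_mul, mul_inv_cancel₀ hn.ne']; simp
  rw [this, norm_smul, mul_comm]
  simpa using mul_le_mul_of_nonneg_right h3 hn.le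

lemma near_of_dist {M N : VonNeumannAlgebra H} {δ : ℝ} (hδ : 0 ≤ δ)
    (h : ∀ x ∈ M, ‖x‖ ≤ 1 → ∃ y ∈ N, ‖x - y‖ ≤ δ) : Near M N (2 * δ) := by
  intro x hx h1
  obtain ⟨y, hy, h2⟩ := h x hx h1
  have h3 : ‖y‖ ≤ 1 + δ := by
    have := norm_sub_norm_le y x
    rw [norm_sub_rev] at this; linarith
  have h4 : 0 < 1 + δ := by linarith
  refine ⟨(((1 + δ)⁻¹ : ℝ) : ℂ) • y, vn_smul _ hy, ?_, ?_⟩
  · rw [norm_smul, Complex.norm_real, Real.norm_of_nonneg (by positivity), inv_mul_le_iff₀ h4]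
    linarith
  · have : x - (((1 + δ)⁻¹ : ℝ) : ℂ) • y = (x - y) + ((δ * (1 + δ)⁻¹ : ℝ) : ℂ) • y := by
      rw [sub_add, ← one_smul ℂ y, smul_smul, smul_smul, ← sub_smul]
      congr 2
      rw [mul_one, mul_one]; norm_cast; field_simp; ring
    rw [this]
    refine (norm_add_le _ _).trans ?_
    rw [norm_smul, Complex.norm_real, Real.norm_of_nonneg (by positivity)]
    have : δ * (1 + δ)⁻¹ * ‖y‖ ≤ δ := by
      rw [mul_assoc]
      exact mul_le_of_le_one_right hδ (by rw [inv_mul_le_iff₀ h4]; linarith)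
    linarith

lemma Near.comm {C : ℝ} (hC : H3.KK.HR.{u} C) (hC0 : 0 ≤ C) {M N : VonNeumannAlgebra H} {δ : ℝ}
    (hδ : 0 ≤ δ) (h : Near N M δ) : Near M.commutant N.commutant (4 * C * δ) := by
  have := near_of_dist (M := M.commutant) (N := N.commutant) (δ := C * (2 * δ)) (by positivity)
    fun x hx h1 => hC H N x (2 * δ) (by positivity) fun a ha => by
      obtain ⟨m, hm, -, h3⟩ := h.exists_le ha
      have : x * a - a * x = x * (a - m) - (a - m) * x := by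
        rw [mul_sub, sub_mul, mem_comm_iff.1 hx m hm]; abel
      rw [this]
      refine (norm_sub_le _ _).trans ?_
      have h4 := norm_mul_le x (a - m)
      have h5 := norm_mul_le (a - m) x
      have h6 : ‖x‖ * ‖a - m‖ ≤ 1 * (δ * ‖a‖) := by gcongr
      nlinarith
  exact this.mono (le_of_eq (by ring))

end Crest.Agent.H1KK
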