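import Crest.Agent.H1KK.F1

/-! Amplification to the standing setting. -/

set_option autoImplicit false

namespace Crest.Agent.H1KK

open scoped InnerProductSpace

universe u
variable {H : Type u} [NormedAddCommGroup H] [InnerProductSpace ℂ H] [CompleteSpace H]

/-- `ℓ²(ℕ; H)` -/
abbrev LH (H : Type u) [NormedAddCommGroup H] : Type u := lp (fun _ : ℕ => H) 2

/-- diagonal operators -/
noncomputable def dgH : (H →L[ℂ] H) →⋆ₐ[ℂ] (LH H →L[ℂ] LH H) where
  toFun a := lp.mapCLM 2 (fun _ => a) (norm_nonneg a) fun _ => le_rfl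
  map_one' := by ext ζ l; simp
  map_mul' a b := by ext ζ l; simp
  map_zero' := by ext ζ l; simp
  map_add' a b := by ext ζ l; simp
  commutes' c := by ext ζ l; simp [Algebra.algebraMap_eq_smul_one]
  map_star' a := by
    ext1 x
    refine ext_inner_right ℂ fun y => ?_
    rw [inner_st]
    simp [lp.inner_eq_tsum, inner_st]

/-- diagonal operators -/
noncomputable abbrev dgh (a : H →L[ℂ] H) : LH H →L[ℂ] LH H := dgH (H := H) a

lemma dgh_apply (a : H →L[ℂ] H) (ζ : LH H) (l : ℕ) : dgh a ζ l = a (ζ l) := rfl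

/-- coordinate inclusions -/
noncomputable def sgl (k : ℕ) : H →L[ℂ] LH H := lp.singleContinuousLinearMap ℂ (fun _ : ℕ => H) 2 k

/-- coordinate evaluations -/
noncomputable def pj (k : ℕ) : LH H →L[ℂ] H := lp.evalCLM ℂ (fun _ : ℕ => H) 2 k

omit [CompleteSpace H] in
lemma sg_apply (k l : ℕ) (w : H) : sgl k w l = if l = k then w else 0 := by
  simp [sgl, lp.single_apply, Pi.single_apply]

omit [CompleteSpace H] in
lemma pj_apply (k : ℕ) (ζ : LH H) : pj k ζ = ζ k := rfl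

omit [CompleteSpace H] in
lemma inner_sg (k : ℕ) (w : H) (ζ : LH H) : ⟪sgl k w, ζ⟫_ℂ = ⟪w, pj k ζ⟫_ℂ :=
  lp.inner_single_left k w ζ

omit [CompleteSpace H] in
lemma norm_sg (k : ℕ) (w : H) : ‖sgl k w‖ = ‖w‖ :=
  lp.norm_single (E := fun _ : ℕ => H) (p := 2) (by simp) k w

omit [CompleteSpace H] in
lemma norm_pj (k : ℕ) (ζ : LH H) : ‖pj k ζ‖ ≤ ‖ζ‖ := lp.norm_apply_le_norm two_ne_zero ζ k

lemma dgh_sg (a : H →L[ℂ] H) (k : ℕ) (w : H) : dgh a (sgl k w) = sgl k (a w) := by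
  ext l; rw [dgh_apply, sg_apply, sg_apply]; split_ifs <;> simp

omit [CompleteSpace H] in
lemma ext_sg {F : Type*} [NormedAddCommGroup F] [NormedSpace ℂ F] {S T : LH H →L[ℂ] F}
    (h : ∀ k w, S (sgl k w) = T (sgl k w)) : S = T :=
  lp.ext_continuousLinearMap (by simp) fun k => ContinuousLinearMap.ext (h k)

lemma norm_dgh (a : H →L[ℂ] H) : ‖dgh a‖ ≤ ‖a‖ := NonUnitalStarAlgHom.norm_apply_le dgH a

/-- the corner -/
noncomputable def cor : (LH H →L[ℂ] LH H) →ₗ[ℂ] (H →L[ℂ] H) where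
  toFun T := pj 0 ∘L T ∘L sgl 0
  map_add' _ _ := by ext; simp
  map_smul' _ _ := by ext; simp

omit [CompleteSpace H] in
lemma cor_apply (T : LH H →L[ℂ] LH H) (w : H) : cor T w = T (sgl 0 w) 0 := rfl

omit [CompleteSpace H] in
lemma norm_cor (T : LH H →L[ℂ] LH H) : ‖cor T‖ ≤ ‖T‖ :=
  ContinuousLinearMap.opNorm_le_bound _ (norm_nonneg T) fun w =>
    (norm_pj 0 _).trans ((T.le_opNorm (sgl 0 w)).trans (by rw [norm_sg]))

lemma cor_dgh (a : H →L[ℂ] H) : cor (dgh a) = a := by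
  ext w; rw [cor_apply, dgh_sg, sg_apply, if_pos rfl]

lemma cor_comm {T : LH H →L[ℂ] LH H} {z : H →L[ℂ] H} (h : dgh z * T = T * dgh z) :
    z * cor T = cor T * z := by
  ext w
  have := congrArg (fun S : LH H →L[ℂ] LH H => S (sgl 0 w) 0) h
  simp only [mul_apply_eq_comp, dgh_sg, dgh_apply] at this
  exact this

/-- matrices over the commutant of `P` -/
noncomputable def mat (P : VonNeumannAlgebra H) : VonNeumannAlgebra (LH H) :=
  vnC (dgh '' (P : Set (H →L[ℂ] H)))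

lemma mem_mat {P : VonNeumannAlgebra H} {T : LH H →L[ℂ] LH H} :
    T ∈ mat P ↔ ∀ x ∈ P, dgh x * T = T * dgh x := by
  rw [mat, mem_vnC]
  refine ⟨fun h c hc => (h _ ⟨c, hc, rfl⟩).1, ?_⟩
  rintro h _ ⟨c, hc, rfl⟩
  exact ⟨h c hc, by rw [← map_star]; exact h _ (star_mem hc)⟩

lemma dgh_mem_mat {P : VonNeumannAlgebra H} {z : H →L[ℂ] H} (hz : z ∈ P.commutant) :
    dgh z ∈ mat P := mem_mat.2 fun x hx => by rw [← map_mul, ← map_mul, mem_comm_iff.1 hz x hx]

lemma mem_amp {P : VonNeumannAlgebra H} {T : LH H →L[ℂ] LH H} :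
    T ∈ (mat P).commutant ↔ ∃ x ∈ P, T = dgh x := by
  refine ⟨fun h => ⟨cor T, mem_iff_comm.2 fun z hz => cor_comm (mem_comm_iff.1 h _ (dgh_mem_mat hz)),
    ext_sg fun k w => ?_⟩, ?_⟩
  · have h1 : sgl k ∘L pj 0 ∈ mat P := mem_mat.2 fun x _ => by
      ext1 ζ
      simp only [mul_apply_eq_comp, ContinuousLinearMap.comp_apply, dgh_sg]; rfl
    have := congrArg (fun S : LH H →L[ℂ] LH H => S (sgl 0 w)) (mem_comm_iff.1 h _ h1)
    simp only [mul_apply_eq_comp, ContinuousLinearMap.comp_apply, pj_apply, sg_apply,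
      if_true] at this
    rw [dgh_sg, ← this, cor_apply]
  · rintro ⟨x, hx, rfl⟩
    exact mem_comm_iff.2 fun T hT => (mem_mat.1 hT x hx).symm

lemma Near.amp {P Q : VonNeumannAlgebra H} {δ : ℝ} (hδ : 0 ≤ δ) (h : Near P Q δ) :
    Near (mat P).commutant (mat Q).commutant δ := by
  intro T hT h1
  obtain ⟨x, hx, rfl⟩ := mem_amp.1 hT
  obtain ⟨y, h2, h3, h4⟩ := h x hx (by rw [← cor_dgh x]; exact (norm_cor _).trans h1)
  exact ⟨dgh y, mem_amp.2 ⟨y, h2, rfl⟩, (norm_dgh y).trans h3,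
    by rw [← map_sub]; exact (norm_dgh _).trans h4⟩

lemma exists_iso (H : Type u) [NormedAddCommGroup H] [InnerProductSpace ℂ H] [CompleteSpace H] :
    ∃ t : ℕ → LH H →L[ℂ] LH H, Iso t ∧ ∀ a x, dgh x * t a = t a * dgh x := by
  let V : ℕ → H →ₗᵢ[ℂ] LH H := fun k => ⟨(sgl k).toLinearMap, norm_sg k⟩
  have hV : ∀ a, OrthogonalFamily ℂ (fun _ : ℕ => H) fun k => V (Nat.pair a k) :=
    fun a k l hkl v w => by
      change ⟪sgl _ v, sgl _ w⟫_ℂ = 0
      rw [inner_sg, pj_apply, sg_apply, if_neg (by simpa using hkl), inner_zero_right]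
  let t : ℕ → LH H →L[ℂ] LH H := fun a => (hV a).linearIsometry.toContinuousLinearMap
  have ht : ∀ a k w, t a (sgl k w) = sgl (Nat.pair a k) w := fun a k w =>
    (hV a).linearIsometry_apply_single w
  refine ⟨t, fun a b => ext_sg fun k w => ?_, fun a x => ext_sg fun k w => ?_⟩
  · ext l
    refine ext_inner_left ℂ fun v => ?_
    rw [← pj_apply, ← pj_apply, ← inner_sg, ← inner_sg, mul_apply_eq_comp, inner_st', ht, ht,
      inner_sg, pj_apply, sg_apply]
    by_cases hab : a = b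
    · simp [hab, inner_sg, pj_apply, sg_apply]
    · simp [hab]
  · simp only [mul_apply_eq_comp, ht, dgh_sg]

lemma Lift.cor {P Q : VonNeumannAlgebra H} {P' Q' : VonNeumannAlgebra (LH H)} {c : ℝ} (hc : 0 ≤ c)
    (h : Lift P' Q' c) (hP : ∀ x ∈ P, dgh x ∈ P') (hQ : ∀ T ∈ Q', H1KK.cor T ∈ Q) : Lift P Q c := by
  obtain ⟨φ, hφ⟩ := h
  refine ⟨H1KK.cor ∘ₗ φ ∘ₗ (dgH (H := H)).toAlgHom.toLinearMap, fun x hx =>
    ⟨hQ _ (hφ _ (hP x hx)).1, ?_⟩⟩
  change ‖H1KK.cor (φ (dgh x)) - x‖ ≤ _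
  conv_lhs => rhs; rhs; rw [← cor_dgh x]
  rw [← map_sub]
  exact (norm_cor _).trans ((hφ _ (hP x hx)).2.trans (by gcongr; exact norm_dgh x))

/-- (F1) the lift in the standing setting gives the lift in general -/
theorem lift_gen
    (hL : ∀ c : ℝ, 0 < c → ∃ δ : ℝ, 0 < δ ∧ ∀ (H : Type u) [NormedAddCommGroup H]
      [InnerProductSpace ℂ H] [CompleteSpace H] (M N : VonNeumannAlgebra H)
      (t t' : ℕ → H →L[ℂ] H), Setting M N δ t t' → Lift M N c) (c : ℝ) (hc : 0 < c) :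
    ∃ δ : ℝ, 0 < δ ∧ ∀ (H : Type u) [NormedAddCommGroup H] [InnerProductSpace ℂ H]
      [CompleteSpace H] (M N : VonNeumannAlgebra H), Near M N δ → Near N M δ → Lift M N c := by
  obtain ⟨δ, hδ, h⟩ := hL c hc
  obtain ⟨C, hC1, hC⟩ := exists_HR.{u}
  have hC0 : 0 ≤ C := by linarith
  set d := δ / (4 * C) ^ 3 with hd
  have hd0 : 0 ≤ d := by positivity
  refine ⟨d, by positivity, fun H _ _ _ M N h1 h2 => ?_⟩
  have a1 := ((h1.comm hC hC0 hd0).amp (by positivity)).comm hC hC0 (by positivity)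
  have a2 := ((h2.comm hC hC0 hd0).amp (by positivity)).comm hC hC0 (by positivity)
  rw [VonNeumannAlgebra.commutant_commutant, VonNeumannAlgebra.commutant_commutant] at a1 a2
  have b1 := a1.amp (by positivity)
  have b2 := a2.amp (by positivity)
  have b3 := b2.comm hC hC0 (by positivity)
  have e3 : 4 * C * (4 * C * (4 * C * d)) = δ := by rw [hd]; field_simp
  have e2 : 4 * C * (4 * C * d) ≤ δ := by
    rw [← e3]; exact le_mul_of_one_le_left (by positivity) (by linarith)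
  obtain ⟨t, ht, ht2⟩ := exists_iso H
  obtain ⟨t', ht', ht2'⟩ := exists_iso (LH H)
  have key : ∀ P : VonNeumannAlgebra H, (∀ a, dgh (t a) ∈ (mat (mat P)).commutant) ∧
      ∀ a, t' a ∈ (mat (mat P)).commutant.commutant := fun P =>
    ⟨fun a => mem_amp.2 ⟨t a, mem_mat.2 fun x _ => ht2 a x, rfl⟩, fun a => by
      rw [VonNeumannAlgebra.commutant_commutant]; exact mem_mat.2 fun x _ => ht2' a x⟩
  have := h (LH (LH H)) _ _ (fun a => dgh (t a)) t' ⟨b1.mono e2, b2.mono e2, e3 ▸ b3, fun a b => by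
    rw [← map_star, ← map_mul, ht a b]; split_ifs <;> simp, ht', (key _).1, (key _).1, (key _).2,
    (key _).2⟩
  refine (this.cor hc.le (P := mat M.commutant) (Q := mat N.commutant)
    (fun x hx => mem_amp.2 ⟨x, hx, rfl⟩) fun T hT => ?_).cor hc.le
    (fun x hx => dgh_mem_mat (by rwa [VonNeumannAlgebra.commutant_commutant])) fun T hT =>
    mem_iff_comm.2 fun z hz => cor_comm (mem_mat.1 hT z hz)
  obtain ⟨x, hx, rfl⟩ := mem_amp.1 hT
  rwa [cor_dgh]

end Crest.Agent.H1KK
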