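import Crest.Agent.H1KK.F1b
import Crest.Agent.H9.KD3

/-! Homomorphisms near the identity are spatial. -/

set_option autoImplicit false

namespace Crest.Agent.H1KK

open scoped InnerProductSpace
open H9.KE

universe u
variable {H : Type u} [NormedAddCommGroup H] [InnerProductSpace ℂ H] [CompleteSpace H]

/-- a `⋆`-homomorphism `M → N` near the identity -/
def Hom (M N : VonNeumannAlgebra H) (γ : ℝ) (θ : (H →L[ℂ] H) →ₗ[ℂ] (H →L[ℂ] H)) : Prop :=
  (∀ x ∈ M, θ x ∈ N ∧ ‖θ x - x‖ ≤ γ * ‖x‖ ∧ θ (star x) = star (θ x)) ∧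
    ∀ x ∈ M, ∀ y ∈ M, θ (x * y) = θ x * θ y

lemma isUnit_of_near {s : H →L[ℂ] H} (h : ‖s - 1‖ < 1) : IsUnit s := by
  have := (Units.oneSub (1 - s) (by rwa [norm_sub_rev])).isUnit
  simpa using this

lemma Hom.one {M N : VonNeumannAlgebra H} {γ : ℝ} {θ} (h : Hom M N γ θ) (hγ : γ < 1)
    (h0 : 0 ≤ γ) : θ 1 = 1 := by
  have h1 := h.2 1 (one_mem _) 1 (one_mem _)
  have h2 : IsUnit (θ 1) := isUnit_of_near ((h.1 1 (one_mem _)).2.1.trans_lt
    ((mul_le_of_le_one_right h0 ContinuousLinearMap.norm_id_le).trans_lt hγ))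
  rw [mul_one] at h1
  exact (h2.mul_left_cancel (by rw [← h1, mul_one])).symm

local notation "K" => PiLp 2 (fun _ : Fin 2 => H)

lemma exists_intertwiner {C : ℝ} (hC : H3.KK.HR.{u} C) {M N : VonNeumannAlgebra H} {γ : ℝ} {θ}
    (h : Hom M N γ θ) (hγ : γ < 1) (h0 : 0 < γ) :
    ∃ s : H →L[ℂ] H, ‖s - 1‖ ≤ C * (16 * γ) ∧ ∀ x ∈ M, s * x = θ x * s := by
  let ρ : M.toStarSubalgebra →⋆ₐ[ℂ] (K →L[ℂ] K) :=
    { toFun := fun x => pos 0 0 x.1 + pos 1 1 (θ x.1)
      map_one' := by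
        ext ζ i; fin_cases i <;> simp [pos_apply, h.one hγ h0.le]
      map_mul' := fun x y => by
        ext ζ i; fin_cases i <;> simp [pos_apply, h.2 x.1 x.2 y.1 y.2]
      map_zero' := by ext ζ i; fin_cases i <;> simp [pos_apply]
      map_add' := fun x y => by ext ζ i; fin_cases i <;> simp [pos_apply]
      commutes' := fun c => by
        ext ζ i
        fin_cases i <;> simp [pos_apply, Algebra.algebraMap_eq_smul_one, h.one hγ h0.le]
      map_star' := fun x => by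
        have := star_add (R := K →L[ℂ] K) (pos 0 0 x.1) (pos 1 1 (θ x.1))
        rw [star_pos, star_pos, ← (h.1 x.1 x.2).2.2] at this
        exact this.symm }
  have ρ0 : ∀ x ζ, ρ x ζ 0 = x.1 (ζ 0) := fun x ζ => by
    change (pos 0 0 x.1 + pos 1 1 (θ x.1)) ζ 0 = _; simp [pos_apply]
  have ρ1 : ∀ x ζ, ρ x ζ 1 = θ x.1 (ζ 1) := fun x ζ => by
    change (pos 0 0 x.1 + pos 1 1 (θ x.1)) ζ 1 = _; simp [pos_apply]
  let S : K →L[ℂ] K := pos 0 0 1 + ((γ⁻¹ : ℝ) : ℂ) • (pos 1 0 1 - pos 1 1 1)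
  have S0 : ∀ ζ, S ζ 0 = ζ 0 := fun ζ => by simp [S, pos_apply]
  have S1 : ∀ ζ, S ζ 1 = ((γ⁻¹ : ℝ) : ℂ) • (ζ 0 - ζ 1) := fun ζ => by simp [S, pos_apply]
  have hn : ∀ ζ : K, ‖ζ‖ ≤ ‖ζ 0‖ + ‖ζ 1‖ := fun ζ => by
    rw [← sq_le_sq₀ (norm_nonneg _) (by positivity), PiLp.norm_sq_eq_of_L2, Fin.sum_univ_two]
    nlinarith [mul_nonneg (norm_nonneg (ζ 0)) (norm_nonneg (ζ 1))]
  have hS : ∀ b ζ, ‖S (ρ b ζ)‖ ≤ 4 * ‖b‖ * ‖S ζ‖ := fun b ζ => by
    have e : S (ρ b ζ) 1 = θ b.1 (S ζ 1) - ((γ⁻¹ : ℝ) : ℂ) • (θ b.1 - b.1) (S ζ 0) := by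
      rw [S1, S1, S0, ρ0, ρ1, map_smul, map_sub, sub_apply, ← smul_sub]; congr 1; abel
    have hb : ‖b‖ = ‖b.1‖ := rfl
    have h1 := (h.1 b.1 b.2).2.1
    have h2 : ‖θ b.1‖ ≤ 2 * ‖b.1‖ := by
      have := norm_sub_norm_le (θ b.1) b.1
      nlinarith [norm_nonneg b.1]
    have n0 := PiLp.norm_apply_le (S ζ) 0
    have n1 := PiLp.norm_apply_le (S ζ) 1
    have a0 : ‖S (ρ b ζ) 0‖ ≤ ‖b.1‖ * ‖S ζ‖ := by
      rw [S0, ρ0, ← S0]; exact (b.1.le_opNorm _).trans (by gcongr)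
    have a1 : ‖θ b.1 (S ζ 1)‖ ≤ 2 * ‖b.1‖ * ‖S ζ‖ := ((θ b.1).le_opNorm _).trans (by gcongr)
    have a2 : ‖((γ⁻¹ : ℝ) : ℂ) • (θ b.1 - b.1) (S ζ 0)‖ ≤ ‖b.1‖ * ‖S ζ‖ := by
      rw [norm_smul, Complex.norm_real, Real.norm_of_nonneg (by positivity), inv_mul_le_iff₀ h0,
        ← mul_assoc]
      exact ((θ b.1 - b.1).le_opNorm _).trans (by gcongr)
    have a3 := norm_sub_le (θ b.1 (S ζ 1)) (((γ⁻¹ : ℝ) : ℂ) • (θ b.1 - b.1) (S ζ 0))
    have a4 := hn (S (ρ b ζ))
    rw [e] at a4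
    rw [hb]; linarith
  have hv : ∀ T, T ∈ vnC (Set.range ρ) ↔ T ∈ (Set.range ρ).centralizer := fun T => by
    rw [mem_vnC]
    refine ⟨fun h s hs => (h s hs).1, ?_⟩
    rintro h _ ⟨b, rfl⟩
    exact ⟨h _ ⟨b, rfl⟩, by rw [← map_star]; exact h _ ⟨_, rfl⟩⟩
  obtain ⟨z, hz, hz2⟩ := hC K (vnC (Set.range ρ)).commutant (pos 1 0 1) (16 * γ) (by positivity)
    fun a ha => by
      have ha' : a ∈ (Set.range ρ).centralizer.centralizer := fun c hc =>
        mem_comm_iff.1 ha c ((hv c).2 hc)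
      have hp : ∀ k (ζ : K), a (PiLp.single 2 k (ζ k)) = PiLp.single 2 k (a ζ k) := fun k ζ => by
        have : pos k k (1 : H →L[ℂ] H) ∈ (Set.range ρ).centralizer := by
          rintro _ ⟨b, rfl⟩
          ext ζ i
          fin_cases i <;> fin_cases k <;> simp [pos_apply, ρ0, ρ1]
        exact (congrArg (fun T : K →L[ℂ] K => T ζ) (ha' _ this)).symm
      refine ContinuousLinearMap.opNorm_le_bound _ (by positivity) fun ζ => ?_
      let w : K := WithLp.toLp 2 fun _ => ζ 0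
      have e0 : a ζ 0 = a w 0 := by
        have h1 := congrArg (fun v : K => v 0) (hp 0 ζ)
        have h2 := congrArg (fun v : K => v 0) (hp 0 w)
        simp only [PiLp.single_eq_same] at h1 h2
        rw [← h1, ← h2]
      have e1 : (pos 1 0 (1 : H →L[ℂ] H) * a - a * pos 1 0 (1 : H →L[ℂ] H)) ζ =
          (PiLp.single 2 1 ((γ : ℂ) • S (a w) 1) : K) := by
        rw [sub_apply, mul_apply_eq_comp, mul_apply_eq_comp, pos_apply, pos_apply, S1, smul_smul,
          ← Complex.ofReal_mul, mul_inv_cancel₀ h0.ne', Complex.ofReal_one, one_smul,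
          PiLp.single_sub, ← hp 1 w, ← e0]
        rfl
      have h3 := H9.KD.single_bound ρ S 4 (by norm_num) hS a ha' w
      have h4 : ‖S w‖ ≤ ‖ζ‖ := by
        have := hn (S w)
        rw [S0, S1] at this
        have h5 := PiLp.norm_apply_le ζ 0
        simp only [w, sub_self, smul_zero, norm_zero, add_zero] at this
        exact this.trans h5
      rw [e1, PiLp.norm_single, norm_smul, Complex.norm_real, Real.norm_of_nonneg h0.le]
      calc _ ≤ γ * (4 * 4 * ‖a‖ * ‖ζ‖) := by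
            gcongr; exact (PiLp.norm_apply_le _ _).trans (h3.trans (by gcongr))
        _ = _ := by ring
  rw [VonNeumannAlgebra.commutant_commutant, hv] at hz
  let s : H →L[ℂ] H := PiLp.proj 2 (fun _ : Fin 2 => H) 1 ∘L z ∘L
    (PiLp.continuousLinearEquiv 2 ℂ (fun _ : Fin 2 => H)).symm.toContinuousLinearMap ∘L
      ContinuousLinearMap.single ℂ (fun _ : Fin 2 => H) 0
  have hs : ∀ w, s w = z (PiLp.single 2 0 w) 1 := fun w => rfl
  refine ⟨s, ContinuousLinearMap.opNorm_le_bound _ ((norm_nonneg _).trans hz2) fun w => ?_,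
    fun x hx => ?_⟩
  · have : (s - 1) w = -((pos 1 0 (1 : H →L[ℂ] H) - z) (PiLp.single 2 0 w) 1) := by
      simp [hs, pos_apply]
    rw [this, norm_neg]
    refine (PiLp.norm_apply_le _ _).trans
      (((pos 1 0 (1 : H →L[ℂ] H) - z).le_opNorm _).trans ?_)
    rw [PiLp.norm_single]; gcongr
  · ext w
    have h1 := congrArg (fun T : K →L[ℂ] K => T (PiLp.single 2 0 w) 1) (hz _ ⟨⟨x, hx⟩, rfl⟩)
    have h2 : ρ ⟨x, hx⟩ (PiLp.single 2 0 w) = PiLp.single 2 0 (x w) := by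
      ext i; fin_cases i <;> simp [ρ0, ρ1]
    simp only [mul_apply_eq_comp, ρ1, h2] at h1
    simp only [mul_apply_eq_comp, hs, h1]

lemma exists_polar {s : H →L[ℂ] H} {β : ℝ} (hs : ‖s - 1‖ ≤ β) (hβ : β ≤ 1 / 4) :
    ∃ u ∈ unitary (H →L[ℂ] H), ‖u - 1‖ ≤ 4 * β ∧
      ∀ x y, s * x = y * s → s * star x = star y * s → u * x = y * u := by
  have hβ0 : 0 ≤ β := (norm_nonneg _).trans hs
  have hsu : IsUnit s := isUnit_of_near (by linarith)
  set h := star s * s with hh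
  have h1 : ‖h - 1‖ ≤ 3 * β := by
    have : h - 1 = star (s - 1) * (s - 1) + star (s - 1) + (s - 1) := by
      rw [hh, star_sub, star_one]; noncomm_ring
    rw [this]
    refine norm_add₃_le.trans ?_
    have := norm_mul_le (star (s - 1)) (s - 1)
    rw [norm_star] at this ⊢
    nlinarith [norm_nonneg (s - 1)]
  have hp : 0 ≤ h := star_mul_self_nonneg s
  set a := CFC.sqrt h
  have ha : a * a = h := CFC.sqrt_mul_sqrt_self h
  have ha0 : 0 ≤ a := CFC.sqrt_nonneg h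
  have has : star a = a := (IsSelfAdjoint.of_nonneg ha0).star_eq
  have hau : IsUnit a := isUnit_mul_self_iff.1 (ha ▸ hsu.star.mul hsu)
  obtain ⟨r, hr1, hr2⟩ := isUnit_iff_exists.1 hau
  have hrs : star r = r := by
    have := congrArg star hr2
    rw [star_mul, has, star_one] at this
    rw [← one_mul (star r), ← hr2, mul_assoc, this, mul_one]
  have h2 : ‖a - 1‖ ≤ 3 * β := ContinuousLinearMap.opNorm_le_bound _ (by positivity) fun w => by
    have e : (h - 1) w = a ((a - 1) w) + (a - 1) w := by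
      rw [← ha]; simp
    have h3 : ‖(a - 1) w‖ ≤ ‖(h - 1) w‖ := by
      rw [e, ← sq_le_sq₀ (norm_nonneg _) (norm_nonneg _), @norm_add_sq ℂ]
      have := ((ContinuousLinearMap.nonneg_iff_isPositive a).1 ha0).re_inner_nonneg_left ((a - 1) w)
      nlinarith [sq_nonneg ‖a ((a - 1) w)‖]
    exact h3.trans (((h - 1).le_opNorm w).trans (by gcongr))
  have hu1 : star (s * r) * (s * r) = 1 := by
    rw [star_mul, hrs, mul_assoc, ← mul_assoc (star s), ← hh, ← ha, mul_assoc, hr1, mul_one, hr2]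
  have hu : s * r ∈ unitary (H →L[ℂ] H) := by
    refine ⟨hu1, ?_⟩
    have : IsUnit (s * r) := hsu.mul (isUnit_iff_exists.2 ⟨a, hr2, hr1⟩)
    exact this.mul_right_cancel (by rw [mul_assoc, hu1, mul_one, one_mul])
  refine ⟨s * r, hu, ?_, fun x y e1 e2 => ?_⟩
  · have : s * r - 1 = (s - 1) - s * r * (a - 1) := by
      rw [mul_sub, mul_assoc, hr2]; noncomm_ring
    rw [this]
    refine (norm_sub_le _ _).trans ?_
    rw [CStarRing.norm_mem_unitary_mul _ hu]; linarith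
  · have e3 := congrArg star e2
    rw [star_mul, star_mul, star_star, star_star] at e3
    have e4 : Commute h x := by
      change star s * s * x = x * (star s * s)
      rw [mul_assoc, e1, ← mul_assoc, ← e3, mul_assoc]
    have e5 : Commute a x := e4.cfcₙ_nnreal _
    have e6 : r * x = x * r := by
      rw [← mul_one (r * x), ← hr1, mul_assoc, ← mul_assoc x, ← e5.eq, ← mul_assoc, ← mul_assoc,
        hr2, one_mul]
    rw [mul_assoc, e6, ← mul_assoc, e1, mul_assoc]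

lemma onto_of_near {M N : VonNeumannAlgebra H} {u : H →L[ℂ] H} (hu : u ∈ unitary (H →L[ℂ] H))
    (h1 : ‖u - 1‖ ≤ 1 / 8) (h2 : Near N M (1 / 4)) (h3 : ∀ x ∈ M, u * x * star u ∈ N) (y : H →L[ℂ] H)
    (hy : y ∈ N) : ∃ x ∈ M, y = u * x * star u := by
  let V : Set (H →L[ℂ] H) := {v | star u * v * u ∈ M}
  have e : ∀ v, u * (star u * v * u) * star u = v := fun v => by
    rw [← mul_assoc, ← mul_assoc, hu.2, one_mul, mul_assoc, hu.2, mul_one]
  have e' : ∀ v, star u * (u * v * star u) * u = v := fun v => by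
    rw [← mul_assoc, ← mul_assoc, hu.1, one_mul, mul_assoc, hu.1, mul_one]
  have hV : IsClosed V := (isClosed_vn M).preimage (f := fun v => star u * v * u) (by fun_prop)
  have hne : V.Nonempty := ⟨0, by simp [V]⟩
  refine ⟨_, ?_, (e y).symm⟩
  change y ∈ V
  rw [hV.mem_iff_infDist_zero hne]
  by_contra hd
  have hd0 : 0 < Metric.infDist y V := lt_of_le_of_ne Metric.infDist_nonneg (Ne.symm hd)
  obtain ⟨v, hv, h4⟩ := (Metric.infDist_lt_iff hne).1
    (show Metric.infDist y V < 2 * Metric.infDist y V by linarith)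
  obtain ⟨x, hx, h5, h6⟩ := h2.exists_le (sub_mem hy (e v ▸ h3 _ hv))
  have h7 : ‖x - u * x * star u‖ ≤ 1 / 4 * ‖y - v‖ := by
    have : x - u * x * star u = -((u - 1) * x) - u * (x * star (u - 1)) := by
      rw [star_sub, star_one]; noncomm_ring
    rw [this]
    refine (norm_sub_le _ _).trans ?_
    rw [CStarRing.norm_mem_unitary_mul _ hu, norm_neg]
    have a1 := norm_mul_le (u - 1) x
    have a2 := norm_mul_le x (star (u - 1))
    rw [norm_star] at a2
    have a3 : ‖u - 1‖ * ‖x‖ ≤ 1 / 8 * ‖y - v‖ := by gcongr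
    nlinarith
  have h8 : v + u * x * star u ∈ V := by
    change star u * (v + u * x * star u) * u ∈ M
    rw [mul_add, add_mul, e']; exact add_mem hv hx
  have h9 := Metric.infDist_le_dist_of_mem (x := y) h8
  rw [dist_eq_norm] at h4 h9
  have h10 : y - (v + u * x * star u) = (y - v - x) + (x - u * x * star u) := by abel
  have := norm_add_le (y - v - x) (x - u * x * star u)
  rw [← h10] at this
  linarith

/-- (F2) Newton's method -/
def Newton : Prop :=
  ∃ C δ₀ : ℝ, 0 < C ∧ 0 < δ₀ ∧ ∀ (H : Type u) [NormedAddCommGroup H] [InnerProductSpace ℂ H]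
    [CompleteSpace H] (M N : VonNeumannAlgebra H) (c : ℝ), 0 ≤ c → c ≤ δ₀ → Lift M N c →
    Lift N M c → ∃ θ, Hom M N (C * c) θ

theorem kk_of (hN : Newton.{u})
    (hL : ∀ c : ℝ, 0 < c → ∃ δ : ℝ, 0 < δ ∧ ∀ (H : Type u) [NormedAddCommGroup H]
      [InnerProductSpace ℂ H] [CompleteSpace H] (M N : VonNeumannAlgebra H)
      (t t' : ℕ → H →L[ℂ] H), Setting M N δ t t' → Lift M N c) (ε : ℝ) (hε : 0 < ε) :
    ∃ δ : ℝ, 0 < δ ∧ ∀ (H : Type u) [NormedAddCommGroup H] [InnerProductSpace ℂ H]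
      [CompleteSpace H] (M N : VonNeumannAlgebra H), Near M N δ → Near N M δ →
      ∃ u : H →L[ℂ] H, u ∈ unitary (H →L[ℂ] H) ∧ ‖u - 1‖ < ε ∧
        ∀ y : H →L[ℂ] H, y ∈ N ↔ ∃ x ∈ M, y = u * x * star u := by
  obtain ⟨C, δ₀, hC, hδ₀, hN⟩ := hN
  obtain ⟨D, hD1, hD⟩ := exists_HR.{u}
  set β := min (1 / 32) (ε / 8) with hβ
  have hβ0 : 0 < β := by positivity
  have hβ1 : β ≤ 1 / 32 := min_le_left _ _
  have hβ2 : β ≤ ε / 8 := min_le_right _ _
  set c := min (min δ₀ (1 / 4)) (β / (16 * D * C)) with hc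
  have hc0 : 0 < c := by positivity
  have hc1 : c ≤ δ₀ := (min_le_left _ _).trans (min_le_left _ _)
  have hc2 : c ≤ 1 / 4 := (min_le_left _ _).trans (min_le_right _ _)
  have hc3 : D * (16 * (C * c)) ≤ β := by
    have := min_le_right (min δ₀ (1 / 4)) (β / (16 * D * C))
    rw [← hc, le_div_iff₀ (by positivity)] at this
    linarith
  obtain ⟨δ, hδ, h⟩ := lift_gen hL c hc0
  refine ⟨min δ c, by positivity, fun H _ _ _ M N h1 h2 => ?_⟩
  obtain ⟨θ, hθ⟩ := hN H M N c hc0.le hc1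
    (h H M N (h1.mono (min_le_left _ _)) (h2.mono (min_le_left _ _)))
    (h H N M (h2.mono (min_le_left _ _)) (h1.mono (min_le_left _ _)))
  obtain ⟨s, hs1, hs2⟩ := exists_intertwiner hD hθ (by nlinarith [mul_pos hC hc0]) (by positivity)
  obtain ⟨u, hu, hu1, hu2⟩ := exists_polar (hs1.trans hc3) (by linarith)
  have key : ∀ x ∈ M, u * x * star u ∈ N := fun x hx => by
    rw [hu2 x (θ x) (hs2 x hx) (by rw [hs2 _ (star_mem hx), (hθ.1 x hx).2.2]), mul_assoc, hu.2,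
      mul_one]
    exact (hθ.1 x hx).1
  refine ⟨u, hu, by linarith, fun y => ⟨onto_of_near hu (by linarith)
    (h2.mono ((min_le_right _ _).trans hc2)) key y, ?_⟩⟩
  rintro ⟨x, hx, rfl⟩; exact key x hx

end Crest.Agent.H1KK
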