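import Crest.Agent.H1KK.TT2

/-! Gaussian kernels. -/

set_option autoImplicit false

namespace Crest.Agent.H1KK

open scoped InnerProductSpace BoundedContinuousFunction Real
open Crest.OpAlg Crest.Agent.H3Mod MeasureTheory

/-- the normalised Gaussian density of width `1/τ` -/
noncomputable def gd (τ t : ℝ) : ℝ := τ / √(2 * π) * Real.exp (-(τ ^ 2 / 2) * t ^ 2)

lemma gd_nonneg {τ : ℝ} (hτ : 0 < τ) (t : ℝ) : 0 ≤ gd τ t := by unfold gd; positivity

lemma integrable_gd {τ : ℝ} (hτ : 0 < τ) : Integrable (gd τ) :=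
  (integrable_exp_neg_mul_sq (by positivity)).const_mul _

lemma sqrt_aux {τ : ℝ} (hτ : 0 < τ) : τ / √(2 * π) * √(π / (τ ^ 2 / 2)) = 1 := by
  have : π / (τ ^ 2 / 2) = 2 * π / τ ^ 2 := by field_simp
  rw [this, Real.sqrt_div (by positivity), Real.sqrt_sq hτ.le]
  have : 0 < √(2 * π) := by positivity
  field_simp

lemma integral_gd {τ : ℝ} (hτ : 0 < τ) : ∫ t, gd τ t = 1 := by
  unfold gd
  rw [integral_const_mul, integral_gaussian, sqrt_aux hτ]

lemma fourier_gd {τ : ℝ} (hτ : 0 < τ) (u : ℝ) :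
    ∫ t, (gd τ t : ℂ) * Complex.exp (Complex.I * ((t * u : ℝ) : ℂ)) =
      ((Real.exp (-(u ^ 2 / (2 * τ ^ 2))) : ℝ) : ℂ) := by
  have h := fourierIntegral_gaussian (b := ((τ ^ 2 / 2 : ℝ) : ℂ)) (by rw [Complex.ofReal_re]; positivity) u
  have e : ∀ t : ℝ, (gd τ t : ℂ) * Complex.exp (Complex.I * ((t * u : ℝ) : ℂ)) =
      ((τ / √(2 * π) : ℝ) : ℂ) * (Complex.exp (Complex.I * u * t) *
        Complex.exp (-((τ ^ 2 / 2 : ℝ) : ℂ) * t ^ 2)) := by
    intro t
    unfold gd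
    push_cast
    rw [show Complex.I * (t * u) = Complex.I * u * t by ring]; ring
  simp_rw [e]
  rw [integral_const_mul, h]
  have h2 : ((π : ℂ) / ((τ ^ 2 / 2 : ℝ) : ℂ)) ^ (1 / 2 : ℂ) = ((√(π / (τ ^ 2 / 2)) : ℝ) : ℂ) := by
    rw [Real.sqrt_eq_rpow, Complex.ofReal_cpow (by positivity)]; push_cast; rfl
  rw [h2, ← mul_assoc, ← Complex.ofReal_mul, sqrt_aux hτ]
  push_cast
  rw [one_mul]; congr 1
  have : (τ : ℂ) ≠ 0 := by exact_mod_cast hτ.ne'
  field_simp; ring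

/-- modulated Gaussian kernel -/
noncomputable def gk (τ c t : ℝ) : ℂ := (gd τ t : ℂ) * Complex.exp (Complex.I * ((t * (-c) : ℝ) : ℂ))

lemma norm_gk {τ : ℝ} (hτ : 0 < τ) (c t : ℝ) : ‖gk τ c t‖ = gd τ t := by
  unfold gk
  rw [norm_mul, mul_comm Complex.I, Complex.norm_exp_ofReal_mul_I, mul_one, Complex.norm_real,
    Real.norm_of_nonneg (gd_nonneg hτ t)]

lemma continuous_gk (τ c : ℝ) : Continuous (gk τ c) := by unfold gk gd; fun_prop

lemma integrable_gk {τ : ℝ} (hτ : 0 < τ) (c : ℝ) : Integrable (gk τ c) :=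
  (integrable_gd hτ).mono' (continuous_gk τ c).aestronglyMeasurable
    (Filter.Eventually.of_forall fun t => (norm_gk hτ c t).le)

lemma integral_norm_gk {τ : ℝ} (hτ : 0 < τ) (c : ℝ) : ∫ t, ‖gk τ c t‖ = 1 := by
  simp_rw [norm_gk hτ]; exact integral_gd hτ

/-- the Gaussian bump centred at `c` of width `τ` -/
noncomputable def gb (τ c : ℝ) : ℝ →ᵇ ℂ :=
  bcf (fun u => Real.exp (-((u - c) ^ 2 / (2 * τ ^ 2)))) (by fun_prop) 1 fun u => by
    rw [abs_of_pos (Real.exp_pos _), Real.exp_le_one_iff]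
    have : 0 ≤ (u - c) ^ 2 / (2 * τ ^ 2) := by positivity
    linarith

lemma gb_apply (τ c u : ℝ) : gb τ c u = ((Real.exp (-((u - c) ^ 2 / (2 * τ ^ 2))) : ℝ) : ℂ) := rfl

lemma norm_gb (τ c : ℝ) : ‖gb τ c‖ ≤ 1 := norm_bcf _ _ _ _

lemma star_gb (τ c : ℝ) : star (gb τ c) = gb τ c := by
  ext u; simp only [BoundedContinuousFunction.star_apply, gb_apply]; exact Complex.conj_ofReal _

universe u
variable {H : Type u} [NormedAddCommGroup H] [InnerProductSpace ℂ H] [CompleteSpace H]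

lemma integral_gk_wave (D : LineCalculus H) {τ : ℝ} (hτ : 0 < τ) (c : ℝ) (x : H) :
    ∫ t, gk τ c t • D.wave t x = D.apply (gb τ c) x := by
  have := integral_wave D (gk τ c) (integrable_gk hτ c) 1 (gb τ c) (fun u => ?_) x
  · simpa using this
  · rw [gb_apply, ← fourier_gd hτ]
    congr 1; ext t
    unfold gk
    rw [mul_assoc, ← Complex.exp_add]; congr 2; push_cast; ring

lemma integrable_gk_smul {τ : ℝ} (hτ : 0 < τ) (c : ℝ) {E : Type*} [NormedAddCommGroup E]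
    [NormedSpace ℂ E] {f : ℝ → E} (hf : Continuous f) (C : ℝ) (h : ∀ t, ‖f t‖ ≤ C) :
    Integrable fun t => gk τ c t • f t :=
  Integrable.smul_of_top_left (integrable_gk hτ c)
    (memLp_top_of_bound hf.aestronglyMeasurable C (Filter.Eventually.of_forall h))

lemma gb_bound (D : LineCalculus H) {τ : ℝ} (hτ : 0 < τ) (c : ℝ) {κ : Type} [Fintype κ] (p : κ → ℝ)
    (a b : κ → H) (C : ℝ) (h : ∀ t, ‖∑ k, (p k : ℂ) * ⟪a k, D.wave t (b k)⟫_ℂ‖ ≤ C) :
    ‖∑ k, (p k : ℂ) * ⟪a k, D.apply (gb τ c) (b k)⟫_ℂ‖ ≤ C := by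
  have hi : ∀ k, Integrable fun t => gk τ c t • D.wave t (b k) := fun k =>
    integrable_gk_smul hτ c (continuous_wave D _) _ fun t => (norm_wave_apply D t _).le
  have e : ∑ k, (p k : ℂ) * ⟪a k, D.apply (gb τ c) (b k)⟫_ℂ =
      ∫ t, gk τ c t * ∑ k, (p k : ℂ) * ⟪a k, D.wave t (b k)⟫_ℂ := by
    simp_rw [Finset.mul_sum]
    rw [integral_finset_sum]
    · refine Finset.sum_congr rfl fun k _ => ?_
      rw [← integral_gk_wave D hτ, ← integral_inner (hi k), ← integral_const_mul]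
      congr 1; ext t; rw [inner_smul_right]; ring
    · intro k _
      have := ((hi k).const_inner (𝕜 := ℂ) (a k)).const_mul (p k : ℂ)
      refine this.congr (Filter.Eventually.of_forall fun t => ?_)
      simp only [inner_smul_right]; ring
  rw [e]
  refine (norm_integral_le_of_norm_le ((integrable_gd hτ).mul_const C)
    (Filter.Eventually.of_forall fun t => ?_)).trans ?_
  · rw [norm_mul, norm_gk hτ]; exact mul_le_mul_of_nonneg_left (h t) (gd_nonneg hτ t)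
  · rw [integral_mul_const, integral_gd hτ, one_mul]

/-- pointwise domination passes to the calculus -/
lemma calc_dom (D : LineCalculus H) {κ : Type*} (s : Finset κ) (f : κ → ℝ →ᵇ ℂ) (g : ℝ →ᵇ ℂ)
    (a b : ℝ) (h : ∀ u, ∑ k ∈ s, ‖f k u‖ ^ 2 ≤ a * ‖g u‖ ^ 2 + b) (x : H) :
    ∑ k ∈ s, ‖D.apply (f k) x‖ ^ 2 ≤ a * ‖D.apply g x‖ ^ 2 + b * ‖x‖ ^ 2 := by
  have key : ∀ f : ℝ →ᵇ ℂ, (⟪x, D.apply (star f * f) x⟫_ℂ).re = ‖D.apply f x‖ ^ 2 := by
    intro f
    rw [calc_mul_apply, map_star, inner_st', inner_self_eq_norm_sq_to_K]; norm_cast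
  set F : ℝ →ᵇ ℂ := (a : ℂ) • (star g * g) + (b : ℂ) • 1 - ∑ k ∈ s, star (f k) * f k
  have hF : ∀ u, F u = ((a * ‖g u‖ ^ 2 + b - ∑ k ∈ s, ‖f k u‖ ^ 2 : ℝ) : ℂ) := by
    intro u
    simp [F, Complex.conj_mul']
  have hc : Continuous fun u => a * ‖g u‖ ^ 2 + b - ∑ k ∈ s, ‖f k u‖ ^ 2 := by fun_prop
  let r : ℝ →ᵇ ℂ := bcf (fun u => √(a * ‖g u‖ ^ 2 + b - ∑ k ∈ s, ‖f k u‖ ^ 2)) hc.sqrt (√‖F‖)
    fun u => by
      rw [abs_of_nonneg (Real.sqrt_nonneg _)]
      refine Real.sqrt_le_sqrt ?_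
      have := F.norm_coe_le_norm u
      rw [hF, Complex.norm_real] at this
      exact (le_abs_self _).trans this
  have hr : star r * r = F := by
    ext u
    rw [hF]
    simp only [r, BoundedContinuousFunction.mul_apply, BoundedContinuousFunction.star_apply,
      bcf_apply, RCLike.star_def, Complex.conj_ofReal]
    rw [← Complex.ofReal_mul, Real.mul_self_sqrt (sub_nonneg.2 (h u))]
  have h0 : 0 ≤ (⟪x, D.apply F x⟫_ℂ).re := by rw [← hr, key]; positivity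
  simp only [F, map_sub, map_add, map_smul, map_sum, map_one, ContinuousLinearMap.sub_apply,
    ContinuousLinearMap.add_apply, ContinuousLinearMap.smul_apply, ContinuousLinearMap.sum_apply,
    ContinuousLinearMap.one_apply, inner_sub_right, inner_add_right, inner_smul_right, inner_sum,
    Complex.sub_re, Complex.add_re, Complex.re_sum, Complex.re_ofReal_mul, key] at h0
  rw [inner_self_eq_norm_sq_to_K] at h0
  have : (((‖x‖ : ℝ) : ℂ) ^ 2).re = ‖x‖ ^ 2 := by norm_cast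
  erw [this] at h0
  linarith

end Crest.Agent.H1KK
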