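import Crest.Agent.H1KK.TT3
import Crest.Agent.H1KK.Defs3

/-! `HasMD0` from Tomita–Takesaki. -/

set_option autoImplicit false

namespace Crest.Agent.H1KK

universe u
variable {H : Type u} [NormedAddCommGroup H] [InnerProductSpace ℂ H] [CompleteSpace H]

theorem hasMD0 (hT : H3.KK.TT.{u}) : HasMD0 H := fun M ξ =>
  (hasMD hT M ξ).elim fun S => ⟨⟨S.D, S.q, S.σ, S.ρ, S.q_mem, S.q_proj, S.q_fix, S.σ_mem, S.σ_norm,
    S.σ_star, S.σ_cont, S.σ_vac, S.ρ_mem, S.ρ_norm, S.ρ_star, S.ρ_cont, S.ρ_vac, S.half⟩⟩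

end Crest.Agent.H1KK
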