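import Crest.Agent.H1KK.AsmC
import Crest.Agent.H1KK.E4
import Crest.Agent.H1KK.TT5
import Crest.Agent.H3.KK.TT5
import Crest.Agent.H1KK.CoinA
import Crest.Agent.H1KK.EWrap
import Crest.Agent.H1KK.EUnit

/-! The linear lift in the standing setting. -/

set_option autoImplicit false

namespace Crest.Agent.H1KK

universe u

theorem lift_main : ∀ c : ℝ, 0 < c → ∃ δ₀ : ℝ, 0 < δ₀ ∧ ∀ δ : ℝ, 0 ≤ δ → δ ≤ δ₀ →
    ∀ (H : Type u) [NormedAddCommGroup H] [InnerProductSpace ℂ H] [CompleteSpace H]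
      (M N : VonNeumannAlgebra H) (t t' : ℕ → H →L[ℂ] H), Setting M N δ t t' → Lift M N c := by
  intro c hc
  obtain ⟨m₀, κ₀, hm, hκ, hE⟩ := emb2_of.{u}
  obtain ⟨δ₀, h0, h⟩ := lift_of_coin_emb.{u} hm hκ c hc
  exact ⟨δ₀, h0, fun δ h1 h2 H _ _ _ M N t t' hS =>
    h δ h1 h2 H coinA (hE H unit2 wrap (hasMD0 H3.KK.tomita_takesaki)) M N t t' hS⟩

end Crest.Agent.H1KK
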