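import Crest.Agent.H1KK.NewtonA
import Crest.Agent.H1KK.LiftA

/-! F2: from linear lifts to an exact `⋆`-homomorphism (iteration with quantitative `H²`, `H³`). -/

set_option autoImplicit false
set_option linter.unusedSectionVars false

namespace Crest.Agent.H1KK

open Filter Topology

universe u
variable {H : Type u} [NormedAddCommGroup H] [InnerProductSpace ℂ H] [CompleteSpace H]

/-- the symmetrisation `x ↦ ½ (f x + (f x⋆)⋆)` -/
noncomputable def symm {A B : Type*} [AddCommGroup A] [Module ℂ A] [StarAddMonoid A]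
    [StarModule ℂ A] [AddCommGroup B] [Module ℂ B] [StarAddMonoid B] [StarModule ℂ B]
    (f : A →ₗ[ℂ] B) : A →ₗ[ℂ] B where
  toFun x := (1 / 2 : ℂ) • (f x + star (f (star x)))
  map_add' x y := by simp only [star_add, map_add, smul_add]; abel
  map_smul' c x := by simp [smul_add, smul_comm c]

lemma symm_apply {A B : Type*} [AddCommGroup A] [Module ℂ A] [StarAddMonoid A]
    [StarModule ℂ A] [AddCommGroup B] [Module ℂ B] [StarAddMonoid B] [StarModule ℂ B]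
    (f : A →ₗ[ℂ] B) (x : A) : symm f x = (1 / 2 : ℂ) • (f x + star (f (star x))) := rfl

lemma symm_star {A B : Type*} [AddCommGroup A] [Module ℂ A] [StarAddMonoid A]
    [StarModule ℂ A] [AddCommGroup B] [Module ℂ B] [StarAddMonoid B] [StarModule ℂ B]
    (f : A →ₗ[ℂ] B) (x : A) : symm f (star x) = star (symm f x) := by
  simp [symm_apply, add_comm]

lemma norm_half_add_le {B : Type*} [NormedAddCommGroup B] [NormedSpace ℂ B] {a b : B} {r : ℝ}
    (ha : ‖a‖ ≤ r) (hb : ‖b‖ ≤ r) : ‖(1 / 2 : ℂ) • (a + b)‖ ≤ r := by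
  rw [norm_smul]
  have := norm_add_le a b
  have h2 : ‖(1 / 2 : ℂ)‖ = 1 / 2 := by simp
  rw [h2]; linarith

lemma nmul {B : Type*} [NormedRing B] {a b : B} {r s : ℝ} (ha : ‖a‖ ≤ r) (hb : ‖b‖ ≤ s) :
    ‖a * b‖ ≤ r * s :=
  (norm_mul_le _ _).trans (mul_le_mul ha hb (norm_nonneg _) ((norm_nonneg _).trans ha))

/-- the state of the iteration -/
structure NSt (M N : VonNeumannAlgebra H) (γ r : ℝ)
    (θ : M.toStarSubalgebra →L[ℂ] (H →L[ℂ] H)) : Prop where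
  mem : ∀ x, θ x ∈ N
  st : ∀ x, θ (star x) = star (θ x)
  near : ∀ x, ‖θ x - x‖ ≤ γ * ‖x‖
  mul : ∀ x y, ‖θ x * θ y - θ (x * y)‖ ≤ r * ‖x‖ * ‖y‖

theorem exists_corr {M N : VonNeumannAlgebra H} {c γ r s : ℝ} (hc : 0 ≤ c) (hγ : 0 ≤ γ) (hr : 0 ≤ r)
    (hs : c + γ ≤ s) (hs1 : s ≤ 1 / 4000) (hψ : Lift N M c)
    {θ : M.toStarSubalgebra →L[ℂ] (H →L[ℂ] H)} (h : NSt M N γ r θ) :
    ∃ g : M.toStarSubalgebra →ₗ[ℂ] M.toStarSubalgebra, (∀ x, ‖g x‖ ≤ 120 * r * ‖x‖) ∧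
      (∀ x, g (star x) = star (g x)) ∧ ∀ x y,
      ‖((x * g y - g (x * y) + g x * y : M.toStarSubalgebra) : H →L[ℂ] H) -
        (θ x * θ y - θ (x * y))‖ ≤ 385 * s * r * ‖x‖ * ‖y‖ := by
  obtain ⟨ψ, hψ⟩ := hψ
  have hs0 : 0 ≤ s := by linarith
  let D : M.toStarSubalgebra → M.toStarSubalgebra → H →L[ℂ] H := fun x y => θ x * θ y - θ (x * y)
  have hD : ∀ x y, D x y ∈ N := fun x y => sub_mem (mul_mem (h.mem x) (h.mem y)) (h.mem _)
  let F : M.toStarSubalgebra →ₗ[ℂ] M.toStarSubalgebra →ₗ[ℂ] M.toStarSubalgebra :=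
    LinearMap.mk₂ ℂ (fun x y => ⟨ψ (D x y), (hψ _ (hD x y)).1⟩)
      (fun x x' y => Subtype.ext (by
        show ψ (D (x + x') y) = ψ (D x y) + ψ (D x' y)
        rw [← map_add]; congr 1; simp only [D, add_mul, map_add]; abel))
      (fun a x y => Subtype.ext (by
        show ψ (D (a • x) y) = a • ψ (D x y)
        rw [← map_smul]; congr 1; simp only [D, smul_mul_assoc, map_smul, smul_sub]))
      (fun x y y' => Subtype.ext (by
        show ψ (D x (y + y')) = ψ (D x y) + ψ (D x y')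
        rw [← map_add]; congr 1; simp only [D, mul_add, map_add]; abel))
      (fun a x y => Subtype.ext (by
        show ψ (D x (a • y)) = a • ψ (D x y)
        rw [← map_smul]; congr 1; simp only [D, mul_smul_comm, map_smul, smul_sub]))
  have hFe : ∀ x y, (F x y : H →L[ℂ] H) = ψ (D x y) := fun x y => rfl
  clear_value F
  have hFD : ∀ x y, ‖(F x y : H →L[ℂ] H) - D x y‖ ≤ c * r * ‖x‖ * ‖y‖ := fun x y =>
    hFe x y ▸ (hψ _ (hD x y)).2.trans ((mul_le_mul_of_nonneg_left (h.mul x y) hc).trans_eq (by ring))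
  have hF : ∀ x y, ‖F x y‖ ≤ 2 * r * ‖x‖ * ‖y‖ := fun x y => by
    have h1 := norm_le_norm_sub_add (F x y : H →L[ℂ] H) (D x y)
    have h2 := hFD x y
    have h3 : ‖D x y‖ ≤ _ := h.mul x y
    have h4 : c * (r * ‖x‖ * ‖y‖) ≤ 1 * (r * ‖x‖ * ‖y‖) := by gcongr; linarith
    change ‖(F x y : H →L[ℂ] H)‖ ≤ _
    nlinarith
  obtain ⟨e, he1, he2⟩ := h3_vn M F (r := 4 * s * r) (by positivity) (fun x y z => by
    have e : ((x * F y z - F (x * y) z + F x (y * z) - F x y * z : M.toStarSubalgebra) :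
        H →L[ℂ] H) = (x * (F y z - D y z) - (F (x * y) z - D (x * y) z) +
          (F x (y * z) - D x (y * z)) - (F x y - D x y) * z) +
          (D x y * (θ z - z) - (θ x - x) * D y z) := by
      simp only [D, mul_assoc]
      push_cast
      noncomm_ring
    have hn : ∀ a : M.toStarSubalgebra, ‖a‖ = ‖(a : H →L[ℂ] H)‖ := fun a => rfl
    rw [hn (_ - _), e]
    have a1 := nmul (le_refl ‖(x : H →L[ℂ] H)‖) (hFD y z)
    have a2 := (hFD (x * y) z).trans (show _ ≤ c * r * (‖x‖ * ‖y‖) * ‖z‖ by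
      gcongr; exact norm_mul_le _ _)
    have a3 := (hFD x (y * z)).trans (show _ ≤ c * r * ‖x‖ * (‖y‖ * ‖z‖) by
      gcongr; exact norm_mul_le _ _)
    have a4 := nmul (hFD x y) (le_refl ‖(z : H →L[ℂ] H)‖)
    have a5 := nmul (h.mul x y) (h.near z)
    have a6 := nmul (h.near x) (h.mul y z)
    have a7 : (4 * c + 2 * γ) * (r * ‖x‖ * ‖y‖ * ‖z‖) ≤ 4 * s * (r * ‖x‖ * ‖y‖ * ‖z‖) := by
      gcongr; linarith
    refine (norm_add_le_of_le (norm_sub_le_of_le (norm_add_le_of_le (norm_sub_le_of_le a1 a2) a3)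
      a4) (norm_sub_le_of_le a5 a6)).trans ?_
    change ‖x‖ * _ + _ + _ + _ * ‖z‖ + _ ≤ _
    nlinarith)
  obtain ⟨g, hg1, hg2⟩ := h2_vn M (F - e) (r := 3 * r) (by positivity) (fun x y => by
    have h4 : 96 * (4 * s) * (r * ‖x‖ * ‖y‖) ≤ 1 * (r * ‖x‖ * ‖y‖) := by gcongr; linarith
    refine (norm_sub_le_of_le (hF x y) (he1 x y)).trans ?_
    nlinarith) (fun x y z => by
    simp only [LinearMap.sub_apply, mul_sub, sub_mul]
    rw [← sub_eq_zero.2 (he2 x y z).symm]; abel)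
  have key : ∀ x y, ‖((x * g y - g (x * y) + g x * y : M.toStarSubalgebra) : H →L[ℂ] H) -
      D x y‖ ≤ 385 * s * r * ‖x‖ * ‖y‖ := fun x y => by
    rw [hg2]
    have e : (((F - e) x y : M.toStarSubalgebra) : H →L[ℂ] H) - D x y =
        (F x y - D x y) - e x y := by simp; abel
    rw [e]
    have h4 : c * (r * ‖x‖ * ‖y‖) ≤ s * (r * ‖x‖ * ‖y‖) := by gcongr; linarith
    refine (norm_sub_le_of_le (hFD x y) (he1 x y)).trans ?_
    nlinarith
  refine ⟨symm g, fun x => norm_half_add_le ((hg1 x).trans_eq (by ring)) ?_, symm_star g,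
    fun x y => ?_⟩
  · rw [norm_star]
    exact (hg1 _).trans_eq (by rw [norm_star]; ring)
  · have h1 := key (star y) (star x)
    rw [← norm_star, norm_star x, norm_star y, mul_right_comm] at h1
    refine le_trans (le_of_eq ?_) (norm_half_add_le (key x y) h1)
    congr 1
    simp only [D, symm_apply, ← star_mul, h.st]
    push_cast
    simp only [star_sub, star_add, star_mul, star_star, mul_smul_comm, smul_mul_assoc, mul_add,
      add_mul, StarMemClass.coe_star]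
    module

theorem newton_step {M N : VonNeumannAlgebra H} {c γ r s : ℝ} (hc : 0 ≤ c) (hγ : 0 ≤ γ)
    (hr : 0 ≤ r) (hs : c + γ ≤ s) (hs1 : s ≤ 1 / 4000) (hr1 : r ≤ 1 / 230400) (hψ : Lift N M c)
    {φ : M.toStarSubalgebra →L[ℂ] (H →L[ℂ] H)} {r₀ : ℝ} (hφ : NSt M N c r₀ φ)
    {θ : M.toStarSubalgebra →L[ℂ] (H →L[ℂ] H)} (h : NSt M N γ r θ) :
    ∃ θ', NSt M N (γ + 240 * r) (r / 2) θ' ∧ ‖θ - θ'‖ ≤ 240 * r := by
  obtain ⟨g, h1, h2, h3⟩ := exists_corr hc hγ hr hs hs1 hψ h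
  have hs0 : 0 ≤ s := by linarith
  let k := φ.comp (g.mkContinuous _ h1)
  have hk : ∀ x, k x = φ (g x) := fun x => rfl
  have k1 : ∀ x, ‖k x - g x‖ ≤ c * (120 * r * ‖x‖) := fun x =>
    (hφ.near _).trans (mul_le_mul_of_nonneg_left (h1 x) hc)
  have k2 : ∀ x, ‖k x‖ ≤ 240 * r * ‖x‖ := fun x => by
    have a1 := norm_le_norm_sub_add (k x) (g x)
    have a2 := k1 x
    have a3 : ‖(g x : H →L[ℂ] H)‖ ≤ _ := h1 x
    have h4 : c * (r * ‖x‖) ≤ 1 * (r * ‖x‖) := by gcongr; linarith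
    nlinarith
  refine ⟨θ - k, ⟨fun x => sub_mem (h.mem x) (hφ.mem _), fun x => ?_, fun x => ?_,
    fun x y => ?_⟩, ?_⟩
  · simp only [sub_apply, hk, h.st, h2, hφ.st, star_sub]
  · rw [sub_apply, sub_right_comm]
    exact (norm_sub_le_of_le (h.near x) (k2 x)).trans_eq (by ring)
  · have e : (θ - k) x * (θ - k) y - (θ - k) (x * y) =
        -(((x * g y - g (x * y) + g x * y : M.toStarSubalgebra) : H →L[ℂ] H) -
          (θ x * θ y - θ (x * y))) - ((θ x - x) * k y + x * (k y - g y)) -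
          (k x * (θ y - y) + (k x - g x) * y) + (k (x * y) - g (x * y)) + k x * k y := by
      simp only [sub_apply]
      push_cast
      noncomm_ring
    rw [e]
    have a0 := (norm_neg _).trans_le (h3 x y)
    have a1 := nmul (h.near x) (k2 y)
    have a2 := nmul (le_refl ‖(x : H →L[ℂ] H)‖) (k1 y)
    have a3 := nmul (k2 x) (h.near y)
    have a4 := nmul (k1 x) (le_refl ‖(y : H →L[ℂ] H)‖)
    have a5 := (k1 (x * y)).trans (show _ ≤ c * (120 * r * (‖x‖ * ‖y‖)) by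
      gcongr; exact norm_mul_le _ _)
    have a6 := nmul (k2 x) (k2 y)
    refine (norm_add_le_of_le (norm_add_le_of_le (norm_sub_le_of_le (norm_sub_le_of_le a0
      (norm_add_le_of_le a1 a2)) (norm_add_le_of_le a3 a4)) a5) a6).trans ?_
    change _ + (_ + ‖x‖ * _) + (_ + _ * ‖y‖) + _ + _ ≤ _
    have a7 : (385 * s + 480 * γ + 360 * c + 57600 * r) * (r * ‖x‖ * ‖y‖) ≤
        (1 / 2) * (r * ‖x‖ * ‖y‖) := by gcongr; linarith
    nlinarith
  · rw [sub_sub_cancel]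
    exact ContinuousLinearMap.opNorm_le_bound _ (by positivity) k2

theorem exists_start {M N : VonNeumannAlgebra H} {c : ℝ} (hc : 0 ≤ c) (hc1 : c ≤ 1)
    (hφ : Lift M N c) : ∃ φ, NSt M N c (4 * c) φ := by
  obtain ⟨φ₀, h⟩ := hφ
  let φ₂ : M.toStarSubalgebra →ₗ[ℂ] (H →L[ℂ] H) :=
    φ₀.comp M.toStarSubalgebra.toSubalgebra.val.toLinearMap
  let φ₁ := symm φ₂
  have h0 : ∀ x : M.toStarSubalgebra,
      φ₁ x = (1 / 2 : ℂ) • (φ₀ x + star (φ₀ (star (x : H →L[ℂ] H)))) := fun x => rfl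
  have h1 : ∀ x : M.toStarSubalgebra, ‖φ₁ x - x‖ ≤ c * ‖x‖ := fun x => by
    have a1 := (h _ (star_mem x.2)).2
    rw [← norm_star, norm_star (x : H →L[ℂ] H)] at a1
    refine le_trans (le_of_eq ?_) (norm_half_add_le (h _ x.2).2 a1)
    congr 1
    rw [h0, star_sub, star_star]
    module
  have h2 : ∀ x : M.toStarSubalgebra, ‖φ₁ x‖ ≤ 2 * ‖x‖ := fun x => by
    have a1 := norm_le_norm_sub_add (φ₁ x) x
    have a2 := h1 x
    have a3 : c * ‖x‖ ≤ 1 * ‖x‖ := by gcongr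
    change _ ≤ _ + ‖x‖ at a1
    linarith
  refine ⟨φ₁.mkContinuous 2 h2, fun x => ?_, fun x => symm_star _ x, h1, fun x y => ?_⟩
  · exact N.toStarSubalgebra.smul_mem (add_mem (h _ x.2).1 (star_mem (h _ (star_mem x.2)).1)) _
  · have e : φ₁ x * φ₁ y - φ₁ (x * y) = (φ₁ x - x) * φ₁ y + x * (φ₁ y - y) -
        (φ₁ (x * y) - (x * y : M.toStarSubalgebra)) := by
      push_cast
      noncomm_ring
    change ‖φ₁ x * φ₁ y - φ₁ (x * y)‖ ≤ _
    rw [e]
    have a1 := nmul (h1 x) (h2 y)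
    have a2 := nmul (le_refl ‖(x : H →L[ℂ] H)‖) (h1 y)
    have a3 := (h1 (x * y)).trans (show _ ≤ c * (‖x‖ * ‖y‖) by gcongr; exact norm_mul_le _ _)
    refine (norm_sub_le_of_le (norm_add_le_of_le a1 a2) a3).trans (le_of_eq ?_)
    change _ + ‖x‖ * _ + _ = _
    ring

theorem exists_hom {M N : VonNeumannAlgebra H} {c : ℝ} (hc : 0 ≤ c) (hc1 : c ≤ 1 / 10 ^ 7)
    (hφ : Lift M N c) (hψ : Lift N M c) : ∃ θ, NSt M N (1921 * c) 0 θ := by
  obtain ⟨φ, h0⟩ := exists_start hc (by linarith) hφ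
  let P : ℕ → (M.toStarSubalgebra →L[ℂ] (H →L[ℂ] H)) → Prop := fun n θ =>
    NSt M N (1921 * c - 1920 * c * (1 / 2) ^ n) (4 * c * (1 / 2) ^ n) θ
  have hp : ∀ n : ℕ, 0 ≤ c * (1 / 2) ^ n ∧ c * (1 / 2) ^ n ≤ c := fun n =>
    ⟨by positivity, mul_le_of_le_one_right hc (pow_le_one₀ (by norm_num) (by norm_num))⟩
  have step : ∀ n θ, P n θ → ∃ θ', P (n + 1) θ' ∧ ‖θ - θ'‖ ≤ 960 * c * (1 / 2) ^ n := by
    intro n θ h
    obtain ⟨a1, a2⟩ := hp n
    obtain ⟨θ', h1, h2⟩ := newton_step (s := 1922 * c) hc (by nlinarith) (by positivity)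
      (by nlinarith) (by linarith) (by nlinarith) hψ h0 h
    refine ⟨θ', ?_, h2.trans_eq (by ring)⟩
    convert h1 using 1 <;> ring
  choose! f hf1 hf2 using step
  let u : ℕ → (M.toStarSubalgebra →L[ℂ] (H →L[ℂ] H)) := fun n => Nat.rec φ f n
  have hu : ∀ n, P n (u n) := fun n => by
    induction n with
    | zero => show NSt _ _ _ _ φ; convert h0 using 1 <;> ring
    | succ n ih => exact hf1 n _ ih
  obtain ⟨θ, hθ⟩ := cauchySeq_tendsto_of_complete (cauchySeq_of_le_geometric (1 / 2) (960 * c)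
    (by norm_num) (f := u) fun n => by rw [dist_eq_norm]; exact hf2 n _ (hu n))
  have hl : ∀ x, Tendsto (fun n => u n x) atTop (𝓝 (θ x)) := fun x =>
    ((ContinuousLinearMap.apply ℂ (H →L[ℂ] H) x).continuous.tendsto θ).comp hθ
  refine ⟨θ, fun x => (isClosed_vn N).mem_of_tendsto (hl x) (.of_forall fun n => (hu n).mem x),
    fun x => tendsto_nhds_unique (hl _) ((hl x).star.congr fun n => ((hu n).st x).symm),
    fun x => le_of_tendsto' ((hl x).sub_const _).norm fun n => ((hu n).near x).trans ?_,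
    fun x y => ?_⟩
  · gcongr
    have := (hp n).1
    nlinarith
  · refine le_of_tendsto_of_tendsto' (((hl x).mul (hl y)).sub (hl _)).norm ?_
      fun n => (hu n).mul x y
    have := (((tendsto_pow_atTop_nhds_zero_of_lt_one (r := (1 / 2 : ℝ)) (by norm_num)
      (by norm_num)).const_mul (4 * c)).mul_const ‖x‖).mul_const ‖y‖
    simpa using this

theorem newton : ∃ C δ₀ : ℝ, 0 < C ∧ 0 < δ₀ ∧ ∀ (H : Type u) [NormedAddCommGroup H]
    [InnerProductSpace ℂ H] [CompleteSpace H] (M N : VonNeumannAlgebra H) (c : ℝ), 0 ≤ c → c ≤ δ₀ →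
    Lift M N c → Lift N M c → ∃ θ : (H →L[ℂ] H) →ₗ[ℂ] (H →L[ℂ] H),
      (∀ x ∈ M, θ x ∈ N ∧ ‖θ x - x‖ ≤ C * c * ‖x‖ ∧ θ (star x) = star (θ x)) ∧
      ∀ x ∈ M, ∀ y ∈ M, θ (x * y) = θ x * θ y := by
  refine ⟨1921, 1 / 10 ^ 7, by norm_num, by norm_num, fun H _ _ _ M N c hc hc1 hφ hψ => ?_⟩
  obtain ⟨θ₀, h⟩ := exists_hom hc hc1 hφ hψ
  obtain ⟨θ, hθ⟩ := LinearMap.exists_extend (p := M.toStarSubalgebra.toSubalgebra.toSubmodule)
    θ₀.toLinearMap
  have e : ∀ x (hx : x ∈ M), θ x = θ₀ ⟨x, hx⟩ := fun x hx => LinearMap.congr_fun hθ ⟨x, hx⟩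
  refine ⟨θ, fun x hx => ?_, fun x hx y hy => ?_⟩
  · rw [e x hx, e _ (star_mem hx)]
    exact ⟨h.mem _, h.near ⟨x, hx⟩, h.st ⟨x, hx⟩⟩
  · rw [e x hx, e y hy, e _ (mul_mem hx hy)]
    have := h.mul ⟨x, hx⟩ ⟨y, hy⟩
    rw [zero_mul, zero_mul, norm_le_zero_iff, sub_eq_zero] at this
    exact this.symm

end Crest.Agent.H1KK
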