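import Crest.Agent.S0161

/-! Quantitative vanishing of `H²` and `H³` in curried form. -/

set_option autoImplicit false

namespace Crest.Agent.H1KK

open Crest.Agent.H8.KR Crest.OpAlg

variable {H : Type*} [NormedAddCommGroup H] [InnerProductSpace ℂ H] [CompleteSpace H]

theorem sol_vn (M : VonNeumannAlgebra H) {k : ℕ}
    (f : MultilinearMap ℂ (fun _ : Fin k => M.toStarSubalgebra) M.toStarSubalgebra) {r : ℝ}
    (hr : 0 ≤ r) (hb : ∀ a, ‖f a‖ ≤ r * ∏ i, ‖a i‖) (hf : ∀ a, hochschildDiff f a = 0) :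
    Sol (fun k => (k + 2) * 2 ^ k * r) 1 (ofC f) := by
  have hC : ∀ c ∈ (M.commutant : Set (H →L[ℂ] H)), star c ∈ (M.commutant : Set (H →L[ℂ] H)) :=
    fun c hc => star_mem hc
  have hS : ∀ a, a ∈ M.toStarSubalgebra ↔ a ∈ (M.commutant : Set (H →L[ℂ] H)).centralizer :=
    fun a => by rw [← VonNeumannAlgebra.coe_commutant, VonNeumannAlgebra.commutant_commutant]; rfl
  exact sol_one hC hS (H4.KR.trichotomy hC) (H2.KRB.cmean hC hS)
    (fun z hz h => H2.KRB.zmean_typeI hC hS z hz h)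
    (fun z hz h => H5.KR.zmean_typeII (fun A _ => H1KR.trMean A) hC _ hS z hz h)
    (c := fun _ => r) ⟨ofC_lin f, ofC_left _, ofC_right _,
      (ofC_bd (f.mkContinuous r hb)).mono fun _ => f.mkContinuous_norm_le hr hb⟩
    (ofC_cocycle _ hf)

theorem h2_vn (M : VonNeumannAlgebra H)
    (F : M.toStarSubalgebra →ₗ[ℂ] M.toStarSubalgebra →ₗ[ℂ] M.toStarSubalgebra) {r : ℝ}
    (hr : 0 ≤ r) (hb : ∀ x y, ‖F x y‖ ≤ r * ‖x‖ * ‖y‖)
    (hF : ∀ x y z, x * F y z - F (x * y) z + F x (y * z) - F x y * z = 0) :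
    ∃ g : M.toStarSubalgebra →ₗ[ℂ] M.toStarSubalgebra, (∀ x, ‖g x‖ ≤ 40 * r * ‖x‖) ∧
      ∀ x y, x * g y - g (x * y) + g x * y = F x y := by
  let f : MultilinearMap ℂ (fun _ : Fin 2 => M.toStarSubalgebra) M.toStarSubalgebra :=
    { toFun := fun a => F (a 0) (a 1)
      map_update_add' := by
        intro inst a i x y
        cases Subsingleton.elim inst (instDecidableEqFin 2)
        fin_cases i <;> simp
      map_update_smul' := by
        intro inst a i c x
        cases Subsingleton.elim inst (instDecidableEqFin 2)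
        fin_cases i <;> simp }
  obtain ⟨G, h1, h2⟩ := sol_vn M f hr (fun a => by
      simpa [f, Fin.prod_univ_two, mul_assoc] using hb (a 0) (a 1)) (fun a => by
      rw [← hF (a 0) (a 1) (a 2)]
      simp [f, hochschildDiff, mergeArgs, Fin.sum_univ_two, sub_eq_add_neg, add_assoc])
  refine ⟨IsLinearMap.mk' _ (h1.lin [1] [1]), fun x => ?_, fun x y => ?_⟩
  · refine (h1.bd.2 [1, x, 1]).trans ?_
    have h3 : ‖(1 : M.toStarSubalgebra)‖ ≤ 1 := norm_one_le
    have : np [1, x, 1] ≤ ‖x‖ := by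
      simp only [np_cons, np_nil, mul_one]
      calc _ ≤ 1 * (‖x‖ * 1) := by gcongr
        _ = _ := by ring
    refine (mul_le_mul_of_nonneg_left this (by positivity)).trans (le_of_eq ?_)
    norm_num
  · have h3 := h2 1 x [y, 1]
    have h4 := ofC_ofFn f 1 1 ![x, y]
    have h5 := h1.left x 1 [y, 1]
    have h6 := h1.right 1 [x] 1 y
    simp only [dl_cons, dl_nil, cons_apply, one_mul, mul_one, sub_zero, List.cons_append,
      List.nil_append, List.ofFn_succ, List.ofFn_zero] at h3 h4 h5 h6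
    simp only [IsLinearMap.mk'_apply, List.cons_append, List.nil_append]
    rw [← h5, ← h6]
    refine Eq.trans ?_ (h3.trans h4)
    abel

theorem h3_vn (M : VonNeumannAlgebra H)
    (F : M.toStarSubalgebra →ₗ[ℂ] M.toStarSubalgebra →ₗ[ℂ] M.toStarSubalgebra) {r : ℝ}
    (hr : 0 ≤ r) (hb : ∀ x y z, ‖x * F y z - F (x * y) z + F x (y * z) - F x y * z‖ ≤
      r * ‖x‖ * ‖y‖ * ‖z‖) :
    ∃ e : M.toStarSubalgebra →ₗ[ℂ] M.toStarSubalgebra →ₗ[ℂ] M.toStarSubalgebra,
      (∀ x y, ‖e x y‖ ≤ 96 * r * ‖x‖ * ‖y‖) ∧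
      ∀ x y z, x * e y z - e (x * y) z + e x (y * z) - e x y * z =
        x * F y z - F (x * y) z + F x (y * z) - F x y * z := by
  let f : MultilinearMap ℂ (fun _ : Fin 3 => M.toStarSubalgebra) M.toStarSubalgebra :=
    { toFun := fun a => a 0 * F (a 1) (a 2) - F (a 0 * a 1) (a 2) + F (a 0) (a 1 * a 2) -
        F (a 0) (a 1) * a 2
      map_update_add' := by
        intro inst a i x y
        cases Subsingleton.elim inst (instDecidableEqFin 3)
        fin_cases i <;> simp [mul_add, add_mul] <;> abel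
      map_update_smul' := by
        intro inst a i c x
        cases Subsingleton.elim inst (instDecidableEqFin 3)
        fin_cases i <;> simp [smul_add, smul_sub] }
  obtain ⟨G, h1, h2⟩ := sol_vn M f hr (fun a => by
      simpa [f, Fin.prod_univ_three, mul_assoc] using hb (a 0) (a 1) (a 2)) (fun a => by
      have e2 : (-1 : M.toStarSubalgebra) ^ 3 = -1 := Odd.neg_one_pow ⟨1, rfl⟩
      have e3 : (-1 : ℤ) ^ (3 + 1) = 1 := by norm_num
      simp [f, hochschildDiff, mergeArgs, Fin.sum_univ_three, e2, e3, mul_add, add_mul, mul_sub,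
        sub_mul, mul_assoc]
      abel)
  refine ⟨LinearMap.mk₂ ℂ (fun x y => G [1, x, y, 1])
    (fun x x' y => (h1.lin [1] [y, 1]).map_add x x') (fun c x y => (h1.lin [1] [y, 1]).map_smul c x)
    (fun x y y' => (h1.lin [1, x] [1]).map_add y y')
    (fun c x y => (h1.lin [1, x] [1]).map_smul c y), fun x y => ?_, fun x y z => ?_⟩
  · refine (h1.bd.2 [1, x, y, 1]).trans ?_
    have h3 : ‖(1 : M.toStarSubalgebra)‖ ≤ 1 := norm_one_le
    have : np [1, x, y, 1] ≤ ‖x‖ * ‖y‖ := by
      simp only [np_cons, np_nil, mul_one]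
      calc _ ≤ 1 * (‖x‖ * (‖y‖ * 1)) := by gcongr
        _ = _ := by ring
    refine (mul_le_mul_of_nonneg_left this (by positivity)).trans (le_of_eq ?_)
    norm_num
    ring
  · have h3 := h2 1 x [y, z, 1]
    have h4 := ofC_ofFn f 1 1 ![x, y, z]
    have h5 := h1.left x 1 [y, z, 1]
    have h6 := h1.right 1 [x, y] 1 z
    simp only [dl_cons, dl_nil, cons_apply, one_mul, mul_one, sub_zero, List.cons_append,
      List.nil_append, List.ofFn_succ, List.ofFn_zero] at h3 h4 h5 h6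
    simp only [LinearMap.mk₂_apply]
    rw [← h5, ← h6]
    refine Eq.trans ?_ (h3.trans h4)
    abel

end Crest.Agent.H1KK
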