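import Crest.Agent.H1KK.Defs

/-! Reduction of a von Neumann algebra to the standard part of a vector. -/

set_option autoImplicit false

namespace Crest.Agent.H1KK

open scoped InnerProductSpace

universe u
variable {H : Type u} [NormedAddCommGroup H] [InnerProductSpace ℂ H] [CompleteSpace H]

lemma inner_st (a : H →L[ℂ] H) (x y : H) : ⟪star a x, y⟫_ℂ = ⟪x, a y⟫_ℂ :=
  ContinuousLinearMap.adjoint_inner_left a y x

lemma inner_st' (a : H →L[ℂ] H) (x y : H) : ⟪x, star a y⟫_ℂ = ⟪a x, y⟫_ℂ :=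
  ContinuousLinearMap.adjoint_inner_right a x y

lemma mem_comm_iff {M : VonNeumannAlgebra H} {y : H →L[ℂ] H} :
    y ∈ M.commutant ↔ ∀ x ∈ M, x * y = y * x := VonNeumannAlgebra.mem_commutant_iff

lemma mem_iff_comm {M : VonNeumannAlgebra H} {x : H →L[ℂ] H} :
    x ∈ M ↔ ∀ y ∈ M.commutant, y * x = x * y := by
  conv_lhs => rw [← M.commutant_commutant]
  exact mem_comm_iff

lemma vn_smul {M : VonNeumannAlgebra H} (c : ℂ) {x : H →L[ℂ] H} (hx : x ∈ M) : c • x ∈ M :=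
  M.toStarSubalgebra.smul_mem hx c

/-- extension of a densely defined bounded map, by zero on the complement -/
lemma exists_ext {V : Type*} [AddCommGroup V] [Module ℂ V] (f g : V →ₗ[ℂ] H) {C : ℝ} (hC : 0 ≤ C)
    (h : ∀ v, ‖f v‖ ≤ C * ‖g v‖) :
    ∃ T : H →L[ℂ] H, ‖T‖ ≤ C ∧ (∀ v, T (g v) = f v) ∧ ∀ w, (∀ v, ⟪g v, w⟫_ℂ = 0) → T w = 0 := by
  set U := (LinearMap.range g).topologicalClosure
  let g' : V →ₗ[ℂ] U := g.codRestrict U fun v =>
    (LinearMap.range g).le_topologicalClosure (LinearMap.mem_range_self g v)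
  have hd : DenseRange g' := by
    intro w
    rw [closure_subtype]
    have : (Subtype.val '' Set.range g') = (LinearMap.range g : Set H) := by
      ext z; constructor
      · rintro ⟨_, ⟨v, rfl⟩, rfl⟩; exact ⟨v, rfl⟩
      · rintro ⟨v, rfl⟩; exact ⟨g' v, ⟨v, rfl⟩, rfl⟩
    rw [this]; exact w.2
  have h' : ∀ v, ‖f v‖ ≤ C * ‖g' v‖ := h
  refine ⟨(f.extendOfNorm g').comp U.orthogonalProjection, ?_, fun v => ?_, fun w hw => ?_⟩
  · refine (ContinuousLinearMap.opNorm_comp_le _ _).trans ?_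
    have h1 := LinearMap.opNorm_extendOfNorm_le hd hC h'
    have h2 := U.orthogonalProjection_norm_le
    calc _ ≤ C * 1 := by gcongr
      _ = C := mul_one C
  · have : U.orthogonalProjection (g v) = g' v :=
      U.orthogonalProjection_mem_subspace_eq_self (g' v)
    simp only [ContinuousLinearMap.comp_apply, this]
    exact LinearMap.extendOfNorm_eq hd ⟨C, h'⟩ v
  · have : U.orthogonalProjection w = 0 := by
      rw [Submodule.orthogonalProjection_eq_zero_iff, Submodule.orthogonal_closure,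
        Submodule.mem_orthogonal]
      rintro _ ⟨v, rfl⟩; exact hw v
    simp [this]

/-- a positive operator commuting with `T` -/
lemma comm_pos {h T : H →L[ℂ] H} (hh : 0 ≤ h) (hc : Commute h T) (v : H) :
    (⟪T v, h (T v)⟫_ℂ).re ≤ ‖T‖ ^ 2 * (⟪v, h v⟫_ℂ).re := by
  set s := CFC.sqrt h
  have hs : s * s = h := CFC.sqrt_mul_sqrt_self h
  have hsa : star s = s := (IsSelfAdjoint.of_nonneg (CFC.sqrt_nonneg h)).star_eq
  have hsc : Commute s T := hc.cfcₙ_nnreal _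
  have key : ∀ w, (⟪w, h w⟫_ℂ).re = ‖s w‖ ^ 2 := by
    intro w
    rw [← hs, ContinuousLinearMap.mul_apply, ← inner_st s w, hsa, inner_self_eq_norm_sq_to_K]
    norm_cast
  rw [key, key, show s (T v) = T (s v) from congrArg (fun X : H →L[ℂ] H => X v) hsc.eq, ← mul_pow]
  gcongr
  exact T.le_opNorm _

variable {H0 : Type u} [NormedAddCommGroup H0] [InnerProductSpace ℂ H0] [CompleteSpace H0]

/-- reduction data -/
structure RD (A B : VonNeumannAlgebra H) (ξ : H) (qA qB : H →L[ℂ] H) (ι : H0 →L[ℂ] H)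
    (π : H →L[ℂ] H0) : Prop where
  hA : ∀ x, x ∈ A ↔ ∀ y ∈ B, y * x = x * y
  hB : ∀ y, y ∈ B ↔ ∀ x ∈ A, x * y = y * x
  qA_mem : qA ∈ A
  qB_mem : qB ∈ B
  qA_proj : IsStarProjection qA
  qB_proj : IsStarProjection qB
  qA_fix : ∀ y ∈ B, qA (y ξ) = y ξ
  qB_fix : ∀ x ∈ A, qB (x ξ) = x ξ
  qA_range : ∀ v, qA v ∈ closure {w | ∃ y ∈ B, w = y ξ}
  qB_range : ∀ v, qB v ∈ closure {w | ∃ x ∈ A, w = x ξ}
  πι : ∀ w, π (ι w) = w
  ιπ : ∀ v, ι (π v) = qA (qB v)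
  adj : ∀ v w, ⟪π v, w⟫_ℂ = ⟪v, ι w⟫_ℂ

/-- compression -/
noncomputable def cmp (ι : H0 →L[ℂ] H) (π : H →L[ℂ] H0) (x : H →L[ℂ] H) : H0 →L[ℂ] H0 :=
  π ∘L x ∘L ι

@[simp] lemma cmp_apply (ι : H0 →L[ℂ] H) (π : H →L[ℂ] H0) (x : H →L[ℂ] H) (w : H0) :
    cmp ι π x w = π (x (ι w)) := rfl

namespace RD
variable {A B : VonNeumannAlgebra H} {ξ : H} {qA qB : H →L[ℂ] H} {ι : H0 →L[ℂ] H}
  {π : H →L[ℂ] H0} (R : RD A B ξ qA qB ι π)
include R

lemma comm {x y : H →L[ℂ] H} (hx : x ∈ A) (hy : y ∈ B) (v : H) : y (x v) = x (y v) :=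
  congrArg (fun X : H →L[ℂ] H => X v) ((R.hA x).1 hx y hy)

lemma symm : RD B A ξ qB qA ι π :=
  { hA := R.hB, hB := R.hA, qA_mem := R.qB_mem, qB_mem := R.qA_mem, qA_proj := R.qB_proj,
    qB_proj := R.qA_proj, qA_fix := R.qB_fix, qB_fix := R.qA_fix, qA_range := R.qB_range,
    qB_range := R.qA_range, πι := R.πι, adj := R.adj
    ιπ := fun v => by rw [R.ιπ, R.comm R.qA_mem R.qB_mem] }

lemma qq (v : H) : qA (qA v) = qA v :=
  congrArg (fun X : H →L[ℂ] H => X v) R.qA_proj.isIdempotentElem.eq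

lemma q_ι (w : H0) : qA (ι w) = ι w := by
  conv_lhs => rw [← R.πι w, R.ιπ, R.qq]
  conv_rhs => rw [← R.πι w, R.ιπ]

lemma adj' (v : H) (w : H0) : ⟪w, π v⟫_ℂ = ⟪ι w, v⟫_ℂ := by
  rw [← inner_conj_symm, R.adj, inner_conj_symm]

lemma π_q (v : H) : π (qA v) = π v := by
  refine ext_inner_right ℂ fun w => ?_
  rw [R.adj, R.adj, ← inner_st', R.qA_proj.isSelfAdjoint.star_eq, R.q_ι]

lemma q_ξ : qA ξ = ξ := by simpa using R.qA_fix 1 (one_mem _)

lemma ιπ_ξ : ι (π ξ) = ξ := by rw [R.ιπ, R.symm.q_ξ, R.q_ξ]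

lemma ιπ_A {x : H →L[ℂ] H} (hx : x ∈ A) : ι (π (x ξ)) = qA (x ξ) := by rw [R.ιπ, R.qB_fix x hx]

lemma norm_ι (w : H0) : ‖ι w‖ = ‖w‖ := by
  have : ⟪ι w, ι w⟫_ℂ = ⟪w, w⟫_ℂ := by rw [← R.adj, R.πι]
  rw [inner_self_eq_norm_sq_to_K, inner_self_eq_norm_sq_to_K] at this
  have h2 : ‖ι w‖ ^ 2 = ‖w‖ ^ 2 := by exact_mod_cast this
  exact (pow_left_inj₀ (norm_nonneg _) (norm_nonneg _) two_ne_zero).1 h2

lemma norm_q (v : H) : ‖qA v‖ ≤ ‖v‖ := by
  have := qA.le_opNorm v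
  have h2 := R.qA_proj.norm_le
  nlinarith [norm_nonneg v]

lemma norm_π (v : H) : ‖π v‖ ≤ ‖v‖ := by
  rw [← R.norm_ι, R.ιπ]; exact (R.norm_q _).trans (R.symm.norm_q _)

lemma cmp_star (x : H →L[ℂ] H) : cmp ι π (star x) = star (cmp ι π x) := by
  ext w
  refine ext_inner_right ℂ fun w' => ?_
  rw [inner_st, cmp_apply, cmp_apply, R.adj, inner_st, R.adj']

lemma norm_cmp (x : H →L[ℂ] H) : ‖cmp ι π x‖ ≤ ‖x‖ := by
  refine ContinuousLinearMap.opNorm_le_bound _ (norm_nonneg _) fun w => ?_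
  rw [cmp_apply, ← R.norm_ι w]
  exact (R.norm_π _).trans (x.le_opNorm _)

lemma cmp_mul_A {x y : H →L[ℂ] H} (hy : y ∈ A) :
    cmp ι π x * cmp ι π y = cmp ι π (x * qA * y) := by
  ext w
  simp only [ContinuousLinearMap.mul_apply, cmp_apply]
  rw [R.ιπ, R.comm hy R.qB_mem, R.symm.q_ι]

lemma cmp_mul_AB {x y : H →L[ℂ] H} (hx : x ∈ A) (hy : y ∈ B) :
    cmp ι π x * cmp ι π y = cmp ι π (x * y) := by
  ext w
  simp only [ContinuousLinearMap.mul_apply, cmp_apply]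
  rw [R.symm.ιπ, ← R.comm R.qA_mem hy, R.q_ι, ← R.comm hx R.qB_mem, R.symm.π_q]

lemma cmp_comm {x y : H →L[ℂ] H} (hx : x ∈ A) (hy : y ∈ B) :
    cmp ι π y * cmp ι π x = cmp ι π x * cmp ι π y := by
  rw [R.cmp_mul_AB hx hy, R.symm.cmp_mul_AB hy hx, (R.hA x).1 hx y hy]

lemma ext_cyc {E : Type*} [NormedAddCommGroup E] [NormedSpace ℂ E] {X Y : H →L[ℂ] E}
    (h : ∀ y ∈ B, X (y ξ) = Y (y ξ)) (v : H) : X (qA v) = Y (qA v) := by
  refine closure_minimal (t := {w | X w = Y w}) ?_ (isClosed_eq X.continuous Y.continuous)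
    (R.qA_range v)
  rintro _ ⟨y, hy, rfl⟩; exact h y hy

lemma ext0 {E : Type*} [NormedAddCommGroup E] [NormedSpace ℂ E] {X Y : H0 →L[ℂ] E}
    (h : ∀ y ∈ B, X (π (y ξ)) = Y (π (y ξ))) : X = Y := by
  ext w
  have := R.ext_cyc (X := X ∘L π) (Y := Y ∘L π) h (ι w)
  simpa [R.q_ι, R.πι] using this

/-- uniqueness in the corner -/
lemma corner_ext {a b : H →L[ℂ] H} (ha : a ∈ A) (hb : b ∈ A) (ha1 : ∀ v, qA (a v) = a v)
    (ha2 : ∀ v, a (qA v) = a v) (hb1 : ∀ v, qA (b v) = b v) (hb2 : ∀ v, b (qA v) = b v)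
    (h : cmp ι π a = cmp ι π b) : a = b := by
  have h0 : a ξ = b ξ := by
    have := congrArg (fun X : H0 →L[ℂ] H0 => ι (X (π ξ))) h
    simp only [cmp_apply, R.ιπ_ξ, R.ιπ_A ha, R.ιπ_A hb, ha1, hb1] at this
    exact this
  ext v
  rw [← ha2, ← hb2]
  refine R.ext_cyc (fun y hy => ?_) v
  rw [← R.comm ha hy, ← R.comm hb hy, h0]

/-- extension from the reduced space -/
lemma exists_corner (T : H0 →L[ℂ] H0) (hT : ∀ c ∈ B, cmp ι π c * T = T * cmp ι π c) :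
    ∃ x ∈ A, (∀ v, qA (x v) = x v) ∧ (∀ v, x (qA v) = x v) ∧ cmp ι π x = T ∧ ‖x‖ ≤ ‖T‖ := by
  let g : B.toStarSubalgebra →ₗ[ℂ] H :=
    { toFun := fun c => c.1 ξ, map_add' := fun _ _ => rfl, map_smul' := fun _ _ => rfl }
  let f : B.toStarSubalgebra →ₗ[ℂ] H :=
    { toFun := fun c => c.1 (ι (T (π ξ))), map_add' := fun _ _ => rfl, map_smul' := fun _ _ => rfl }
  have hn : ∀ (c : H →L[ℂ] H) (w : H0), (⟪w, cmp ι π (star c * c) w⟫_ℂ).re = ‖c (ι w)‖ ^ 2 := by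
    intro c w
    rw [cmp_apply, R.adj', ContinuousLinearMap.mul_apply, inner_st', inner_self_eq_norm_sq_to_K]
    norm_cast
  have hb : ∀ c, ‖f c‖ ≤ ‖T‖ * ‖g c‖ := by
    intro c
    have hpos : 0 ≤ cmp ι π (star c.1 * c.1) := by
      rw [ContinuousLinearMap.nonneg_iff_isPositive, ContinuousLinearMap.isPositive_def']
      refine ⟨?_, fun w => ?_⟩
      · change star _ = _
        rw [← R.cmp_star, star_mul, star_star]
      · have := hn c.1 w
        rw [ContinuousLinearMap.reApplyInnerSelf_apply, ← inner_conj_symm]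
        simp only [RCLike.re_to_complex, Complex.conj_re]
        rw [this]; positivity
    have h1 := comm_pos hpos (T := T) (hT _ (mul_mem (star_mem c.2) c.2)) (π ξ)
    rw [hn, hn, R.ιπ_ξ, ← mul_pow] at h1
    exact (pow_le_pow_iff_left₀ (norm_nonneg _) (by positivity) two_ne_zero).1 h1
  obtain ⟨x, hx1, hx2, hx3⟩ := exists_ext f g (norm_nonneg T) hb
  have e1 : ∀ c ∈ B, x (c ξ) = c (ι (T (π ξ))) := fun c hc => hx2 ⟨c, hc⟩
  have e2 : ∀ v, x (qA v) = x v := by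
    intro v
    have : x (v - qA v) = 0 := hx3 _ fun c => by
      change ⟪c.1 ξ, _⟫_ℂ = 0
      rw [← R.qA_fix c.1 c.2, ← R.qA_proj.isSelfAdjoint.star_eq, inner_st,
        R.qA_proj.isSelfAdjoint.star_eq, map_sub, R.qq, sub_self, inner_zero_right]
    rw [map_sub, sub_eq_zero] at this; exact this.symm
  refine ⟨x, (R.hA x).2 fun y hy => ?_, fun v => ?_, e2, ?_, hx1⟩
  · ext v
    simp only [ContinuousLinearMap.mul_apply]
    rw [← e2 v, ← e2 (y v), ← R.comm R.qA_mem hy]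
    refine R.ext_cyc (X := y * x) (Y := x * y) (fun c hc => ?_) v
    simp only [ContinuousLinearMap.mul_apply]
    rw [e1 c hc]; exact (e1 (y * c) (mul_mem hy hc)).symm
  · rw [← e2 v]
    refine R.ext_cyc (X := qA * x) (Y := x) (fun c hc => ?_) v
    simp only [ContinuousLinearMap.mul_apply]
    rw [e1 c hc, ← R.comm R.qA_mem hc, R.q_ι]
  · refine R.ext0 fun c hc => ?_
    rw [cmp_apply, R.symm.ιπ, R.qA_fix c hc]
    have := e1 (qB * c) (mul_mem R.qB_mem hc)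
    simp only [ContinuousLinearMap.mul_apply] at this
    rw [this, R.symm.π_q]
    have h2 := congrArg (fun X : H0 →L[ℂ] H0 => X (π ξ)) (hT c hc)
    simpa [R.ιπ_ξ] using h2

end RD

lemma exists_cycProj (A B : VonNeumannAlgebra H) (hA : ∀ x, x ∈ A ↔ ∀ y ∈ B, y * x = x * y) (ξ : H) :
    ∃ q ∈ A, IsStarProjection q ∧ (∀ y ∈ B, q (y ξ) = y ξ) ∧
      ∀ v, q v ∈ closure {w | ∃ y ∈ B, w = y ξ} := by
  let g : B.toStarSubalgebra →ₗ[ℂ] H :=
    { toFun := fun c => c.1 ξ, map_add' := fun _ _ => rfl, map_smul' := fun _ _ => rfl }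
  set U := (LinearMap.range g).topologicalClosure
  have hU : (U : Set H) = closure {w | ∃ y ∈ B, w = y ξ} := by
    rw [Submodule.topologicalClosure_coe]
    congr 1
    ext w; constructor
    · rintro ⟨c, rfl⟩; exact ⟨c.1, c.2, rfl⟩
    · rintro ⟨y, hy, rfl⟩; exact ⟨⟨y, hy⟩, rfl⟩
  have hinv : ∀ y ∈ B, ∀ w ∈ U, y w ∈ U := by
    intro y hy w hw
    change y w ∈ (U : Set H)
    have hw' : w ∈ (U : Set H) := hw
    rw [hU] at hw' ⊢
    refine map_mem_closure y.continuous hw' ?_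
    rintro _ ⟨c, hc, rfl⟩; exact ⟨y * c, mul_mem hy hc, rfl⟩
  refine ⟨U.starProjection, (hA _).2 fun y hy => ?_, isStarProjection_starProjection, fun y hy => ?_,
    fun v => ?_⟩
  · ext v
    simp only [ContinuousLinearMap.mul_apply]
    symm
    refine Submodule.eq_starProjection_of_mem_orthogonal (hinv y hy _ (U.starProjection_apply_mem v)) ?_
    rw [← map_sub, Submodule.mem_orthogonal]
    intro w hw
    rw [← inner_st]
    exact (Submodule.mem_orthogonal _ _).1 (U.sub_starProjection_mem_orthogonal v) _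
      (hinv _ (star_mem hy) w hw)
  · rw [Submodule.starProjection_eq_self_iff]
    change y ξ ∈ (U : Set H)
    rw [hU]; exact subset_closure ⟨y, hy, rfl⟩
  · rw [← hU]; exact U.starProjection_apply_mem v

theorem exists_RD (M : VonNeumannAlgebra H) (ξ : H) :
    ∃ (U : Submodule ℂ H) (_ : CompleteSpace U) (qA qB : H →L[ℂ] H) (ι : U →L[ℂ] H) (π : H →L[ℂ] U),
      RD M M.commutant ξ qA qB ι π := by
  obtain ⟨qA, h1, h2, h3, h4⟩ := exists_cycProj M M.commutant (fun _ => mem_iff_comm) ξ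
  obtain ⟨qB, h1', h2', h3', h4'⟩ := exists_cycProj M.commutant M (fun _ => mem_comm_iff) ξ
  have hc : qA * qB = qB * qA := mem_comm_iff.1 h1' qA h1
  have he : IsStarProjection (qA * qB) := h2.mul h2' hc
  set e := qA * qB with he_def
  have hee : ∀ v, e (e v) = e v := fun v =>
    congrArg (fun X : H →L[ℂ] H => X v) he.isIdempotentElem.eq
  let U : Submodule ℂ H := LinearMap.ker ((e - 1 : H →L[ℂ] H) : H →ₗ[ℂ] H)
  have hU : ∀ v, v ∈ U ↔ e v = v := fun v => by simp [U, sub_eq_zero]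
  have hcl : IsClosed (U : Set H) := (e - 1).isClosed_ker
  refine ⟨U, hcl.completeSpace_coe, qA, qB, U.subtypeL, e.codRestrict U fun v => (hU _).2 (hee v),
    fun _ => mem_iff_comm, fun _ => mem_comm_iff, h1, h1', h2, h2', h3, h3', h4, h4', fun w => ?_,
    fun v => rfl, fun v w => ?_⟩
  · exact Subtype.ext ((hU _).1 w.2)
  · change ⟪e v, (w : H)⟫_ℂ = ⟪v, (w : H)⟫_ℂ
    rw [← he.isSelfAdjoint.star_eq, inner_st, (hU _).1 w.2]

end Crest.Agent.H1KK
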