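import Crest.Agent.H1KK.Gauss

/-! `HasMD` and `Band` from the Tomita–Takesaki theorem. -/

set_option autoImplicit false

namespace Crest.Agent.H1KK

open scoped InnerProductSpace BoundedContinuousFunction
open Crest.OpAlg Crest.Agent.H3Mod

universe u
variable {H : Type u} [NormedAddCommGroup H] [InnerProductSpace ℂ H] [CompleteSpace H]

lemma norm_conj_le (D : LineCalculus H) (t : ℝ) (T : H →L[ℂ] H) :
    ‖D.wave t * T * D.wave (-t)‖ ≤ ‖T‖ := by
  refine ContinuousLinearMap.opNorm_le_bound _ (norm_nonneg _) fun v => ?_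
  simp only [ContinuousLinearMap.mul_apply, norm_wave_apply]
  simpa only [norm_wave_apply] using T.le_opNorm (D.wave (-t) v)

lemma nonneg_of_re {T : H →L[ℂ] H} (h1 : star T = T) (h2 : ∀ v, 0 ≤ (⟪v, T v⟫_ℂ).re) : 0 ≤ T := by
  rw [ContinuousLinearMap.nonneg_iff_isPositive, ContinuousLinearMap.isPositive_def']
  refine ⟨h1, fun w => ?_⟩
  rw [ContinuousLinearMap.reApplyInnerSelf_apply, ← inner_conj_symm]
  simpa only [RCLike.re_to_complex, Complex.conj_re] using h2 w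

lemma re_of_nonneg {T : H →L[ℂ] H} (h : 0 ≤ T) (v : H) : 0 ≤ (⟪v, T v⟫_ℂ).re := by
  rw [ContinuousLinearMap.nonneg_iff_isPositive] at h
  exact h.re_inner_nonneg_right v

lemma re_inner_self3 (v : H) : (⟪v, v⟫_ℂ).re = ‖v‖ ^ 2 := by
  rw [inner_self_eq_norm_sq_to_K]; norm_cast

lemma cs_sum {κ : Type} [Fintype κ] (p a b : κ → ℝ) (hp : ∀ k, 0 ≤ p k) {c₁ c₂ : ℝ} (h₁ : 0 ≤ c₁)
    (h₂ : 0 ≤ c₂) (ha : ∑ k, p k * a k ^ 2 ≤ c₁ ^ 2) (hb : ∑ k, p k * b k ^ 2 ≤ c₂ ^ 2) :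
    ∑ k, p k * (a k * b k) ≤ c₁ * c₂ := by
  have h := Finset.sum_mul_sq_le_sq_mul_sq Finset.univ (fun k => √(p k) * a k) (fun k => √(p k) * b k)
  have e1 : ∀ k, √(p k) * a k * (√(p k) * b k) = p k * (a k * b k) := fun k => by
    rw [mul_mul_mul_comm, Real.mul_self_sqrt (hp k)]
  simp only [e1, mul_pow, Real.sq_sqrt (hp _)] at h
  refine abs_le_of_sq_le_sq' ?_ (by positivity) |>.2
  refine h.trans ?_
  rw [mul_pow]
  exact mul_le_mul ha hb (Finset.sum_nonneg fun k _ => mul_nonneg (hp k) (sq_nonneg _)) (sq_nonneg _)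

variable {H0 : Type u} [NormedAddCommGroup H0] [InnerProductSpace ℂ H0] [CompleteSpace H0]

/-- compression as a linear map -/
noncomputable def cmpL (ι : H0 →L[ℂ] H) (π : H →L[ℂ] H0) : (H →L[ℂ] H) →ₗ[ℂ] (H0 →L[ℂ] H0) where
  toFun := cmp ι π
  map_add' := fun x y => by ext; simp
  map_smul' := fun c x => by ext; simp

namespace RD
variable {A B : VonNeumannAlgebra H} {ξ : H} {qA qB : H →L[ℂ] H} {ι : H0 →L[ℂ] H}
  {π : H →L[ℂ] H0} (R : RD A B ξ qA qB ι π)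
include R

lemma corner_nonneg {a : H →L[ℂ] H} (ha : a ∈ A) (h1 : ∀ v, qA (a v) = a v)
    (h2 : ∀ v, a (qA v) = a v) (h : 0 ≤ cmp ι π a) : 0 ≤ a := by
  obtain ⟨s, hs, s1, s2, s3, -⟩ := R.exists_corner (CFC.sqrt (cmp ι π a)) fun c hc =>
    ((show Commute (cmp ι π a) (cmp ι π c) from (R.cmp_comm ha hc).symm).cfcₙ_nnreal _).symm.eq
  have : a = star s * s := by
    refine R.corner_ext ha (mul_mem (star_mem hs) hs) h1 h2 (fun v => R.corner_star' s2 _)
      (fun v => by simp [s2]) ?_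
    have e : star s * s = star s * qA * s := by ext v; simp [s1]
    rw [e, ← R.cmp_mul_A hs, R.cmp_star, s3,
      (IsSelfAdjoint.of_nonneg (CFC.sqrt_nonneg _)).star_eq, CFC.sqrt_mul_sqrt_self _]
  rw [this]; exact star_mul_self_nonneg s

lemma sum_bound {κ : Type} [Fintype κ] (p : κ → ℝ) (hp : ∀ k, 0 ≤ p k) (T : κ → H0 →L[ℂ] H0)
    (hT : ∀ k, ∀ c ∈ A, cmp ι π c * T k = T k * cmp ι π c) (hpos : ∀ k, 0 ≤ T k) (C : ℝ)
    (hC : 0 ≤ C) (hs : ∀ w, ∑ k, p k * (⟪w, T k w⟫_ℂ).re ≤ C * ‖w‖ ^ 2) (a : κ → H →L[ℂ] H)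
    (ha : ∀ k, a k ∈ A ∧ ‖a k‖ ≤ 1) (ζ : H) :
    ∑ k, p k * (⟪π (a k ζ), T k (π (a k ζ))⟫_ℂ).re ≤ C * ‖ζ‖ ^ 2 := by
  choose X hX X1 X2 X3 _ using fun k => R.symm.exists_corner (T k) (hT k)
  have hXp : ∀ k, 0 ≤ X k := fun k => R.symm.corner_nonneg (hX k) (X1 k) (X2 k) (X3 k ▸ hpos k)
  have h1 : ∀ k, (⟪π (a k ζ), T k (π (a k ζ))⟫_ℂ).re ≤ (⟪ζ, X k ζ⟫_ℂ).re := by
    intro k
    have hm : qA * a k ∈ A := mul_mem R.qA_mem (ha k).1
    have hc := comm_pos (hXp k) (T := qA * a k) ((R.hA _).1 hm _ (hX k)) ζ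
    have hn : ‖qA * a k‖ ≤ 1 :=
      (norm_mul_le _ _).trans (mul_le_one₀ R.qA_proj.norm_le (norm_nonneg _) (ha k).2)
    have e : ⟪π (a k ζ), T k (π (a k ζ))⟫_ℂ = ⟪(qA * a k) ζ, X k ((qA * a k) ζ)⟫_ℂ := by
      rw [← X3, cmp_apply, R.adj', R.symm.ιπ, X2, ← R.qB_proj.isSelfAdjoint.star_eq, inner_st,
        X1]; rfl
    rw [e]
    have := re_of_nonneg (hXp k) ζ
    have h2 : ‖qA * a k‖ ^ 2 ≤ 1 := pow_le_one₀ (norm_nonneg _) hn
    nlinarith
  have hP : 0 ≤ (C : ℂ) • qB - ∑ k, (p k : ℂ) • X k := by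
    refine R.symm.corner_nonneg (sub_mem (vn_smul _ R.qB_mem)
      (sum_mem fun k _ => vn_smul _ (hX k))) (fun v => by simp [R.symm.qq, X1])
      (fun v => by simp [R.symm.qq, X2]) (nonneg_of_re ?_ fun w => ?_)
    · rw [← R.cmp_star]; congr 1
      simp [R.qB_proj.isSelfAdjoint.star_eq, (IsSelfAdjoint.of_nonneg (hXp _)).star_eq, star_sum]
    · have := hs w
      simp only [← X3, cmp_apply] at this
      simp only [cmp_apply, ContinuousLinearMap.sub_apply, ContinuousLinearMap.smul_apply,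
        ContinuousLinearMap.sum_apply, map_sub, map_smul, map_sum, R.symm.q_ι, R.πι,
        inner_sub_right, inner_smul_right, inner_sum, Complex.sub_re, Complex.re_sum,
        Complex.re_ofReal_mul, re_inner_self3]
      linarith
  have h2 := re_of_nonneg hP ζ
  simp only [ContinuousLinearMap.sub_apply, ContinuousLinearMap.smul_apply,
    ContinuousLinearMap.sum_apply, inner_sub_right, inner_smul_right, inner_sum, Complex.sub_re,
    Complex.re_sum, Complex.re_ofReal_mul] at h2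
  have h3 : (⟪ζ, qB ζ⟫_ℂ).re ≤ ‖ζ‖ ^ 2 :=
    (Complex.re_le_norm _).trans ((norm_inner_le_norm _ _).trans (by
      have := R.symm.norm_q ζ; nlinarith [norm_nonneg ζ]))
  calc _ ≤ ∑ k, p k * (⟪ζ, X k ζ⟫_ℂ).re :=
        Finset.sum_le_sum fun k _ => mul_le_mul_of_nonneg_left (h1 k) (hp k)
    _ ≤ _ := by nlinarith

lemma band_red (S : H3.KK.MD (vnC (cmp ι π '' (B : Set (H →L[ℂ] H)))) (π ξ)) {x w : H →L[ℂ] H}
    (hx : x ∈ A) (hw : w ∈ B) (hx1 : ‖x‖ ≤ 1) (hw1 : ‖w‖ ≤ 1) {d : ℝ} (h1 : ‖x ξ - w ξ‖ ≤ d)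
    (h2 : ‖ξ‖ - d ≤ ‖x ξ‖) :
    ‖x ξ - qA (x ξ)‖ ≤ d ∧ ‖S.D.apply th (π (x ξ))‖ ^ 2 ≤ 14 * ‖ξ‖ * d := by
  have hn : ‖π ξ‖ = ‖ξ‖ := by rw [← R.norm_ι, R.ιπ_ξ]
  have h3 : ‖x ξ - qA (x ξ)‖ ≤ d := by
    have e : x ξ - qA (x ξ) = (1 - qA) (x ξ - w ξ) := by simp [R.qA_fix w hw]
    rw [e]
    refine ((1 - qA).le_opNorm _).trans ?_
    have := R.qA_proj.one_sub.norm_le
    nlinarith [norm_nonneg (x ξ - w ξ), norm_nonneg (1 - qA)]
  refine ⟨h3, ?_⟩
  have := band0 S (R.cmp_mem hx) (R.cmp_mem' hw) ((R.norm_cmp x).trans hx1)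
    ((R.norm_cmp w).trans hw1) (d := d)
    (by rw [R.cmp_vac, R.cmp_vac, ← map_sub]; exact (R.norm_π _).trans h1)
    (by
      rw [R.cmp_vac, hn, ← R.norm_ι, R.ιπ_A hx]
      have := norm_sub_norm_le (x ξ) (qA (x ξ))
      linarith)
  rwa [R.cmp_vac, hn] at this

end RD

/-- the trivial calculus -/
noncomputable def trivD (H : Type u) [NormedAddCommGroup H] [InnerProductSpace ℂ H]
    [CompleteSpace H] : LineCalculus H where
  apply :=
    { toFun := fun f => f 0 • 1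
      map_one' := by simp
      map_mul' := fun f g => by simp [smul_smul, mul_comm]
      map_zero' := by simp
      map_add' := fun f g => by simp [add_smul]
      commutes' := fun c => by simp [Algebra.algebraMap_eq_smul_one]
      map_star' := fun f => by simp }
  window := fun x ε hε => by
    obtain ⟨g, hg1, -, hgc, hg⟩ := exists_continuous_one_zero_of_isCompact
      (isCompact_singleton (x := (0 : ℝ))) isClosed_empty (Set.disjoint_empty _)
    refine ⟨bcf g g.continuous 1 fun u => abs_le.2 ⟨by linarith [(hg u).1], (hg u).2⟩,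
      hgc.comp_left (g := fun r : ℝ => (r : ℂ)) (by simp), ?_⟩
    have : g 0 = 1 := hg1 rfl
    simpa [this] using hε

lemma jstar {M : VonNeumannAlgebra H} {ξ : H} (S : H3.KK.MD M ξ) {a b b' : H →L[ℂ] H}
    (hb : ∀ v, b v = S.J (a (S.J v))) (hb' : ∀ v, b' v = S.J (star a (S.J v))) : b' = star b := by
  ext v
  refine ext_inner_right ℂ fun w => ?_
  rw [inner_st, hb, hb', ← S.J_J w, J_inner, S.J_J, ← S.J_J v, J_inner, S.J_J, inner_st']

theorem hasMD (hT : H3.KK.TT.{u}) : HasMD H := by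
  intro M ξ
  by_cases hξ : ξ = 0
  · subst hξ
    exact ⟨{ D := trivD H, q := 0, σ := 0, ρ := 0, q_mem := zero_mem _, q_proj := .zero _,
             q_fix := by simp, σ_mem := fun _ _ _ => zero_mem _, σ_norm := by simp,
             σ_star := by simp, σ_cont := fun _ _ _ => by simpa using continuous_const,
             σ_vac := by simp, ρ_mem := fun _ _ _ => zero_mem _, ρ_norm := by simp,
             ρ_star := by simp, ρ_cont := fun _ _ _ => by simpa using continuous_const,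
             ρ_vac := by simp, half := fun _ _ _ f g _ => by simp, band := by simp }⟩
  obtain ⟨U, _, qA, qB, ι, π, R⟩ := exists_RD M ξ
  obtain ⟨S⟩ := R.exists_md hT hξ
  choose σ hσ using fun t : ℝ => R.exists_lin
    (LinearMap.mulRight ℂ (S.D.wave (-t)) ∘ₗ LinearMap.mulLeft ℂ (S.D.wave t) ∘ₗ cmpL ι π)
    fun x hx => R.mem_red.1 (S.flow_mem t _ (R.cmp_mem hx))
  have hσ' : ∀ t, ∀ x ∈ M, cmp ι π (σ t x) = S.D.wave t * cmp ι π x * S.D.wave (-t) :=
    fun t x hx => (hσ t x hx).2.2.2.1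
  have hex : ∀ x : H →L[ℂ] H, ∃ b : U →L[ℂ] U, x ∈ M → b ∈ (vnC (cmp ι π '' (M.commutant :
      Set (H →L[ℂ] H)))).commutant ∧ ∀ v, b v = S.J (cmp ι π x (S.J v)) := by
    intro x
    by_cases hx : x ∈ M
    · obtain ⟨b, hb, hb'⟩ := S.jm _ (R.cmp_mem hx); exact ⟨b, fun _ => ⟨hb, hb'⟩⟩
    · exact ⟨0, fun h => absurd h hx⟩
  choose jb hjb using hex
  have hex2 : ∀ (t : ℝ) (x : H →L[ℂ] H), ∃ y : H →L[ℂ] H, x ∈ M → y ∈ M.commutant ∧
      (∀ v, qB (y v) = y v) ∧ (∀ v, y (qB v) = y v) ∧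
      cmp ι π y = S.D.wave t * jb x * S.D.wave (-t) ∧ ‖y‖ ≤ ‖S.D.wave t * jb x * S.D.wave (-t)‖ := by
    intro t x
    by_cases hx : x ∈ M
    · obtain ⟨y, hy⟩ := R.symm.exists_corner _ (R.of_mem' (S.flow_mem' t _ (hjb x hx).1))
      exact ⟨y, fun _ => hy⟩
    · exact ⟨0, fun h => absurd h hx⟩
  choose ρ hρ using hex2
  have σv : ∀ t, ∀ x ∈ M, σ t x ξ = ι (S.D.wave t (π (x ξ))) := fun t x hx => by
    rw [R.corner_vac (hσ t x hx).1 (hσ t x hx).2.1, hσ' t x hx]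
    simp only [ContinuousLinearMap.mul_apply, S.wave_vac, R.cmp_vac]
  have ρv : ∀ t, ∀ x ∈ M, ρ t x ξ = ι (S.D.wave t (S.J (π (x ξ)))) := fun t x hx => by
    rw [R.symm.corner_vac (hρ t x hx).1 (hρ t x hx).2.1, (hρ t x hx).2.2.2.1]
    simp only [ContinuousLinearMap.mul_apply, S.wave_vac, (hjb x hx).2, S.J_vac, R.cmp_vac]
  have σn : ∀ t, ∀ x ∈ M, ‖σ t x‖ ≤ ‖x‖ := fun t x hx =>
    (hσ t x hx).2.2.2.2.trans ((norm_conj_le S.D t _).trans (R.norm_cmp x))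
  have ρn : ∀ t, ∀ x ∈ M, ‖ρ t x‖ ≤ ‖x‖ := fun t x hx =>
    (hρ t x hx).2.2.2.2.trans ((norm_conj_le S.D t _).trans (by
      refine ContinuousLinearMap.opNorm_le_bound _ (norm_nonneg _) fun v => ?_
      rw [(hjb x hx).2, S.J.norm_map, ← S.J.norm_map v]
      exact ((cmp ι π x).le_opNorm _).trans (by gcongr; exact R.norm_cmp x)))
  refine ⟨{ D := R.liftD S.D, q := qA, σ := σ, ρ := ρ, q_mem := R.qA_mem, q_proj := R.qA_proj,
            q_fix := R.qA_fix, σ_mem := fun t x hx => (hσ t x hx).1, σ_norm := σn,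
            σ_star := fun t x hx => ?_, σ_cont := fun x hx v => ?_, σ_vac := fun t x hx => ?_,
            ρ_mem := fun t x hx => (hρ t x hx).1, ρ_norm := ρn, ρ_star := fun t x hx => ?_,
            ρ_cont := fun x hx v => ?_, ρ_vac := fun t x hx => ?_,
            half := fun x hx hs f g hfg => ?_, band := fun x hx w hw hx1 hw1 d h1 h2 => ?_ }⟩
  · have h := hσ t x hx
    have h' := hσ t _ (star_mem hx)
    refine R.corner_ext h'.1 (star_mem h.1) h'.2.1 h'.2.2.1 (R.corner_star' h.2.2.1)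
      (R.corner_star h.2.1) ?_
    rw [R.cmp_star, hσ' t x hx, hσ' t _ (star_mem hx), R.cmp_star]
    simp [star_wave, mul_assoc]
  · refine R.cont_of_vac _ (fun t => (hσ t x hx).1) (fun t => (hσ t x hx).2.2.1) _
      (fun t => σn t x hx) ?_ v
    simp only [σv _ x hx]
    exact ι.continuous.comp (continuous_wave _ _)
  · rw [σv t x hx, ← R.ιπ_A hx]; exact (R.liftD_ι _ _ _).symm
  · have h := hρ t x hx
    have h' := hρ t _ (star_mem hx)
    refine R.symm.corner_ext h'.1 (star_mem h.1) h'.2.1 h'.2.2.1 (R.symm.corner_star' h.2.2.1)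
      (R.symm.corner_star h.2.1) ?_
    rw [R.cmp_star, h.2.2.2.1, h'.2.2.2.1,
      jstar S (b' := jb (star x)) (hjb x hx).2 (by rw [← R.cmp_star]; exact (hjb _ (star_mem hx)).2)]
    simp [star_wave, mul_assoc]
  · refine R.symm.cont_of_vac _ (fun t => (hρ t x hx).1) (fun t => (hρ t x hx).2.2.1) _
      (fun t => ρn t x hx) ?_ v
    simp only [ρv _ x hx]
    exact ι.continuous.comp (continuous_wave _ _)
  · rw [ρv t x hx, ρv 0 x hx, wave_zero]; exact (R.liftD_ι _ _ _).symm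
  · rw [ρv 0 x hx, wave_zero, ← R.ιπ_A hx, ContinuousLinearMap.one_apply, R.liftD_ι, R.liftD_ι]
    have := S.half _ (R.cmp_mem hx) f g hfg
    rw [← R.cmp_star, hs, R.cmp_vac] at this
    rw [this]
  · rw [← R.ιπ_A hx, R.liftD_ι, R.norm_ι]
    have := (R.band_red S hx hw hx1 hw1 h1 h2).2
    have h3 : 0 ≤ ‖ξ‖ * √(‖ξ‖ * d) := by positivity
    nlinarith

end Crest.Agent.H1KK
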